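import Vale.Agent.P170.Basic

/-! Block interpolation: `K` blocks of `n` variables. -/

set_option linter.unusedSectionVars false

namespace P170

open Finset

section
variable {W : Type} [Fintype W] [DecidableEq W] [Nonempty W] {K : ℕ}

/-- literal of block `κ` -/
def liftL (κ : Fin K) (l : Lit W) : Lit (Fin K × W) := ((κ, l.1), l.2)

/-- block clauses -/
def blockT (W : Type) (K k : ℕ) (i : Fin K × (Fin k → Lit W)) : Set (Asg (Fin K × W)) :=
  sol (fun j => liftL i.1 (i.2 j))

/-- clause inside a uniformly random block -/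
noncomputable def QB (W : Type) [Fintype W] [DecidableEq W] (K k : ℕ) :
    Module.End ℝ (Set (Asg (Fin K × W)) → ℝ) := avgOp (blockT W K k)

/-- killing literals of block `κ` -/
noncomputable def Zb (S : Set (Asg (Fin K × W))) (κ : Fin K) : Finset (Lit W) := by
  classical exact univ.filter (fun l => liftL κ l ∈ Zs S)

lemma sum_Zb (S : Set (Asg (Fin K × W))) : ∑ κ, (Zb S κ).card = (Zs S).card := by
  classical
  have h : (Zs S).card = ∑ l : Lit (Fin K × W), if l ∈ Zs S then 1 else 0 := by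
    simp
  have h2 : ∀ κ, (Zb S κ).card = ∑ l : Lit W, if liftL κ l ∈ Zs S then 1 else 0 := by
    intro κ
    unfold Zb
    rw [Finset.card_filter]
  rw [h, Finset.sum_congr rfl (fun κ _ => h2 κ), ← Fintype.sum_prod_type']
  refine Fintype.sum_equiv
    ((Equiv.prodAssoc (Fin K) W Bool).symm) _ _ ?_
  rintro ⟨κ, l⟩
  rfl

lemma block_count (k : ℕ) (S : Set (Asg (Fin K × W))) (κ : Fin K) :
    ∑ C : Fin k → Lit W, ind (S ∩ blockT W K k (κ, C))
      = (Fintype.card (Lit W) : ℝ) ^ k - ((Zb S κ).card : ℝ) ^ k := by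
  classical
  have h1 : ∀ C : Fin k → Lit W, ind (S ∩ blockT W K k (κ, C))
      = 1 - (if C ∈ Fintype.piFinset (fun _ : Fin k => Zb S κ) then 1 else 0) := by
    intro C
    unfold blockT
    by_cases h : (S ∩ sol (fun j => liftL κ (C j))).Nonempty
    · rw [ind_of_nonempty h, if_neg]
      · ring
      · rw [inter_sol_nonempty_iff] at h
        obtain ⟨i, hi⟩ := h
        rw [Fintype.mem_piFinset]
        intro hh
        apply hi
        have := hh i
        simpa [Zb] using this
    · rw [ind_of_empty h, if_pos]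
      · ring
      · rw [inter_sol_nonempty_iff] at h
        push Not at h
        rw [Fintype.mem_piFinset]
        intro i
        simpa [Zb] using h i
  rw [Finset.sum_congr rfl (fun C _ => h1 C), Finset.sum_sub_distrib]
  congr 1
  · simp
  · rw [Finset.sum_ite_mem, Finset.univ_inter, Finset.sum_const, Fintype.card_piFinset_const]
    simp

lemma QB_ind_le [NeZero K] (k : ℕ) (hk : k ≠ 0) (S : Set (Asg (Fin K × W))) :
    QB W K k ind S ≤ Q (Fin K × W) k ind S := by
  by_cases hS : S.Nonempty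
  · have hkill := kill k hk S
    have hK : (0:ℝ) < K := by exact_mod_cast NeZero.pos K
    have hL : (0:ℝ) < Fintype.card (Lit W) := by exact_mod_cast Fintype.card_pos
    have hQ : Q (Fin K × W) k ind S = 1 - z S ^ k := by
      rw [ind_of_nonempty hS] at hkill
      linarith
    have hcard : (Fintype.card (Lit (Fin K × W)) : ℝ) = K * Fintype.card (Lit W) := by
      simp only [Lit, Fintype.card_prod, Fintype.card_fin, Fintype.card_bool]
      push_cast
      ring
    have hz : z S = ∑ κ : Fin K, (1/(K:ℝ)) * ((Zb S κ).card / Fintype.card (Lit W)) := by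
      unfold z
      rw [ind_of_nonempty hS, one_mul, ← sum_Zb S, hcard]
      push_cast
      rw [Finset.sum_div]
      refine Finset.sum_congr rfl fun κ _ => ?_
      field_simp
    have hJ : z S ^ k ≤ ∑ κ : Fin K, (1/(K:ℝ)) * ((Zb S κ).card / Fintype.card (Lit W)) ^ k := by
      rw [hz]
      apply Real.pow_arith_mean_le_arith_mean_pow
      · intro i _; positivity
      · simp
      · intro i _; positivity
    have hB : QB W K k ind S
        = 1 - ∑ κ : Fin K, (1/(K:ℝ)) * ((Zb S κ).card / Fintype.card (Lit W)) ^ k := by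
      unfold QB
      rw [avgOp_apply, Fintype.sum_prod_type, Fintype.card_prod]
      rw [Finset.sum_congr rfl (fun κ _ => block_count k S κ), Finset.sum_sub_distrib]
      push_cast
      rw [card_clause, Fintype.card_fin, sub_div]
      congr 1
      · rw [Finset.sum_const, Finset.card_univ, Fintype.card_fin, nsmul_eq_mul,
          div_self (by positivity)]
      · rw [Finset.sum_div]
        refine Finset.sum_congr rfl fun κ _ => ?_
        rw [div_pow]
        field_simp
    rw [hQ, hB]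
    linarith
  · have h0 : ∀ C, ind (S ∩ blockT W K k C) = 0 := fun C =>
      ind_of_empty (fun h => hS h.left)
    unfold QB
    rw [avgOp_apply, Finset.sum_congr rfl (fun C _ => h0 C)]
    simp only [Finset.sum_const_zero, zero_div]
    exact avgOp_pos _ _ ind_nonneg _

lemma QBpow_le [NeZero K] (k : ℕ) (hk : k ≠ 0) (m : ℕ) : ∀ (S : Set (Asg (Fin K × W))),
    (QB W K k ^ m) ind S ≤ (Q (Fin K × W) k ^ m) ind S := by
  induction m with
  | zero => intro S; simp
  | succ m ih =>
    intro S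
    have hc : Commute (Q (Fin K × W) k) (QB W K k) := avgOp_comm _ _
    have h1 : (Q (Fin K × W) k ^ m) (QB W K k ind) S ≤ (Q (Fin K × W) k ^ (m+1)) ind S := by
      rw [pow_succ, Module.End.mul_apply]
      exact ((avgOp_pos _).pow m).mono (QB_ind_le k hk) S
    have h2 : (Q (Fin K × W) k ^ m) (QB W K k ind) = QB W K k ((Q (Fin K × W) k ^ m) ind) := by
      rw [← Module.End.mul_apply, (hc.pow_left m).eq, Module.End.mul_apply]
    rw [h2] at h1
    refine le_trans ?_ h1
    rw [pow_succ', Module.End.mul_apply]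
    exact (avgOp_pos _).mono ih S

/-- product state -/
def Pi' (s : Fin K → Set (Asg W)) : Set (Asg (Fin K × W)) := {a | ∀ κ, (fun w => a (κ, w)) ∈ s κ}

lemma Pi'_inter (k : ℕ) (s : Fin K → Set (Asg W)) (κ : Fin K) (C : Fin k → Lit W) :
    Pi' s ∩ blockT W K k (κ, C) = Pi' (Function.update s κ (s κ ∩ sol C)) := by
  ext a
  constructor
  · rintro ⟨h1, h2⟩ κ'
    by_cases h : κ' = κ
    · subst h
      rw [Function.update_self]
      exact ⟨h1 κ', h2⟩
    · rw [Function.update_of_ne h]
      exact h1 κ'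
  · intro h
    have hκ := h κ
    rw [Function.update_self] at hκ
    refine ⟨fun κ' => ?_, hκ.2⟩
    by_cases h' : κ' = κ
    · subst h'; exact hκ.1
    · have := h κ'
      rwa [Function.update_of_ne h'] at this

lemma ind_Pi' (s : Fin K → Set (Asg W)) : 1 - ∑ κ, (1 - ind (s κ)) ≤ ind (Pi' s) := by
  by_cases h : ∀ κ, (s κ).Nonempty
  · have h1 : (Pi' s).Nonempty := by
      choose a ha using h
      exact ⟨fun v => a v.1 v.2, fun κ => ha κ⟩
    rw [ind_of_nonempty h1]
    have : 0 ≤ ∑ κ, (1 - ind (s κ)) := Finset.sum_nonneg fun κ _ => by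
      linarith [ind_le_one (s κ)]
    linarith
  · push Not at h
    obtain ⟨κ, hκ⟩ := h
    have h1 : (1:ℝ) ≤ ∑ κ, (1 - ind (s κ)) := by
      have h2 : 1 - ind (s κ) ≤ ∑ κ, (1 - ind (s κ)) :=
        Finset.single_le_sum (f := fun κ => 1 - ind (s κ))
          (fun κ _ => by linarith [ind_le_one (s κ)]) (Finset.mem_univ κ)
      rw [hκ, ind_of_empty (by simp)] at h2
      linarith
    linarith [ind_nonneg (Pi' s)]

/-- marginal operator of one block -/
noncomputable def LL (W : Type) [Fintype W] [DecidableEq W] (K k : ℕ) :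
    Module.End ℝ (Set (Asg W) → ℝ) := (1/(K:ℝ)) • Q W k + (1 - 1/(K:ℝ)) • 1

lemma LL_apply (k : ℕ) (g : Set (Asg W) → ℝ) (S : Set (Asg W)) :
    LL W K k g S = (1/(K:ℝ)) * Q W k g S + (1 - 1/(K:ℝ)) * g S := by
  simp only [LL, LinearMap.add_apply, LinearMap.smul_apply, Pi.add_apply, Pi.smul_apply,
    smul_eq_mul, Module.End.one_apply]

lemma avg_marg [NeZero K] (k : ℕ) (g : Set (Asg W) → ℝ) (s : Fin K → Set (Asg W)) (κ : Fin K) :
    (∑ i : Fin K × (Fin k → Lit W), g (Function.update s i.1 (s i.1 ∩ sol i.2) κ))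
      / Fintype.card (Fin K × (Fin k → Lit W)) = LL W K k g (s κ) := by
  have hK : (0:ℝ) < K := by exact_mod_cast NeZero.pos K
  have hN : (0:ℝ) < Fintype.card (Fin k → Lit W) := by exact_mod_cast Fintype.card_pos
  rw [Fintype.sum_prod_type, Fintype.card_prod, Fintype.card_fin, LL_apply, Q_apply]
  have h1 : ∀ κ' : Fin K, ∑ C : Fin k → Lit W,
      g (Function.update s κ' (s κ' ∩ sol C) κ)
      = if κ' = κ then ∑ C : Fin k → Lit W, g (s κ ∩ sol C)
        else Fintype.card (Fin k → Lit W) * g (s κ) := by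
    intro κ'
    split
    · next h =>
      subst h
      simp
    · next h =>
      have : ∀ C : Fin k → Lit W, g (Function.update s κ' (s κ' ∩ sol C) κ) = g (s κ) := by
        intro C
        rw [Function.update_of_ne (Ne.symm h)]
      rw [Finset.sum_congr rfl (fun C _ => this C), Finset.sum_const, Finset.card_univ,
        nsmul_eq_mul]
  rw [Finset.sum_congr rfl (fun κ' _ => h1 κ')]
  have h2 : ∑ κ' : Fin K, (if κ' = κ then ∑ C : Fin k → Lit W, g (s κ ∩ sol C)
        else Fintype.card (Fin k → Lit W) * g (s κ))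
      = (∑ C : Fin k → Lit W, g (s κ ∩ sol C))
        + (K - 1) * (Fintype.card (Fin k → Lit W) * g (s κ)) := by
    have : ∀ κ' : Fin K, (if κ' = κ then ∑ C : Fin k → Lit W, g (s κ ∩ sol C)
        else Fintype.card (Fin k → Lit W) * g (s κ))
        = Fintype.card (Fin k → Lit W) * g (s κ) + (if κ' = κ then
          (∑ C : Fin k → Lit W, g (s κ ∩ sol C)) - Fintype.card (Fin k → Lit W) * g (s κ)
          else 0) := by
      intro κ'
      split <;> ring
    rw [Finset.sum_congr rfl (fun κ' _ => this κ'), Finset.sum_add_distrib, Finset.sum_const,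
      Finset.card_univ, Fintype.card_fin, nsmul_eq_mul, Finset.sum_ite_eq' univ κ]
    simp
    ring
  rw [h2]
  push_cast
  field_simp

lemma QBpow_Pi' [NeZero K] (k : ℕ) (m : ℕ) : ∀ s : Fin K → Set (Asg W),
    1 - ∑ κ, (1 - (LL W K k ^ m) ind (s κ)) ≤ (QB W K k ^ m) ind (Pi' s) := by
  induction m with
  | zero => intro s; simpa using ind_Pi' s
  | succ m ih =>
    intro s
    have hN : (0:ℝ) < Fintype.card (Fin K × (Fin k → Lit W)) := by
      have : Nonempty (Fin K) := ⟨0⟩
      exact_mod_cast Fintype.card_pos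
    rw [pow_succ' (QB W K k), Module.End.mul_apply]
    show _ ≤ avgOp (blockT W K k) _ _
    rw [avgOp_apply]
    have h1 : ∀ i : Fin K × (Fin k → Lit W),
        1 - ∑ κ, (1 - (LL W K k ^ m) ind (Function.update s i.1 (s i.1 ∩ sol i.2) κ))
        ≤ (QB W K k ^ m) ind (Pi' s ∩ blockT W K k i) := by
      rintro ⟨κ, C⟩
      rw [Pi'_inter]
      exact ih _
    have h2 : (∑ i : Fin K × (Fin k → Lit W),
        (1 - ∑ κ, (1 - (LL W K k ^ m) ind (Function.update s i.1 (s i.1 ∩ sol i.2) κ))))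
          / Fintype.card (Fin K × (Fin k → Lit W))
        ≤ (∑ i, (QB W K k ^ m) ind (Pi' s ∩ blockT W K k i))
          / Fintype.card (Fin K × (Fin k → Lit W)) :=
      div_le_div_of_nonneg_right (Finset.sum_le_sum fun i _ => h1 i) hN.le
    refine le_trans (le_of_eq ?_) h2
    have hone : (∑ _i : Fin K × (Fin k → Lit W), (1:ℝ))
        / Fintype.card (Fin K × (Fin k → Lit W)) = 1 := by
      rw [Finset.sum_const, Finset.card_univ, nsmul_eq_mul, mul_one, div_self hN.ne']
    conv_rhs => rw [Finset.sum_sub_distrib, sub_div, Finset.sum_comm, hone]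
    congr 1
    rw [Finset.sum_div]
    refine Finset.sum_congr rfl fun κ _ => ?_
    rw [Finset.sum_sub_distrib, sub_div, hone]
    congr 1
    rw [pow_succ' (LL W K k), Module.End.mul_apply]
    exact (avg_marg k _ s κ).symm

/-- quadratic lower bound propagates through the binomial average -/
lemma LLpow_quad [NeZero K] (k : ℕ) (A c s : ℝ) (S : Set (Asg W))
    (h0 : ∀ t : ℕ, A - ((t:ℝ) - c)^2 / s^2 ≤ (Q W k ^ t) ind S) (m : ℕ) :
    ∀ t : ℕ, A - (((t:ℝ) + m * (1/K) - c)^2 + m * (1/K - (1/K)^2)) / s^2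
      ≤ (LL W K k ^ m) ((Q W k ^ t) ind) S := by
  have hK : (0:ℝ) < K := by exact_mod_cast NeZero.pos K
  have hK1 : (1:ℝ) ≤ K := by exact_mod_cast NeZero.pos K
  have hu0 : 0 ≤ 1/(K:ℝ) := by positivity
  have hu1 : 1/(K:ℝ) ≤ 1 := by rw [div_le_one hK]; exact hK1
  induction m with
  | zero => intro t; simpa using h0 t
  | succ m ih =>
    intro t
    have e : LL W K k ((Q W k ^ t) ind) = (1/(K:ℝ)) • (Q W k ^ (t+1)) ind
        + (1 - 1/(K:ℝ)) • (Q W k ^ t) ind := by
      funext S
      rw [LL_apply, pow_succ' (Q W k), Module.End.mul_apply]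
      rfl
    rw [pow_succ (LL W K k), Module.End.mul_apply, e, map_add, map_smul, map_smul]
    simp only [Pi.add_apply, Pi.smul_apply, smul_eq_mul]
    have i1 := ih (t+1)
    have i2 := ih t
    have i3 := mul_le_mul_of_nonneg_left i1 hu0
    have i4 := mul_le_mul_of_nonneg_left i2 (by linarith : 0 ≤ 1 - 1/(K:ℝ))
    refine le_trans (le_of_eq ?_) (add_le_add i3 i4)
    push_cast
    ring

end

theorem block (k : ℕ) (hk : 1 ≤ k) (K n : ℕ) (hK : 1 ≤ K) (hn : 1 ≤ n) (m m₀ : ℕ) (s : ℝ)
    (hs : 0 < s) (hm : (m:ℝ) / K + s ≤ m₀) :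
    1 - K * (1 - p k n m₀ + (m / K) / s^2) ≤ p k (K*n) m := by
  have : NeZero K := ⟨by omega⟩
  have : NeZero n := ⟨by omega⟩
  have hK0 : (0:ℝ) < K := by exact_mod_cast NeZero.pos K
  have hp : p k (K*n) m = pV (Fin K × Fin n) k m := by
    rw [pV_eq_p]; simp
  rw [hp]
  unfold pV
  refine le_trans ?_ (QBpow_le (W := Fin n) (K := K) k (by omega) m Set.univ)
  have huniv : (Set.univ : Set (Asg (Fin K × Fin n))) = Pi' (fun _ => Set.univ) := by
    ext a; simp [Pi']
  rw [huniv]
  refine le_trans ?_ (QBpow_Pi' k m _)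
  rw [Finset.sum_const, Finset.card_univ, Fintype.card_fin, nsmul_eq_mul]
  have hbase : ∀ t : ℕ, p k n m₀ - ((t:ℝ) - m/K)^2 / s^2 ≤ (Q (Fin n) k ^ t) ind Set.univ := by
    intro t
    show _ ≤ p k n t
    have hq0 := p_nonneg k n t
    have hq1 := p_le_one k n m₀ hn
    have ha : Antitone (fun t => p k n t) := antitone_nat_of_succ_le (fun t => p_anti k n t hn)
    by_cases h : t ≤ m₀
    · have h1 : p k n m₀ ≤ p k n t := ha h
      have h2 : 0 ≤ ((t:ℝ) - m/K)^2 / s^2 := by positivity
      linarith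
    · push Not at h
      have h1 : (m₀:ℝ) ≤ t := by exact_mod_cast h.le
      have h2 : s ≤ (t:ℝ) - m/K := by linarith
      have h3 : 1 ≤ ((t:ℝ) - m/K)^2 / s^2 := by
        rw [le_div_iff₀ (by positivity), one_mul]
        exact pow_le_pow_left₀ hs.le h2 2
      linarith
  have hq := LLpow_quad (K := K) k (p k n m₀) (m/K) s Set.univ hbase m 0
  rw [pow_zero, Module.End.one_apply] at hq
  have e1 : (((0:ℕ):ℝ) + m * (1/K) - m/K)^2 + m * (1/K - (1/K)^2) ≤ (m:ℝ)/K := by
    have : (((0:ℕ):ℝ) + m * (1/K) - m/K) = 0 := by push_cast; ring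
    rw [this]
    have h2 : 0 ≤ (m:ℝ) * (1/(K:ℝ))^2 := by positivity
    have h3 : (0:ℝ)^2 + (m:ℝ) * (1/(K:ℝ) - (1/(K:ℝ))^2) = (m:ℝ)/K - (m:ℝ) * (1/(K:ℝ))^2 := by ring
    linarith
  have e2 : ((((0:ℕ):ℝ) + m * (1/K) - m/K)^2 + m * (1/K - (1/K)^2)) / s^2 ≤ ((m:ℝ)/K)/s^2 :=
    div_le_div_of_nonneg_right e1 (by positivity)
  have e3 : p k n m₀ - ((m:ℝ)/K)/s^2 ≤ (LL (Fin n) K k ^ m) ind Set.univ := by linarith
  have e4 : (K:ℝ) * (1 - (LL (Fin n) K k ^ m) ind Set.univ)
      ≤ K * (1 - p k n m₀ + (m / K) / s^2) :=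
    mul_le_mul_of_nonneg_left (by linarith) hK0.le
  linarith

end P170
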