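import Mathlib

/-! Chebyshev inequality for sequences `q m = P(T > m)`. -/

namespace P170

open Finset

lemma cheb_abel (q g : ℕ → ℝ) (M : ℕ) :
    ∑ i ∈ range M, (g (i+1) - g i) * q i + g 0 * q 0
      = ∑ i ∈ range M, (q i - q (i+1)) * g (i+1) + q M * g M := by
  induction M with
  | zero => simp [mul_comm]
  | succ M ih =>
    rw [sum_range_succ, sum_range_succ]
    linear_combination ih

lemma cheb_var (q : ℕ → ℝ) (h1 : q 0 = 1) (M : ℕ) :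
    ∑ i ∈ range M, (2 * (i:ℝ) + 1) * q i - (∑ i ∈ range M, q i)^2
      = ∑ i ∈ range M, (q i - q (i+1)) * (((i+1 : ℕ):ℝ) - ∑ i ∈ range M, q i)^2
        + q M * ((M:ℝ) - ∑ i ∈ range M, q i)^2 := by
  set μ : ℝ := ∑ i ∈ range M, q i with hμ
  have h := cheb_abel q (fun j => ((j:ℝ) - μ)^2) M
  rw [← h, h1]
  have h2 : ∑ i ∈ range M, ((((i+1:ℕ):ℝ) - μ)^2 - ((i:ℝ) - μ)^2) * q i
      = ∑ i ∈ range M, (2 * (i:ℝ) + 1) * q i - 2 * μ * μ := by
    have : ∀ i ∈ range M, ((((i+1:ℕ):ℝ) - μ)^2 - ((i:ℝ) - μ)^2) * q i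
        = (2 * (i:ℝ) + 1) * q i - 2 * μ * q i := by
      intro i _
      push_cast
      ring
    rw [sum_congr rfl this, sum_sub_distrib, ← mul_sum, ← hμ]
  rw [h2]
  push_cast
  ring

lemma cheb_tele (q : ℕ → ℝ) (m : ℕ) : ∑ i ∈ range m, (q i - q (i+1)) = q 0 - q m :=
  sum_range_sub' q m

theorem cheb_left (q : ℕ → ℝ) (h0 : ∀ m, 0 ≤ q m) (h1 : q 0 = 1) (ha : ∀ m, q (m+1) ≤ q m)
    (M : ℕ) (m : ℕ) (hm : (m:ℝ) < ∑ i ∈ range M, q i) :
    1 - q m ≤ (∑ i ∈ range M, (2 * (i:ℝ) + 1) * q i - (∑ i ∈ range M, q i)^2)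
      / (∑ i ∈ range M, q i - m)^2 := by
  have hanti : Antitone q := antitone_nat_of_succ_le ha
  have hq1 : ∀ i, q i ≤ 1 := fun i => h1 ▸ hanti (Nat.zero_le i)
  rw [cheb_var q h1 M]
  set μ : ℝ := ∑ i ∈ range M, q i with hμ
  have hμM : μ ≤ M := by
    calc μ ≤ ∑ _i ∈ range M, (1:ℝ) := sum_le_sum fun i _ => hq1 i
      _ = M := by simp
  have hmM : m ≤ M := by
    have : (m:ℝ) < M := lt_of_lt_of_le hm hμM
    exact_mod_cast this.le
  have hpos : 0 < (μ - m)^2 := by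
    have : 0 < μ - m := by linarith
    positivity
  rw [le_div_iff₀ hpos]
  have hsub : range m ⊆ range M := range_subset_range.2 hmM
  have e1 : (1 - q m) * (μ - m)^2 = ∑ i ∈ range m, (q i - q (i+1)) * (μ - m)^2 := by
    rw [← sum_mul, cheb_tele, h1]
  have e2 : ∑ i ∈ range m, (q i - q (i+1)) * (μ - m)^2
      ≤ ∑ i ∈ range m, (q i - q (i+1)) * (((i+1 : ℕ):ℝ) - μ)^2 := by
    refine sum_le_sum fun i hi => ?_
    have hi' : ((i+1 : ℕ):ℝ) ≤ m := by exact_mod_cast mem_range.1 hi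
    have hd : 0 ≤ q i - q (i+1) := by linarith [ha i]
    refine mul_le_mul_of_nonneg_left ?_ hd
    have a1 : 0 ≤ μ - m := by linarith
    have a2 : μ - m ≤ μ - ((i+1:ℕ):ℝ) := by linarith
    calc (μ - m)^2 ≤ (μ - ((i+1:ℕ):ℝ))^2 := pow_le_pow_left₀ a1 a2 2
      _ = _ := by ring
  have e3 : ∑ i ∈ range m, (q i - q (i+1)) * (((i+1 : ℕ):ℝ) - μ)^2
      ≤ ∑ i ∈ range M, (q i - q (i+1)) * (((i+1 : ℕ):ℝ) - μ)^2 := by
    refine sum_le_sum_of_subset_of_nonneg hsub fun i _ _ => ?_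
    exact mul_nonneg (by linarith [ha i]) (sq_nonneg _)
  have e4 : 0 ≤ q M * ((M:ℝ) - μ)^2 := mul_nonneg (h0 M) (sq_nonneg _)
  linarith

theorem cheb_right (q : ℕ → ℝ) (h0 : ∀ m, 0 ≤ q m) (h1 : q 0 = 1) (ha : ∀ m, q (m+1) ≤ q m)
    (M : ℕ) (m : ℕ) (hmM : m < M) (hm : ∑ i ∈ range M, q i < m + 1) :
    q m ≤ (∑ i ∈ range M, (2 * (i:ℝ) + 1) * q i - (∑ i ∈ range M, q i)^2)
      / (m + 1 - ∑ i ∈ range M, q i)^2 := by
  rw [cheb_var q h1 M]
  set μ : ℝ := ∑ i ∈ range M, q i with hμ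
  have hpos : 0 < ((m:ℝ) + 1 - μ)^2 := by
    have : 0 < (m:ℝ) + 1 - μ := by linarith
    positivity
  rw [le_div_iff₀ hpos]
  have a1 : 0 ≤ (m:ℝ) + 1 - μ := by linarith
  have e1 : q m * ((m:ℝ) + 1 - μ)^2
      = ∑ i ∈ range M \ range m, (q i - q (i+1)) * ((m:ℝ) + 1 - μ)^2
        + q M * ((m:ℝ) + 1 - μ)^2 := by
    rw [← sum_mul]
    have hs := sum_sdiff (range_subset_range.2 hmM.le) (f := fun i => q i - q (i+1))
    rw [cheb_tele, cheb_tele] at hs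
    have : ∑ i ∈ range M \ range m, (q i - q (i+1)) = q m - q M := by linarith
    rw [this]; ring
  have e2 : ∑ i ∈ range M \ range m, (q i - q (i+1)) * ((m:ℝ) + 1 - μ)^2
      ≤ ∑ i ∈ range M \ range m, (q i - q (i+1)) * (((i+1 : ℕ):ℝ) - μ)^2 := by
    refine sum_le_sum fun i hi => ?_
    have hi' : m ≤ i := by
      have := (mem_sdiff.1 hi).2
      rw [mem_range] at this
      omega
    have hi'' : (m:ℝ) + 1 ≤ ((i+1 : ℕ):ℝ) := by
      push_cast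
      have : (m:ℝ) ≤ i := by exact_mod_cast hi'
      linarith
    have hd : 0 ≤ q i - q (i+1) := by linarith [ha i]
    exact mul_le_mul_of_nonneg_left (pow_le_pow_left₀ a1 (by linarith) 2) hd
  have e3 : ∑ i ∈ range M \ range m, (q i - q (i+1)) * (((i+1 : ℕ):ℝ) - μ)^2
      ≤ ∑ i ∈ range M, (q i - q (i+1)) * (((i+1 : ℕ):ℝ) - μ)^2 := by
    refine sum_le_sum_of_subset_of_nonneg sdiff_subset fun i _ _ => ?_
    exact mul_nonneg (by linarith [ha i]) (sq_nonneg _)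
  have e4 : q M * ((m:ℝ) + 1 - μ)^2 ≤ q M * ((M:ℝ) - μ)^2 := by
    refine mul_le_mul_of_nonneg_left (pow_le_pow_left₀ a1 ?_ 2) (h0 M)
    have : ((m+1 : ℕ):ℝ) ≤ M := by exact_mod_cast hmM
    push_cast at this
    linarith
  linarith

end P170
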