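import Mathlib

open Filter

namespace P170

section

variable {f : ℕ → ℝ} {B C : ℝ}

/-- several unit steps -/
theorem conv_steps (hC : 0 ≤ C) (h1 : ∀ n : ℕ, 1 ≤ n → f n - C / n ≤ f (n+1)) (m : ℕ)
    (hm : 1 ≤ m) (j : ℕ) : f m - C * j / m ≤ f (m + j) := by
  induction j with
  | zero => simp
  | succ j ih =>
    have h := h1 (m + j) (by omega)
    have hm0 : (0 : ℝ) < m := by exact_mod_cast hm
    have h3 : C / ((m + j : ℕ) : ℝ) ≤ C / m := by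
      apply div_le_div_of_nonneg_left hC hm0
      push_cast
      have : (0 : ℝ) ≤ j := Nat.cast_nonneg j
      linarith
    have h4 : C * ((j + 1 : ℕ) : ℝ) / m = C * j / m + C / m := by push_cast; ring
    rw [h4, ← add_assoc]
    linarith

theorem conv_block (hC : 0 ≤ C) (h1 : ∀ n : ℕ, 1 ≤ n → f n - C / n ≤ f (n+1))
    (h2 : ∀ K n : ℕ, 1 ≤ K → 1 ≤ n → f n - C * K * (n:ℝ)^(-(1/6) : ℝ) ≤ f (K*n))
    {K0 n0 N : ℕ} (hK0 : 1 ≤ K0) (hn0 : 1 ≤ n0) (hN1 : K0 * n0 ≤ N) (hN2 : N < 2 * (K0 * n0)) :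
    f n0 - 2 * C * K0 * (n0 : ℝ)^(-(1/6) : ℝ) - C / K0 ≤ f N := by
  set K := N / n0 with hK
  have hK1 : K0 ≤ K := (Nat.le_div_iff_mul_le hn0).2 hN1
  have hK2 : K < 2 * K0 := (Nat.div_lt_iff_lt_mul hn0).2 (by rw [mul_assoc]; exact hN2)
  have hmod : K * n0 + N % n0 = N := by rw [hK, mul_comm]; exact Nat.div_add_mod N n0
  have hlt : N % n0 < n0 := Nat.mod_lt _ hn0
  have a1 := h2 K n0 (by omega) hn0
  have a2 := conv_steps hC h1 (K * n0) (Nat.mul_pos (by omega) hn0) (N % n0)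
  rw [hmod] at a2
  have hn0' : (0 : ℝ) < n0 := by exact_mod_cast hn0
  have hK0' : (0 : ℝ) < K0 := by exact_mod_cast hK0
  have hKr : (K0 : ℝ) ≤ K := by exact_mod_cast hK1
  have hKr2 : (K : ℝ) ≤ 2 * K0 := by exact_mod_cast hK2.le
  have hp : (0 : ℝ) ≤ (n0 : ℝ)^(-(1/6) : ℝ) := Real.rpow_nonneg hn0'.le _
  have a3 : C * (N % n0 : ℕ) / ((K * n0 : ℕ) : ℝ) ≤ C / K0 := by
    have hr : ((N % n0 : ℕ) : ℝ) ≤ n0 := by exact_mod_cast hlt.le
    push_cast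
    have hKpos : (0 : ℝ) < K := lt_of_lt_of_le hK0' hKr
    rw [div_le_div_iff₀ (mul_pos hKpos hn0') hK0']
    calc C * ((N % n0 : ℕ) : ℝ) * K0 ≤ C * n0 * K := by
          have : C * ((N % n0 : ℕ) : ℝ) ≤ C * n0 := mul_le_mul_of_nonneg_left hr hC
          exact mul_le_mul this hKr hK0'.le (by positivity)
      _ = C * (K * n0) := by ring
  have a4 : C * K * (n0 : ℝ)^(-(1/6) : ℝ) ≤ 2 * C * K0 * (n0 : ℝ)^(-(1/6) : ℝ) := by
    apply mul_le_mul_of_nonneg_right _ hp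
    nlinarith
  linarith

theorem conv_const : (0 : ℝ) < 1 - (2 : ℝ)^(-(1/6) : ℝ) := by
  have : (2 : ℝ)^(-(1/6) : ℝ) < 1 := Real.rpow_lt_one_of_one_lt_of_neg (by norm_num) (by norm_num)
  linarith

theorem conv_all (hC : 0 ≤ C) (h1 : ∀ n : ℕ, 1 ≤ n → f n - C / n ≤ f (n+1))
    (h2 : ∀ K n : ℕ, 1 ≤ K → 1 ≤ n → f n - C * K * (n:ℝ)^(-(1/6) : ℝ) ≤ f (K*n))
    {K0 n0 : ℕ} (hK0 : 1 ≤ K0) (hn0 : 1 ≤ n0) (N : ℕ) (hN : K0 * n0 ≤ N) :
    (f n0 - 2 * C * K0 * (n0 : ℝ)^(-(1/6) : ℝ) - C / K0)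
      - 3 * C / (1 - (2 : ℝ)^(-(1/6) : ℝ)) *
        (((K0 * n0 : ℕ) : ℝ)^(-(1/6) : ℝ) - (N : ℝ)^(-(1/6) : ℝ)) ≤ f N := by
  have hD : 0 ≤ 3 * C / (1 - (2 : ℝ)^(-(1/6) : ℝ)) := div_nonneg (by linarith) conv_const.le
  induction N using Nat.strong_induction_on with
  | _ N ih =>
    have hM : 1 ≤ K0 * n0 := Nat.mul_pos hK0 hn0
    have hM' : (0 : ℝ) < ((K0 * n0 : ℕ) : ℝ) := by exact_mod_cast hM
    by_cases hlt : N < 2 * (K0 * n0)
    · have a1 := conv_block hC h1 h2 hK0 hn0 hN hlt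
      have a2 : (N : ℝ)^(-(1/6) : ℝ) ≤ ((K0 * n0 : ℕ) : ℝ)^(-(1/6) : ℝ) :=
        Real.rpow_le_rpow_of_nonpos hM' (by exact_mod_cast hN) (by norm_num)
      have a3 := mul_nonneg hD (sub_nonneg.2 a2)
      linarith
    · push Not at hlt
      set m := N / 2 with hm
      have hm1 : K0 * n0 ≤ m := by omega
      have hm2 : m < N := by omega
      have hm3 : 1 ≤ m := by omega
      have a1 := ih m hm2 hm1
      have a2 := h2 2 m (by norm_num) hm3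
      have hm' : (0 : ℝ) < m := by exact_mod_cast hm3
      have hm1' : (1 : ℝ) ≤ m := by exact_mod_cast hm3
      have a3 : f (2 * m) - C * 1 / m ≤ f N := by
        rcases Nat.even_or_odd' N with ⟨r, hr | hr⟩
        · have : 2 * m = N := by omega
          rw [this]
          have : 0 ≤ C * 1 / (m : ℝ) := by positivity
          linarith
        · have h5 : 2 * m + 1 = N := by omega
          have h6 := h1 (2 * m) (by omega)
          rw [h5] at h6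
          have h7 : C / ((2 * m : ℕ) : ℝ) ≤ C * 1 / m := by
            push_cast
            rw [mul_one]
            exact div_le_div_of_nonneg_left hC hm' (by linarith)
          linarith
      have a4 : C * 1 / (m : ℝ) ≤ C * (m : ℝ)^(-(1/6) : ℝ) := by
        rw [mul_one, div_eq_mul_inv]
        apply mul_le_mul_of_nonneg_left _ hC
        rw [← Real.rpow_neg_one]
        exact Real.rpow_le_rpow_of_exponent_le hm1' (by norm_num)
      have a5 : (N : ℝ)^(-(1/6) : ℝ) ≤ (2 : ℝ)^(-(1/6) : ℝ) * (m : ℝ)^(-(1/6) : ℝ) := by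
        rw [← Real.mul_rpow (by norm_num) hm'.le]
        apply Real.rpow_le_rpow_of_nonpos (by positivity) _ (by norm_num)
        have : 2 * m ≤ N := by omega
        exact_mod_cast this
      have a6 : 3 * C * (m : ℝ)^(-(1/6) : ℝ) ≤ 3 * C / (1 - (2 : ℝ)^(-(1/6) : ℝ)) *
          ((m : ℝ)^(-(1/6) : ℝ) - (N : ℝ)^(-(1/6) : ℝ)) := by
        have e : 3 * C * (m : ℝ)^(-(1/6) : ℝ) = 3 * C / (1 - (2 : ℝ)^(-(1/6) : ℝ)) *
            ((m : ℝ)^(-(1/6) : ℝ) - (2 : ℝ)^(-(1/6) : ℝ) * (m : ℝ)^(-(1/6) : ℝ)) := by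
          have := conv_const.ne'
          field_simp
        rw [e]
        apply mul_le_mul_of_nonneg_left _ hD
        linarith
      push_cast at a2
      have a7 : 3 * C / (1 - (2 : ℝ)^(-(1/6) : ℝ)) *
        (((K0 * n0 : ℕ) : ℝ)^(-(1/6) : ℝ) - (N : ℝ)^(-(1/6) : ℝ)) =
        3 * C / (1 - (2 : ℝ)^(-(1/6) : ℝ)) *
        (((K0 * n0 : ℕ) : ℝ)^(-(1/6) : ℝ) - (m : ℝ)^(-(1/6) : ℝ)) +
        3 * C / (1 - (2 : ℝ)^(-(1/6) : ℝ)) *
        ((m : ℝ)^(-(1/6) : ℝ) - (N : ℝ)^(-(1/6) : ℝ)) := by ring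
      rw [a7]
      linarith

end

theorem conv_of_ineqs (f : ℕ → ℝ) (B C : ℝ) (hB : ∀ n, 0 ≤ f n ∧ f n ≤ B) (hC : 0 ≤ C)
    (h1 : ∀ n : ℕ, 1 ≤ n → f n - C / n ≤ f (n+1))
    (h2 : ∀ K n : ℕ, 1 ≤ K → 1 ≤ n → f n - C * K * (n:ℝ)^(-(1/6) : ℝ) ≤ f (K*n)) :
    ∃ α, Filter.Tendsto f Filter.atTop (nhds α) := by
  have hbdd : IsBoundedUnder (· ≤ ·) atTop f := ⟨B, by simpa using ⟨0, fun n _ => (hB n).2⟩⟩
  have hbdd2 : IsBoundedUnder (· ≥ ·) atTop f := ⟨0, by simpa using ⟨0, fun n _ => (hB n).1⟩⟩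
  set D : ℝ := 3 * C / (1 - (2 : ℝ)^(-(1/6) : ℝ)) with hD
  have hD0 : 0 ≤ D := div_nonneg (by linarith) conv_const.le
  refine ⟨limsup f atTop, tendsto_order.2 ⟨fun a ha => ?_, fun a ha => ?_⟩⟩
  · -- choose ε
    set ε := (limsup f atTop - a) / 4 with hε
    have hεpos : 0 < ε := by rw [hε]; linarith
    obtain ⟨K0, hK0⟩ := exists_nat_gt (C / ε + 1)
    have hCε : 0 ≤ C / ε := div_nonneg hC hεpos.le
    have hK0' : (1 : ℝ) < K0 := by linarith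
    have hK01 : 1 ≤ K0 := by exact_mod_cast hK0'.le
    have hCK : C / K0 < ε := by
      rw [div_lt_iff₀ (by linarith)]
      have : C / ε < K0 := by linarith
      rw [div_lt_iff₀ hεpos] at this
      linarith
    have hfreq : ∃ᶠ n in atTop, limsup f atTop - ε < f n :=
      frequently_lt_of_lt_limsup hbdd2.isCoboundedUnder_le (by linarith)
    have htend : Tendsto (fun n : ℕ => (2 * C * K0 + D) * (n : ℝ)^(-(1/6) : ℝ)) atTop (nhds 0) := by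
      have : Tendsto (fun n : ℕ => (n : ℝ)^(-(1/6) : ℝ)) atTop (nhds 0) :=
        (tendsto_rpow_neg_atTop (by norm_num : (0 : ℝ) < 1/6)).comp tendsto_natCast_atTop_atTop
      simpa using this.const_mul (2 * C * K0 + D)
    have hev : ∀ᶠ n : ℕ in atTop, (2 * C * K0 + D) * (n : ℝ)^(-(1/6) : ℝ) < ε :=
      htend.eventually_lt_const hεpos
    obtain ⟨n0, hn1, hn2, hn3⟩ := (hfreq.and_eventually (hev.and (eventually_ge_atTop 1))).exists
    filter_upwards [eventually_ge_atTop (K0 * n0)] with N hN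
    have key := conv_all hC h1 h2 hK01 hn3 N hN
    have hN1 : 1 ≤ N := (Nat.mul_pos hK01 hn3).trans_le hN
    have b1 : (0 : ℝ) ≤ (N : ℝ)^(-(1/6) : ℝ) := Real.rpow_nonneg (Nat.cast_nonneg _) _
    have b2 : ((K0 * n0 : ℕ) : ℝ)^(-(1/6) : ℝ) ≤ (n0 : ℝ)^(-(1/6) : ℝ) := by
      apply Real.rpow_le_rpow_of_nonpos (by exact_mod_cast hn3) _ (by norm_num)
      have : n0 ≤ K0 * n0 := Nat.le_mul_of_pos_left n0 hK01
      exact_mod_cast this
    have b3 : D * (((K0 * n0 : ℕ) : ℝ)^(-(1/6) : ℝ) - (N : ℝ)^(-(1/6) : ℝ)) ≤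
        D * (n0 : ℝ)^(-(1/6) : ℝ) := mul_le_mul_of_nonneg_left (by linarith) hD0
    rw [← hD] at key
    have e : (2 * C * K0 + D) * (n0 : ℝ)^(-(1/6) : ℝ) = 2 * C * K0 * (n0 : ℝ)^(-(1/6) : ℝ)
      + D * (n0 : ℝ)^(-(1/6) : ℝ) := by ring
    rw [e] at hn2
    have : limsup f atTop - 4 * ε = a := by rw [hε]; ring
    linarith
  · exact eventually_lt_of_limsup_lt ha hbdd

end P170
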