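import Vale.Agent.P170.Defs2

/-! First moment bound. -/

set_option linter.unusedSectionVars false

namespace P170

open Finset

/-- number of assignments in a set -/
noncomputable def cnt {V : Type} [Fintype V] [DecidableEq V] (S : Set (Asg V)) : ℝ := by
  classical exact ∑ a : Asg V, if a ∈ S then 1 else 0

lemma ind_le_cnt {V : Type} [Fintype V] [DecidableEq V] (S : Set (Asg V)) : ind S ≤ cnt S := by
  classical
  unfold cnt
  by_cases h : S.Nonempty
  · rw [ind_of_nonempty h]
    obtain ⟨a, ha⟩ := h
    have := single_le_sum (f := fun a : Asg V => if a ∈ S then (1:ℝ) else 0)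
      (fun i _ => by positivity) (mem_univ a)
    simpa [ha] using this
  · rw [ind_of_empty h]
    exact sum_nonneg fun i _ => by positivity

lemma sol_frac {V : Type} [Fintype V] [DecidableEq V] [Nonempty V] (k : ℕ) (a : Asg V) :
    open Classical in
    ∑ C : Fin k → Lit V, (if a ∈ sol C then (1:ℝ) else 0)
      = (1 - 1/2^k) * Fintype.card (Fin k → Lit V) := by
  classical
  have h1 : ∀ C : Fin k → Lit V, (if a ∈ sol C then (1:ℝ) else 0)
      = 1 - (if C ∈ Fintype.piFinset (fun _ : Fin k => univ.filter (fun l : Lit V => a l.1 ≠ l.2))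
          then 1 else 0) := by
    intro C
    by_cases h : a ∈ sol C
    · rw [if_pos h, if_neg]
      · ring
      · rw [Fintype.mem_piFinset]
        obtain ⟨i, hi⟩ := h
        intro hh
        have := hh i
        simp only [mem_filter, mem_univ, true_and] at this
        exact this hi
    · rw [if_neg h, if_pos]
      · ring
      · rw [Fintype.mem_piFinset]
        intro i
        simp only [mem_filter, mem_univ, true_and]
        intro hh
        exact h ⟨i, hh⟩
  have hc : (univ.filter (fun l : Lit V => a l.1 ≠ l.2)).card = Fintype.card V := by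
    rw [← Finset.card_univ (α := V)]
    refine Finset.card_bij' (fun l _ => l.1) (fun v _ => (v, !(a v))) ?_ ?_ ?_ ?_
    · intro l _; exact mem_univ _
    · intro v _
      simp
    · intro l hl
      simp only [mem_filter, mem_univ, true_and] at hl
      ext
      · rfl
      · cases hx : l.2 <;> cases hy : a l.1 <;> simp_all
    · intro v _
      rfl
  rw [Finset.sum_congr rfl (fun C _ => h1 C), Finset.sum_sub_distrib]
  rw [Finset.sum_ite_mem, Finset.univ_inter, Finset.sum_const, Finset.sum_const,
    Fintype.card_piFinset_const, hc]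
  have hV : (0:ℝ) < Fintype.card V := by exact_mod_cast Fintype.card_pos
  have hL : (Fintype.card (Lit V) : ℝ) = 2 * Fintype.card V := by
    rw [Fintype.card_prod]
    simp [mul_comm]
  rw [card_univ, nsmul_eq_mul, nsmul_eq_mul, card_clause, hL, mul_pow]
  simp only [Nat.cast_pow, mul_one]
  field_simp

lemma Q_cnt {V : Type} [Fintype V] [DecidableEq V] [Nonempty V] (k : ℕ) :
    Q V k cnt = (1 - 1/2^k : ℝ) • (cnt : Set (Asg V) → ℝ) := by
  classical
  funext S
  rw [Q_apply]
  have hcard : (0 : ℝ) < Fintype.card (Fin k → Lit V) := by exact_mod_cast Fintype.card_pos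
  rw [div_eq_iff hcard.ne']
  simp only [Pi.smul_apply, smul_eq_mul]
  unfold cnt
  rw [Finset.sum_comm, mul_right_comm, Finset.mul_sum]
  refine Finset.sum_congr rfl fun a _ => ?_
  by_cases ha : a ∈ S
  · simp only [Set.mem_inter_iff, ha, true_and, if_true, mul_one]
    exact sol_frac k a
  · simp [ha]

lemma Qpow_cnt {V : Type} [Fintype V] [DecidableEq V] [Nonempty V] (k m : ℕ) :
    (Q V k ^ m) cnt = (1 - 1/2^k : ℝ)^m • (cnt : Set (Asg V) → ℝ) := by
  induction m with
  | zero => simp
  | succ m ih =>
    rw [pow_succ, Module.End.mul_apply, Q_cnt, map_smul, ih, smul_smul, pow_succ, mul_comm]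

theorem first_moment (k n m : ℕ) (hn : 1 ≤ n) :
    p k n m ≤ 2^n * (1 - 1/2^k)^m := by
  classical
  have : NeZero n := ⟨by omega⟩
  unfold p pV
  calc (Q (Fin n) k ^ m) ind Set.univ ≤ (Q (Fin n) k ^ m) cnt Set.univ :=
        ((avgOp_pos _).pow m).mono ind_le_cnt _
    _ = (1 - 1/2^k : ℝ)^m * cnt (Set.univ : Set (Asg (Fin n))) := by
        rw [Qpow_cnt]; rfl
    _ = 2^n * (1 - 1/2^k)^m := by
        have : cnt (Set.univ : Set (Asg (Fin n))) = 2^n := by
          unfold cnt
          simp
        rw [this, mul_comm]

end P170
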