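import Vale.Agent.P170.Defs2

/-! Variance of the hitting time of unsatisfiability. -/

set_option linter.unusedSectionVars false

namespace P170

open Finset

section Var

variable {V : Type} [Fintype V] [DecidableEq V]

/-- restriction of a state function by a fixed clause -/
noncomputable def Rc {k : ℕ} (C : Fin k → Lit V) : Module.End ℝ (Set (Asg V) → ℝ) :=
  avgOp (fun _ : Unit => sol C)

lemma Rc_apply {k : ℕ} (C : Fin k → Lit V) (g : Set (Asg V) → ℝ) (S : Set (Asg V)) :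
    Rc C g S = g (S ∩ sol C) := by
  simp [Rc, avgOp_apply]

lemma Rc_comm {k : ℕ} (C : Fin k → Lit V) (r : ℕ) : Commute (Q V r) (Rc C) := avgOp_comm _ _

/-- indicator that the clause `C` kills the state -/
noncomputable def hC {k : ℕ} (C : Fin k → Lit V) : Set (Asg V) → ℝ := ind - Rc C ind

lemma hC_apply {k : ℕ} (C : Fin k → Lit V) (S : Set (Asg V)) :
    hC C S = ind S - ind (S ∩ sol C) := by
  simp [hC, Rc_apply]

lemma hC_nonneg {k : ℕ} (C : Fin k → Lit V) (S : Set (Asg V)) : 0 ≤ hC C S := by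
  rw [hC_apply]
  have := ind_mono (A := Asg V) (S := S ∩ sol C) (S' := S) Set.inter_subset_left
  linarith

lemma hC_le {k : ℕ} (C : Fin k → Lit V) (S : Set (Asg V)) : hC C S ≤ ind S := by
  rw [hC_apply]
  have := ind_nonneg (S ∩ sol C)
  linarith

lemma hC_eq_zero {k : ℕ} {C : Fin k → Lit V} {S : Set (Asg V)} {i : Fin k} (h : C i ∉ Zs S) :
    hC C S = 0 := by
  have h1 : (S ∩ sol C).Nonempty := inter_sol_nonempty_iff.2 ⟨i, h⟩
  rw [hC_apply, ind_of_nonempty h1, ind_of_nonempty (h1.mono Set.inter_subset_left)]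
  ring

/-- two states -/
lemma hC_mul_le {k : ℕ} (S S' : Set (Asg V)) :
    ∑ C : Fin (k+1) → Lit V, hC C S * hC C S'
      ≤ (Fintype.card (Fin (k+1) → Lit V) : ℝ) * (z S * z S' ^ k) := by
  classical
  set P : Finset (Fin (k+1) → Lit V) :=
    Fintype.piFinset (Fin.cons (Zs S) (fun _ : Fin k => Zs S')) with hP
  have h1 : ∀ C : Fin (k+1) → Lit V,
      hC C S * hC C S' ≤ if C ∈ P then ind S * ind S' else 0 := by
    intro C
    split_ifs with h
    · exact mul_le_mul (hC_le C S) (hC_le C S') (hC_nonneg _ _) (ind_nonneg _)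
    · rw [hP, Fintype.mem_piFinset] at h
      push Not at h
      obtain ⟨i, hi⟩ := h
      refine Fin.cases (motive := fun i => C i ∉ (Fin.cons (Zs S) (fun _ : Fin k => Zs S') :
        Fin (k+1) → Finset (Lit V)) i → hC C S * hC C S' ≤ 0) ?_ ?_ i hi
      · intro h0
        rw [Fin.cons_zero] at h0
        rw [hC_eq_zero h0]; simp
      · intro j hj
        rw [Fin.cons_succ] at hj
        rw [hC_eq_zero hj]; simp
  have hcard : (P.card : ℝ) = (Zs S).card * (Zs S').card ^ k := by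
    rw [hP, Fintype.card_piFinset, Fin.prod_univ_succ]
    simp
  calc ∑ C : Fin (k+1) → Lit V, hC C S * hC C S'
      ≤ ∑ C : Fin (k+1) → Lit V, (if C ∈ P then ind S * ind S' else 0) :=
        Finset.sum_le_sum fun C _ => h1 C
    _ = P.card * (ind S * ind S') := by
        rw [Finset.sum_ite_mem, Finset.univ_inter, Finset.sum_const, nsmul_eq_mul]
    _ ≤ _ := by
        rw [hcard, card_clause]
        by_cases hS' : S'.Nonempty
        · by_cases hV : (Fintype.card (Lit V) : ℝ) = 0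
          · have hz : (Zs S).card = 0 := by
              have h2 : (Zs S).card ≤ Fintype.card (Lit V) := Finset.card_le_univ _
              have h3 : Fintype.card (Lit V) = 0 := by exact_mod_cast hV
              omega
            rw [hz, hV]; simp
          · apply le_of_eq
            rw [z, z, ind_of_nonempty hS', one_mul, div_pow]
            field_simp
            ring
        · rw [ind_of_empty hS', mul_zero, mul_zero]
          have := z_nonneg S
          have := z_nonneg S'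
          positivity

/-- second moment of the total loss by one clause -/
lemma pair_le [Nonempty V] {k : ℕ} (L L' : Module.End ℝ (Set (Asg V) → ℝ)) (hL : Pos L)
    (hL' : Pos L') (S : Set (Asg V)) :
    ∑ C : Fin (k+1) → Lit V, L (hC C) S * L' (hC C) S
      ≤ (Fintype.card (Fin (k+1) → Lit V) : ℝ) * (L z S * L' (fun S => z S ^ k) S) := by
  set N : ℝ := (Fintype.card (Fin (k+1) → Lit V) : ℝ) with hN
  -- first step
  have h1 : ∀ S₁ : Set (Asg V), ∑ C : Fin (k+1) → Lit V, hC C S₁ * L' (hC C) S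
      ≤ N * z S₁ * L' (fun S => z S ^ k) S := by
    intro S₁
    have h2 := hL'.mono (g := ∑ C : Fin (k+1) → Lit V, hC C S₁ • hC C)
      (g' := (N * z S₁) • (fun S => z S ^ k)) (fun S₂ => by
        have := hC_mul_le (k := k) S₁ S₂
        simp only [Finset.sum_apply, Pi.smul_apply, smul_eq_mul]
        rw [mul_assoc]
        exact this) S
    rw [map_sum, map_smul, Finset.sum_apply, Pi.smul_apply, smul_eq_mul] at h2
    simpa only [map_smul, Pi.smul_apply, smul_eq_mul] using h2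
  have h3 := hL.mono (g := ∑ C : Fin (k+1) → Lit V, (L' (hC C) S) • hC C)
    (g' := (N * L' (fun S => z S ^ k) S) • z) (fun S₁ => by
      have := h1 S₁
      simp only [Finset.sum_apply, Pi.smul_apply, smul_eq_mul]
      calc _ = ∑ C : Fin (k+1) → Lit V, hC C S₁ * L' (hC C) S :=
            Finset.sum_congr rfl fun C _ => mul_comm _ _
        _ ≤ _ := this
        _ = _ := by ring) S
  rw [map_sum, map_smul, Finset.sum_apply, Pi.smul_apply, smul_eq_mul] at h3
  simp only [map_smul, Pi.smul_apply, smul_eq_mul] at h3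
  calc _ = ∑ C : Fin (k+1) → Lit V, L' (hC C) S * L (hC C) S :=
        Finset.sum_congr rfl fun C _ => mul_comm _ _
    _ ≤ _ := h3
    _ = _ := by ring

/-- the sum of the first `r` powers -/
noncomputable def Gs (V : Type) [Fintype V] [DecidableEq V] (k r : ℕ) :
    Module.End ℝ (Set (Asg V) → ℝ) := ∑ i ∈ range r, Q V k ^ i

lemma Gs_apply (k r : ℕ) (g : Set (Asg V) → ℝ) (S : Set (Asg V)) :
    Gs V k r g S = ∑ i ∈ range r, (Q V k ^ i) g S := by
  simp [Gs, LinearMap.sum_apply, Finset.sum_apply]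

lemma Gs_pos [Nonempty V] (k r : ℕ) : Pos (Gs V k r) := by
  intro g hg S
  rw [Gs_apply]
  exact Finset.sum_nonneg fun i _ => ((Q_mark k).1.pow i) g hg S

lemma Gs_Rc {k : ℕ} (C : Fin k → Lit V) (r : ℕ) : Commute (Gs V k r) (Rc C) := by
  unfold Gs
  exact Commute.sum_left _ _ _ fun i _ => (Rc_comm C k).pow_left i

lemma T_sub {k : ℕ} (C : Fin k → Lit V) (r : ℕ) (S : Set (Asg V)) :
    Gs V k r ind S - Gs V k r ind (S ∩ sol C) = Gs V k r (hC C) S := by
  have h := congrArg (fun L : Module.End ℝ (Set (Asg V) → ℝ) => L ind S) (Gs_Rc C r).eq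
  simp only [Module.End.mul_apply] at h
  rw [Rc_apply] at h
  rw [hC, map_sub, Pi.sub_apply, h]

lemma zpow_le {k : ℕ} (hk : 2 ≤ k) {δ : ℝ} (hδ : 0 < δ) (hδ1 : δ ≤ 1) {x : ℝ} (hx0 : 0 ≤ x)
    : x ^ k ≤ δ ^ 2 + x ^ (k+1) / δ := by
  rcases le_or_gt x δ with h | h
  · have h1 : x ^ k ≤ δ ^ k := pow_le_pow_left₀ hx0 h k
    have h2 : δ ^ k ≤ δ ^ 2 := pow_le_pow_of_le_one hδ.le hδ1 hk
    have h3 : 0 ≤ x ^ (k+1) / δ := by positivity
    linarith
  · have h1 : x ^ k ≤ x ^ (k+1) / δ := by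
      rw [le_div_iff₀ hδ, pow_succ]
      exact mul_le_mul_of_nonneg_left h.le (by positivity)
    have : 0 ≤ δ ^ 2 := by positivity
    linarith

/-- telescoping bound -/
lemma sum_zk_le [Nonempty V] {k : ℕ} (hk : k ≠ 0) (r : ℕ) (S : Set (Asg V)) :
    Gs V k r (fun S => z S ^ k) S ≤ 1 := by
  have h1 : (fun S : Set (Asg V) => z S ^ k) = ind - Q V k ind := by
    funext S'
    rw [Pi.sub_apply, kill k hk S']
  have h2 : ∀ r, Gs V k r (fun S => z S ^ k) S = ind S - (Q V k ^ r) ind S := by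
    intro r
    induction r with
    | zero => simp [Gs_apply]
    | succ r ih =>
      rw [Gs_apply, Finset.sum_range_succ, ← Gs_apply, ih, h1, map_sub, Pi.sub_apply]
      rw [← Module.End.mul_apply, ← pow_succ]
      ring
  rw [h2]
  have h3 := ind_le_one S
  have h4 := ((Q_mark (V := V) k).1.pow r) ind ind_nonneg S
  linarith

lemma Gs_zk_le [Nonempty V] {k : ℕ} (hk : 2 ≤ k) (r M : ℕ) (hr : r ≤ M) {δ : ℝ} (hδ : 0 < δ)
    (hδ1 : δ ≤ 1) (S : Set (Asg V)) :
    Gs V (k+1) r (fun S => z S ^ k) S ≤ δ ^ 2 * M + 1 / δ := by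
  have h1 := (Gs_pos (V := V) (k+1) r).mono (g := fun S => z S ^ k)
    (g' := (fun _ => δ ^ 2) + (1/δ) • (fun S => z S ^ (k+1))) (fun S' => by
      have := zpow_le hk hδ hδ1 (z_nonneg S')
      simp only [Pi.add_apply, Pi.smul_apply, smul_eq_mul]
      calc _ ≤ _ := this
        _ = _ := by ring) S
  rw [map_add, map_smul, Pi.add_apply, Pi.smul_apply, smul_eq_mul] at h1
  have h2 := sum_zk_le (V := V) (k := k+1) (by omega) r S
  have h3 : Gs V (k+1) r (fun _ => δ ^ 2) S = r * δ ^ 2 := by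
    rw [Gs_apply]
    rw [Finset.sum_congr rfl (fun i _ => by
      rw [((Q_mark (V := V) (k+1)).pow i).2])]
    simp
  rw [h3] at h1
  have h4 : (r:ℝ) * δ ^ 2 ≤ δ ^ 2 * M := by
    rw [mul_comm]
    have : (r:ℝ) ≤ M := by exact_mod_cast hr
    gcongr
  have h5 : (1/δ) * Gs V (k+1) r (fun S => z S ^ (k+1)) S ≤ (1/δ) * 1 := by
    apply mul_le_mul_of_nonneg_left h2 (by positivity)
  linarith

/-- state mean and second moment -/
noncomputable def Wf (V : Type) [Fintype V] [DecidableEq V] (k r : ℕ) : Set (Asg V) → ℝ :=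
  ∑ i ∈ range r, (2 * (i:ℝ) + 1) • (Q V k ^ i) ind

noncomputable def vf (V : Type) [Fintype V] [DecidableEq V] (k r : ℕ) : Set (Asg V) → ℝ :=
  fun S => Wf V k r S - (Gs V k r ind S) ^ 2

lemma T_succ (k r : ℕ) : Gs V k (r+1) ind = ind + Q V k (Gs V k r ind) := by
  unfold Gs
  rw [Finset.sum_range_succ', LinearMap.add_apply, LinearMap.sum_apply, LinearMap.sum_apply, map_sum]
  simp only [pow_succ', Module.End.mul_apply, pow_zero, Module.End.one_apply]
  rw [add_comm]

lemma W_succ (k r : ℕ) :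
    Wf V k (r+1) = ind + (2:ℝ) • Q V k (Gs V k r ind) + Q V k (Wf V k r) := by
  unfold Gs Wf
  rw [Finset.sum_range_succ', LinearMap.sum_apply, map_sum, map_sum]
  simp only [pow_succ', Module.End.mul_apply, pow_zero, Module.End.one_apply, map_smul]
  rw [Finset.smul_sum]
  have : ∀ i : ℕ, (2 * ((i+1 : ℕ):ℝ) + 1) • (Q V k) ((Q V k ^ i) ind)
      = (2:ℝ) • (Q V k) ((Q V k ^ i) ind) + (2 * (i:ℝ) + 1) • (Q V k) ((Q V k ^ i) ind) := by
    intro i
    rw [← add_smul]
    congr 1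
    push_cast
    ring
  simp only [this]
  rw [Finset.sum_add_distrib]
  simp
  abel

lemma Q_sq_sub (k : ℕ) [Nonempty V] (g : Set (Asg V) → ℝ) (S : Set (Asg V)) :
    Q V k (fun S => g S ^ 2) S - (Q V k g S) ^ 2
      ≤ (∑ C : Fin k → Lit V, (g S - g (S ∩ sol C)) ^ 2) / Fintype.card (Fin k → Lit V) := by
  have hN : (0:ℝ) < Fintype.card (Fin k → Lit V) := by exact_mod_cast Fintype.card_pos
  rw [Q_apply, Q_apply]
  set N : ℝ := (Fintype.card (Fin k → Lit V) : ℝ) with hNd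
  have h1 : ∑ C : Fin k → Lit V, (g S - g (S ∩ sol C)) ^ 2
      = N * g S ^ 2 - 2 * g S * ∑ C : Fin k → Lit V, g (S ∩ sol C)
        + ∑ C : Fin k → Lit V, g (S ∩ sol C) ^ 2 := by
    have : ∀ C : Fin k → Lit V, (g S - g (S ∩ sol C)) ^ 2
        = g S ^ 2 - 2 * g S * g (S ∩ sol C) + g (S ∩ sol C) ^ 2 := fun C => by ring
    simp only [this]
    rw [Finset.sum_add_distrib, Finset.sum_sub_distrib, ← Finset.mul_sum]
    simp [hNd]
  rw [h1]
  set a := ∑ C : Fin k → Lit V, g (S ∩ sol C)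
  set b := ∑ C : Fin k → Lit V, g (S ∩ sol C) ^ 2
  have h2 : (N * g S ^ 2 - 2 * g S * a + b) / N = (g S - a / N) ^ 2 + b / N - (a / N) ^ 2 := by
    field_simp
    ring
  rw [h2]
  have := sq_nonneg (g S - a / N)
  linarith

lemma pow_ind_empty (k i : ℕ) {S : Set (Asg V)} (hS : ¬ S.Nonempty) :
    (Q V k ^ i) ind S = 0 := by
  induction i with
  | zero => simpa using ind_of_empty hS
  | succ i ih =>
    rw [pow_succ', Module.End.mul_apply, Q_apply]
    have h : ∀ C : Fin k → Lit V, S ∩ sol C = S := by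
      intro C
      rw [Set.not_nonempty_iff_eq_empty] at hS
      rw [hS]; simp
    simp [h, ih]

lemma v_empty (k r : ℕ) {S : Set (Asg V)} (hS : ¬ S.Nonempty) : vf V k r S = 0 := by
  unfold vf Wf
  rw [Gs_apply, Finset.sum_apply]
  simp [pow_ind_empty k _ hS]

lemma v_succ [Nonempty V] (k r : ℕ) {S : Set (Asg V)} (hS : S.Nonempty) :
    vf V k (r+1) S = Q V k (vf V k r) S
      + (Q V k (fun S => (Gs V k r ind S) ^ 2) S - (Q V k (Gs V k r ind) S) ^ 2) := by
  have h1 : vf V k r = Wf V k r - (fun S => (Gs V k r ind S) ^ 2) := rfl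
  rw [h1, map_sub, Pi.sub_apply]
  unfold vf
  rw [T_succ, W_succ]
  simp only [Pi.add_apply, Pi.smul_apply, smul_eq_mul]
  rw [ind_of_nonempty hS]
  ring

lemma v_step [Nonempty V] {k : ℕ} (hk : 2 ≤ k) (r M : ℕ) (hr : r ≤ M) {δ : ℝ} (hδ : 0 < δ)
    (hδ1 : δ ≤ 1) (S : Set (Asg V)) :
    vf V (k+1) (r+1) S ≤ Q V (k+1) (vf V (k+1) r) S
      + (δ ^ 2 * M + 1 / δ) * Gs V (k+1) r z S := by
  have hz0 : 0 ≤ Gs V (k+1) r z S := Gs_pos (k+1) r z z_nonneg S
  have hc0 : 0 ≤ δ ^ 2 * M + 1 / δ := by positivity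
  by_cases hS : S.Nonempty
  · rw [v_succ _ _ hS]
    have h1 := Q_sq_sub (k+1) (Gs V (k+1) r ind) S
    have h2 := pair_le (k := k) (Gs V (k+1) r) (Gs V (k+1) r) (Gs_pos _ _) (Gs_pos _ _) S
    have hN : (0:ℝ) < Fintype.card (Fin (k+1) → Lit V) := by exact_mod_cast Fintype.card_pos
    have h3 : (∑ C : Fin (k+1) → Lit V, (Gs V (k+1) r ind S - Gs V (k+1) r ind (S ∩ sol C)) ^ 2)
        / Fintype.card (Fin (k+1) → Lit V)
        ≤ Gs V (k+1) r z S * Gs V (k+1) r (fun S => z S ^ k) S := by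
      rw [div_le_iff₀ hN]
      calc _ = ∑ C : Fin (k+1) → Lit V, Gs V (k+1) r (hC C) S * Gs V (k+1) r (hC C) S := by
            refine Finset.sum_congr rfl fun C _ => ?_
            rw [T_sub, sq]
        _ ≤ _ := h2
        _ = _ := by ring
    have h4 := Gs_zk_le hk r M hr hδ hδ1 S
    have h5 := mul_le_mul_of_nonneg_left h4 hz0
    linarith
  · rw [v_empty _ _ hS]
    have h1 : Q V (k+1) (vf V (k+1) r) S = 0 := by
      have h : ∀ C : Fin (k+1) → Lit V, S ∩ sol C = S := by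
        intro C
        rw [Set.not_nonempty_iff_eq_empty] at hS
        rw [hS]; simp
      rw [Q_apply]
      simp [h, v_empty _ _ hS]
    rw [h1]
    positivity

lemma v_le [Nonempty V] {k : ℕ} (hk : 2 ≤ k) (M : ℕ) {δ : ℝ} (hδ : 0 < δ)
    (hδ1 : δ ≤ 1) (r : ℕ) (hr : r ≤ M) (S : Set (Asg V)) :
    vf V (k+1) r S
      ≤ (δ ^ 2 * M + 1 / δ) * ∑ i ∈ range r, ((i:ℝ) + 1) * (Q V (k+1) ^ i) z S := by
  have hc0 : 0 ≤ δ ^ 2 * M + 1 / δ := by positivity
  set c := δ ^ 2 * M + 1 / δ with hc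
  induction r generalizing S with
  | zero => simp [vf, Wf, Gs_apply]
  | succ r ih =>
    have h1 := v_step hk r M (by omega) hδ hδ1 S
    have h2 := (Q_mark (V := V) (k+1)).1.mono (g := vf V (k+1) r)
      (g' := c • ∑ i ∈ range r, ((i:ℝ) + 1) • (Q V (k+1) ^ i) z) (fun S' => by
        have := ih (by omega) S'
        simpa only [Pi.smul_apply, Finset.sum_apply, smul_eq_mul] using this) S
    rw [map_smul, map_sum, Pi.smul_apply, Finset.sum_apply, smul_eq_mul] at h2
    simp only [map_smul, Pi.smul_apply, smul_eq_mul, ← Module.End.mul_apply, ← pow_succ'] at h2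
    rw [Gs_apply] at h1
    have h0 : ∀ i, 0 ≤ (Q V (k+1) ^ i) z S := fun i =>
      ((Q_mark (V := V) (k+1)).1.pow i) z z_nonneg S
    have h3 : ∑ i ∈ range (r+1), ((i:ℝ) + 1) * (Q V (k+1) ^ i) z S
        = ∑ i ∈ range (r+1), (i:ℝ) * (Q V (k+1) ^ i) z S + ∑ i ∈ range (r+1), (Q V (k+1) ^ i) z S := by
      rw [← Finset.sum_add_distrib]
      exact Finset.sum_congr rfl fun i _ => by ring
    have h4 : ∑ i ∈ range (r+1), (i:ℝ) * (Q V (k+1) ^ i) z S
        = ∑ i ∈ range r, ((i:ℝ) + 1) * (Q V (k+1) ^ (i+1)) z S := by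
      rw [Finset.sum_range_succ']
      push_cast
      simp
    have h5 : ∑ i ∈ range r, (Q V (k+1) ^ i) z S ≤ ∑ i ∈ range (r+1), (Q V (k+1) ^ i) z S := by
      rw [Finset.sum_range_succ]
      linarith [h0 r]
    rw [h3, h4, mul_add]
    have h6 := mul_le_mul_of_nonneg_left h5 hc0
    linarith

end Var

theorem var_bound (k : ℕ) (hk : 3 ≤ k) (n : ℕ) (hn : 1 ≤ n) (M : ℕ) (Θ : ℝ)
    (hΘ : ∑ t ∈ range M, zV (Fin n) k t ≤ Θ) (δ : ℝ) (hδ : 0 < δ) (hδ1 : δ ≤ 1) :
    vari k n M ≤ M * Θ * (δ^2 * M + 1/δ) := by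
  have : Nonempty (Fin n) := ⟨⟨0, hn⟩⟩
  obtain ⟨k, rfl⟩ : ∃ k', k = k' + 1 := ⟨k - 1, by omega⟩
  have h1 := v_le (V := Fin n) (k := k) (by omega) M hδ hδ1 M le_rfl Set.univ
  have h2 : vf (Fin n) (k+1) M Set.univ = vari (k+1) n M := by
    unfold vf Wf vari mean p pV
    rw [Gs_apply, Finset.sum_apply]
    simp
  rw [h2] at h1
  refine h1.trans ?_
  have hc0 : 0 ≤ δ ^ 2 * M + 1 / δ := by positivity
  have h0 : ∀ i, 0 ≤ (Q (Fin n) (k+1) ^ i) z Set.univ := fun i =>
      ((Q_mark (V := Fin n) (k+1)).1.pow i) z z_nonneg Set.univ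
  have h3 : ∑ i ∈ range M, ((i:ℝ) + 1) * (Q (Fin n) (k+1) ^ i) z Set.univ ≤ M * Θ := by
    calc _ ≤ ∑ i ∈ range M, (M:ℝ) * (Q (Fin n) (k+1) ^ i) z Set.univ := by
          refine Finset.sum_le_sum fun i hi => ?_
          have hi' : i + 1 ≤ M := Finset.mem_range.1 hi
          have : (i:ℝ) + 1 ≤ M := by exact_mod_cast hi'
          exact mul_le_mul_of_nonneg_right this (h0 i)
      _ = M * ∑ t ∈ range M, zV (Fin n) (k+1) t := by
          rw [← Finset.mul_sum]; rfl
      _ ≤ _ := mul_le_mul_of_nonneg_left hΘ (by positivity)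
  calc _ ≤ (δ ^ 2 * M + 1 / δ) * (M * Θ) := mul_le_mul_of_nonneg_left h3 hc0
    _ = _ := by ring

end P170
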