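import Vale.Agent.P170.Recursion
import Vale.Agent.P170.Var
import Vale.Agent.P170.Block
import Vale.Agent.P170.Cheb
import Vale.Agent.P170.FirstMoment
import Vale.Agent.P170.Conv

/-! Assembly: mean regularity + variance + block comparison imply the iid threshold. -/

namespace P170

open Finset Filter Topology

set_option linter.unusedSectionVars false

/-- elementary bounds on the mean -/
private lemma mean_nonneg' (k n M : ℕ) : 0 ≤ mean k n M :=
  Finset.sum_nonneg fun m _ => p_nonneg k n m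

private lemma mean_le' (k n M : ℕ) (hn : 1 ≤ n) : mean k n M ≤ M := by
  calc mean k n M ≤ ∑ _m ∈ range M, (1:ℝ) :=
        Finset.sum_le_sum fun m _ => p_le_one k n m hn
    _ = M := by simp

private lemma rpow_mul_self {x : ℝ} (hx : 0 < x) (a b c : ℝ) (h : a + b = c) :
    x ^ a * x ^ b = x ^ c := by rw [← Real.rpow_add hx, h]

/-- the variance bound with optimised `δ` -/
private lemma var_opt (k : ℕ) (hk : 3 ≤ k) : ∃ Cv : ℝ, 0 ≤ Cv ∧ ∀ n : ℕ, 1 ≤ n →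
    vari k n (2^k * n) ≤ Cv * (n:ℝ) ^ (4/3 : ℝ) := by
  obtain ⟨Θ, hΘ0, hΘ⟩ := frozen_bound k hk
  refine ⟨2 * Θ * ((2:ℝ)^k) ^ (4/3 : ℝ), by positivity, fun n hn => ?_⟩
  have hn0 : (0:ℝ) < n := by exact_mod_cast hn
  set M : ℕ := 2^k * n with hM
  have hM1 : 1 ≤ M := Nat.mul_pos (by positivity) hn
  have hM0 : (0:ℝ) < M := by exact_mod_cast hM1
  have hδ0 : (0:ℝ) < (M:ℝ) ^ (-(1/3) : ℝ) := by positivity
  have hδ1 : (M:ℝ) ^ (-(1/3) : ℝ) ≤ 1 :=
    Real.rpow_le_one_of_one_le_of_nonpos (by exact_mod_cast hM1) (by norm_num)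
  have h := var_bound k hk n hn M Θ (hΘ n hn) _ hδ0 hδ1
  have e1 : ((M:ℝ) ^ (-(1/3) : ℝ))^2 * M = (M:ℝ) ^ (1/3 : ℝ) := by
    rw [← Real.rpow_natCast, ← Real.rpow_mul hM0.le]
    nth_rewrite 2 [← Real.rpow_one (M:ℝ)]
    rw [← Real.rpow_add hM0]
    norm_num
  have e2 : 1 / (M:ℝ) ^ (-(1/3) : ℝ) = (M:ℝ) ^ (1/3 : ℝ) := by
    rw [Real.rpow_neg hM0.le]; simp
  rw [e1, e2] at h
  have e3 : (M:ℝ) * (M:ℝ) ^ (1/3 : ℝ) = (M:ℝ) ^ (4/3 : ℝ) := by
    nth_rewrite 1 [← Real.rpow_one (M:ℝ)]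
    rw [← Real.rpow_add hM0]; norm_num
  have e4 : (M:ℝ) ^ (4/3 : ℝ) = ((2:ℝ)^k) ^ (4/3 : ℝ) * (n:ℝ) ^ (4/3 : ℝ) := by
    rw [hM]; push_cast
    rw [Real.mul_rpow (by positivity) hn0.le]
  calc vari k n M ≤ M * Θ * ((M:ℝ) ^ (1/3 : ℝ) + (M:ℝ) ^ (1/3 : ℝ)) := h
    _ = 2 * Θ * ((M:ℝ) * (M:ℝ) ^ (1/3 : ℝ)) := by ring
    _ = 2 * Θ * ((2:ℝ)^k) ^ (4/3 : ℝ) * (n:ℝ) ^ (4/3 : ℝ) := by rw [e3, e4]; ring

private lemma cheb_left' (k n : ℕ) (hn : 1 ≤ n) (Cv : ℝ)
    (hv : vari k n (2^k * n) ≤ Cv * (n:ℝ) ^ (4/3 : ℝ)) (m : ℕ) (t : ℝ) (ht : 0 < t)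
    (hm : (m:ℝ) + t ≤ mean k n (2^k * n)) :
    1 - p k n m ≤ Cv * (n:ℝ) ^ (4/3 : ℝ) / t ^ 2 := by
  have h := cheb_left (p k n) (p_nonneg k n) (p_zero k n) (fun m => p_anti k n m hn)
    (2^k * n) m (by unfold mean at hm; linarith)
  refine h.trans ?_
  have hv' : (∑ i ∈ range (2^k * n), (2 * (i:ℝ) + 1) * p k n i - (∑ i ∈ range (2^k * n), p k n i)^2)
      ≤ Cv * (n:ℝ) ^ (4/3 : ℝ) := hv
  have hd : t ≤ ∑ i ∈ range (2^k * n), p k n i - m := by unfold mean at hm; linarith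
  have hn0 : (0:ℝ) < n := by exact_mod_cast hn
  have hv0 : 0 ≤ Cv * (n:ℝ) ^ (4/3 : ℝ) := by
    by_contra hneg
    push Not at hneg
    have h2 := (div_neg_of_neg_of_pos (lt_of_le_of_lt hv' hneg)
      (show 0 < (∑ i ∈ range (2^k * n), p k n i - m)^2 by
        have : 0 < ∑ i ∈ range (2^k * n), p k n i - m := by linarith
        positivity))
    have := p_le_one k n m hn
    linarith
  calc _ ≤ Cv * (n:ℝ) ^ (4/3 : ℝ) / (∑ i ∈ range (2^k * n), p k n i - m)^2 := by gcongr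
    _ ≤ Cv * (n:ℝ) ^ (4/3 : ℝ) / t ^ 2 := by gcongr

private lemma cheb_right' (k n : ℕ) (hn : 1 ≤ n) (Cv : ℝ)
    (hv : vari k n (2^k * n) ≤ Cv * (n:ℝ) ^ (4/3 : ℝ)) (m : ℕ) (hmM : m < 2^k * n) (t : ℝ)
    (ht : 0 < t) (hm : mean k n (2^k * n) + t ≤ m + 1) :
    p k n m ≤ Cv * (n:ℝ) ^ (4/3 : ℝ) / t ^ 2 := by
  have h := cheb_right (p k n) (p_nonneg k n) (p_zero k n) (fun m => p_anti k n m hn)
    (2^k * n) m hmM (by unfold mean at hm; linarith)
  refine h.trans ?_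
  have hv' : (∑ i ∈ range (2^k * n), (2 * (i:ℝ) + 1) * p k n i - (∑ i ∈ range (2^k * n), p k n i)^2)
      ≤ Cv * (n:ℝ) ^ (4/3 : ℝ) := hv
  have hd : t ≤ m + 1 - ∑ i ∈ range (2^k * n), p k n i := by unfold mean at hm; linarith
  have hv0 : 0 ≤ Cv * (n:ℝ) ^ (4/3 : ℝ) := by
    by_contra hneg
    push Not at hneg
    have h2 := (div_neg_of_neg_of_pos (lt_of_le_of_lt hv' hneg)
      (show 0 < (m + 1 - ∑ i ∈ range (2^k * n), p k n i)^2 by
        have : 0 < m + 1 - ∑ i ∈ range (2^k * n), p k n i := by linarith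
        positivity))
    have := p_nonneg k n m
    linarith
  calc _ ≤ Cv * (n:ℝ) ^ (4/3 : ℝ) / (m + 1 - ∑ i ∈ range (2^k * n), p k n i)^2 := by gcongr
    _ ≤ Cv * (n:ℝ) ^ (4/3 : ℝ) / t ^ 2 := by gcongr

/-- block inequality for the means -/
private lemma block_mean (k : ℕ) (hk : 3 ≤ k) (Cv : ℝ) (hCv : 0 ≤ Cv)
    (hv : ∀ n : ℕ, 1 ≤ n → vari k n (2^k * n) ≤ Cv * (n:ℝ) ^ (4/3 : ℝ))
    (K n : ℕ) (hK : 1 ≤ K) (hn : 1 ≤ n) :
    K * (mean k n (2^k * n) - 3 * (n:ℝ) ^ (5/6 : ℝ))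
      - K * (2^k * n) * (K * ((Cv + 2^k) * (n:ℝ) ^ (-(1/3) : ℝ)))
      ≤ mean k (K*n) (2^k * (K*n)) := by
  have hn0 : (0:ℝ) < n := by exact_mod_cast hn
  have hn1 : (1:ℝ) ≤ n := by exact_mod_cast hn
  have hK0 : (0:ℝ) < K := by exact_mod_cast hK
  set s : ℝ := (n:ℝ) ^ (5/6 : ℝ) with hs
  have hs1 : 1 ≤ s := Real.one_le_rpow hn1 (by norm_num)
  have hs0 : 0 < s := by linarith
  have h2k : (0:ℝ) < 2^k := by positivity
  set μ := mean k n (2^k * n) with hμ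
  have hμle : μ ≤ 2^k * n := by
    have := mean_le' k n (2^k * n) hn
    push_cast at this; exact this
  set ε : ℝ := (Cv + 2^k) * (n:ℝ) ^ (-(1/3) : ℝ) with hε
  have hε0 : 0 ≤ ε := by positivity
  have hs2 : s ^ 2 = (n:ℝ) ^ (5/3 : ℝ) := by
    rw [hs, ← Real.rpow_natCast, ← Real.rpow_mul hn0.le]; norm_num
  set x : ℝ := K * (μ - 3 * s) with hx
  have hpt : ∀ m : ℕ, (m:ℝ) < x → 1 - K * ε ≤ p k (K*n) m := by
    intro m hm
    have hmK : (m:ℝ) / K < μ - 3 * s := by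
      rw [div_lt_iff₀ hK0]; rw [hx] at hm; linarith
    have hmK0 : 0 ≤ (m:ℝ) / K := by positivity
    set m₀ : ℕ := ⌈(m:ℝ) / K + s⌉₊ with hm₀
    have h1 : (m:ℝ) / K + s ≤ m₀ := Nat.le_ceil _
    have h2 : (m₀:ℝ) < (m:ℝ) / K + s + 1 := Nat.ceil_lt_add_one (by positivity)
    have hb := block k (by omega) K n hK hn m m₀ s hs0 h1
    have hc := cheb_left' k n hn Cv (hv n hn) m₀ s hs0 (by linarith)
    have e1 : Cv * (n:ℝ) ^ (4/3 : ℝ) / s ^ 2 = Cv * (n:ℝ) ^ (-(1/3) : ℝ) := by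
      rw [hs2, mul_div_assoc, ← Real.rpow_sub hn0]; norm_num
    have e2 : (m:ℝ) / K / s ^ 2 ≤ 2^k * (n:ℝ) ^ (-(1/3) : ℝ) := by
      have h3 : (m:ℝ) / K ≤ 2^k * n := by linarith
      calc (m:ℝ) / K / s ^ 2 ≤ 2^k * n / s ^ 2 := by gcongr
        _ = 2^k * (n:ℝ) ^ (-(2/3) : ℝ) := by
            rw [hs2, mul_div_assoc]
            nth_rewrite 1 [← Real.rpow_one (n:ℝ)]
            rw [← Real.rpow_sub hn0]; norm_num
        _ ≤ 2^k * (n:ℝ) ^ (-(1/3) : ℝ) :=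
            mul_le_mul_of_nonneg_left (Real.rpow_le_rpow_of_exponent_le hn1 (by norm_num))
              h2k.le
    have e3 : 1 - p k n m₀ + (m:ℝ) / K / s ^ 2 ≤ ε := by
      rw [e1] at hc
      rw [hε]; nlinarith
    have e4 : (K:ℝ) * (1 - p k n m₀ + (m:ℝ) / K / s ^ 2) ≤ K * ε := by gcongr
    linarith
  by_cases hxneg : x ≤ 0
  · have h0 := mean_nonneg' k (K*n) (2^k * (K*n))
    have : 0 ≤ K * (2^k * (n:ℝ)) * (K * ε) := by positivity
    linarith
  push Not at hxneg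
  set N := ⌈x⌉₊ with hN
  have hNx : x ≤ N := Nat.le_ceil _
  have hNM : N ≤ 2^k * (K * n) := by
    rw [hN, Nat.ceil_le]; push_cast
    rw [hx]; nlinarith
  have hsum : (N:ℝ) * (1 - K * ε) ≤ mean k (K*n) (2^k * (K*n)) := by
    calc (N:ℝ) * (1 - K * ε) = ∑ _m ∈ range N, (1 - K * ε) := by
          rw [Finset.sum_const, Finset.card_range, nsmul_eq_mul]
      _ ≤ ∑ m ∈ range N, p k (K*n) m := by
          refine Finset.sum_le_sum fun m hm => hpt m ?_
          rw [Finset.mem_range] at hm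
          exact Nat.lt_ceil.1 hm
      _ ≤ mean k (K*n) (2^k * (K*n)) := by
          unfold mean
          refine Finset.sum_le_sum_of_subset_of_nonneg ?_ fun m _ _ => p_nonneg _ _ _
          exact Finset.range_subset_range.2 hNM
  have hN2 : (N:ℝ) ≤ K * (2^k * n) := by
    have : (N:ℝ) ≤ ((2^k * (K * n) : ℕ) : ℝ) := by exact_mod_cast hNM
    push_cast at this; linarith
  have h5 : (N:ℝ) * (K * ε) ≤ K * (2^k * n) * (K * ε) := by gcongr
  nlinarith

theorem iid_threshold (k : ℕ) (hk : 3 ≤ k) : ∃ α : ℝ, 0 < α ∧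
    (∀ c : ℝ, 0 ≤ c → c < α → Tendsto (fun n : ℕ => p k n ⌊c * n⌋₊) atTop (𝓝 1)) ∧
    (∀ c : ℝ, α < c → Tendsto (fun n : ℕ => p k n ⌊c * n⌋₊) atTop (𝓝 0)) := by
  obtain ⟨Cv, hCv, hv⟩ := var_opt k hk
  obtain ⟨Cr, hCr, hreg⟩ := regularity k hk
  obtain ⟨c₀, hc₀, hpos⟩ := positivity_sub k hk
  set f : ℕ → ℝ := fun n => mean k n (2^k * n) / n with hf
  have h2k : (0:ℝ) < 2^k := by positivity
  have hB : ∀ n, 0 ≤ f n ∧ f n ≤ 2^k := by
    intro n
    rcases Nat.eq_zero_or_pos n with h | h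
    · subst h; simp [hf]
    · have hn0 : (0:ℝ) < n := by exact_mod_cast h
      refine ⟨div_nonneg (mean_nonneg' _ _ _) hn0.le, ?_⟩
      rw [hf]; simp only
      rw [div_le_iff₀ hn0]
      have := mean_le' k n (2^k * n) h
      push_cast at this; exact this
  have hmean : ∀ n : ℕ, 1 ≤ n → mean k n (2^k * n) = f n * n := by
    intro n hn
    have hn0 : (n:ℝ) ≠ 0 := by positivity
    rw [hf]; simp only; field_simp
  set C : ℝ := (2^k + Cr) + (3 + 2^k * (Cv + 2^k)) with hC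
  have hC0 : 0 ≤ C := by positivity
  have h1 : ∀ n : ℕ, 1 ≤ n → f n - C / n ≤ f (n+1) := by
    intro n hn
    have hn0 : (0:ℝ) < n := by exact_mod_cast hn
    have hr := hreg n hn
    rw [hmean n hn, hmean (n+1) (by omega)] at hr
    push_cast at hr
    have hfn := hB n
    have h3 : f n - (2^k + Cr) / n ≤ f (n+1) := by
      have : (f n - (2^k + Cr) / n) * (n + 1) ≤ f (n+1) * (n+1) := by
        have h4 : (2^k + Cr) / (n:ℝ) * (n + 1) = (2^k + Cr) + (2^k + Cr) / n := by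
          field_simp
        have h5 : 0 ≤ (2^k + Cr) / (n:ℝ) := by positivity
        nlinarith
      exact le_of_mul_le_mul_right this (by positivity)
    have h6 : (2^k + Cr) / (n:ℝ) ≤ C / n := by
      gcongr
      rw [hC]
      have : 0 ≤ 3 + 2^k * (Cv + 2^k) := by positivity
      linarith
    linarith
  have h2 : ∀ K n : ℕ, 1 ≤ K → 1 ≤ n → f n - C * K * (n:ℝ)^(-(1/6) : ℝ) ≤ f (K*n) := by
    intro K n hK hn
    have hn0 : (0:ℝ) < n := by exact_mod_cast hn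
    have hn1 : (1:ℝ) ≤ n := by exact_mod_cast hn
    have hK0 : (0:ℝ) < K := by exact_mod_cast hK
    have hK1 : (1:ℝ) ≤ K := by exact_mod_cast hK
    have hb := block_mean k hk Cv hCv hv K n hK hn
    rw [hmean n hn, hmean (K*n) (Nat.mul_pos hK hn)] at hb
    push_cast at hb
    set a : ℝ := (n:ℝ)^(-(1/6) : ℝ) with ha
    have ha0 : 0 < a := by positivity
    have e1 : (n:ℝ) ^ (5/6 : ℝ) = n * a := by
      rw [ha]
      nth_rewrite 2 [← Real.rpow_one (n:ℝ)]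
      rw [← Real.rpow_add hn0]; norm_num
    have e2 : (n:ℝ) ^ (-(1/3) : ℝ) ≤ a := by
      rw [ha]; exact Real.rpow_le_rpow_of_exponent_le hn1 (by norm_num)
    have h3 : (f n - (3 * a + 2^k * (K * ((Cv + 2^k) * (n:ℝ) ^ (-(1/3) : ℝ))))) * (K * n)
        ≤ f (K*n) * (K * n) := by
      rw [e1] at hb
      nlinarith
    have h4 := le_of_mul_le_mul_right h3 (by positivity)
    have h5 : 3 * a ≤ 3 * K * a := by nlinarith
    have h6 : 2^k * (K * ((Cv + 2^k) * (n:ℝ) ^ (-(1/3) : ℝ))) ≤ 2^k * (K * ((Cv + 2^k) * a)) := by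
      gcongr
    have h7 : C * K * a = (2^k + Cr) * K * a + (3 * K * a + 2^k * (K * ((Cv + 2^k) * a))) := by
      rw [hC]; ring
    have h8 : 0 ≤ (2^k + Cr) * K * a := by positivity
    linarith
  obtain ⟨α, hα⟩ := conv_of_ineqs f (2^k) C hB hC0 h1 h2
  have hαpos : c₀ ≤ α := by
    refine ge_of_tendsto_of_frequently hα ?_
    rw [frequently_atTop]
    intro n₀
    obtain ⟨n, hn, hn1, hcn⟩ := hpos n₀
    refine ⟨n, hn, ?_⟩
    have hn0 : (0:ℝ) < n := by exact_mod_cast hn1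
    rw [hf]; simp only
    rw [le_div_iff₀ hn0]; exact hcn
  -- the decay of the error term
  have herr : ∀ η : ℝ, 0 < η →
      Tendsto (fun n : ℕ => Cv * (n:ℝ) ^ (4/3 : ℝ) / (η * n) ^ 2) atTop (𝓝 0) := by
    intro η hη
    have ht : Tendsto (fun n : ℕ => Cv / η ^ 2 * (n:ℝ) ^ (-(2/3) : ℝ)) atTop (𝓝 0) := by
      have := ((tendsto_rpow_neg_atTop (show (0:ℝ) < 2/3 by norm_num)).comp
        (tendsto_natCast_atTop_atTop (R := ℝ))).const_mul (Cv / η ^ 2)
      simpa using this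
    refine ht.congr' ?_
    filter_upwards [eventually_ge_atTop 1] with n hn
    have hn0 : (0:ℝ) < n := by exact_mod_cast hn
    have : (n:ℝ) ^ (-(2/3) : ℝ) = (n:ℝ) ^ (4/3 : ℝ) / (n:ℝ) ^ 2 := by
      rw [← Real.rpow_natCast, ← Real.rpow_sub hn0]; norm_num
    rw [this]
    field_simp
  refine ⟨α, lt_of_lt_of_le hc₀ hαpos, ?_, ?_⟩
  · intro c hc hcα
    set η := (α - c) / 2 with hη
    have hη0 : 0 < η := by rw [hη]; linarith
    have hev : ∀ᶠ n : ℕ in atTop, c + η < f n :=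
      hα.eventually_const_lt (by rw [hη]; linarith)
    have hlow : Tendsto (fun n : ℕ => 1 - Cv * (n:ℝ) ^ (4/3 : ℝ) / (η * n) ^ 2) atTop (𝓝 1) := by
      simpa using (herr η hη0).const_sub 1
    refine tendsto_of_tendsto_of_tendsto_of_le_of_le' hlow tendsto_const_nhds ?_ ?_
    · filter_upwards [hev, eventually_ge_atTop 1] with n hn1 hn2
      have hn0 : (0:ℝ) < n := by exact_mod_cast hn2
      have hfl : ((⌊c * n⌋₊ : ℕ) : ℝ) ≤ c * n := Nat.floor_le (by positivity)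
      have h := cheb_left' k n hn2 Cv (hv n hn2) ⌊c * n⌋₊ (η * n) (by positivity)
        (by rw [hmean n hn2]; nlinarith)
      linarith
    · filter_upwards [eventually_ge_atTop 1] with n hn2
      exact p_le_one k n _ hn2
  · intro c hcα
    rcases lt_or_ge c (2^k) with hlt | hge
    · set η := (c - α) / 2 with hη
      have hη0 : 0 < η := by rw [hη]; linarith
      have hev : ∀ᶠ n : ℕ in atTop, f n < c - η :=
        hα.eventually_lt_const (by rw [hη]; linarith)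
      refine tendsto_of_tendsto_of_tendsto_of_le_of_le' tendsto_const_nhds (herr η hη0) ?_ ?_
      · exact Eventually.of_forall fun n => p_nonneg k n _
      · filter_upwards [hev, eventually_ge_atTop 1] with n hn1 hn2
        have hn0 : (0:ℝ) < n := by exact_mod_cast hn2
        have hc0 : 0 ≤ c := by linarith
        have hfl : c * n < ((⌊c * n⌋₊ : ℕ) : ℝ) + 1 := Nat.lt_floor_add_one _
        refine cheb_right' k n hn2 Cv (hv n hn2) ⌊c * n⌋₊ ?_ (η * n) (by positivity) ?_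
        · have h5 : ((⌊c * n⌋₊ : ℕ) : ℝ) ≤ c * n := Nat.floor_le (by positivity)
          have h6 : ((⌊c * n⌋₊ : ℕ) : ℝ) < ((2^k * n : ℕ) : ℝ) := by push_cast; nlinarith
          exact_mod_cast h6
        · rw [hmean n hn2]; nlinarith
    · -- first moment
      have hq : (2:ℝ) * (1 - 1/2^k)^(2^k) < 1 := by
        have h3 : (1 - 1/2^k : ℝ)^(2^k) ≤ Real.exp (-1) := by
          have h4 : (1 - 1/2^k : ℝ) ≤ Real.exp (-(1/2^k)) := Real.one_sub_le_exp_neg _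
          have h5 : (0:ℝ) ≤ 1 - 1/2^k := by
            have : (1:ℝ)/2^k ≤ 1 := by
              rw [div_le_one h2k]; exact one_le_pow₀ (by norm_num)
            linarith
          calc (1 - 1/2^k : ℝ)^(2^k) ≤ (Real.exp (-(1/2^k)))^(2^k) := by gcongr
            _ = Real.exp (-1) := by
                rw [← Real.exp_nat_mul]; congr 1; push_cast; field_simp
        have := Real.exp_neg_one_lt_d9
        linarith
      have hq0 : (0:ℝ) ≤ 2 * (1 - 1/2^k)^(2^k) := by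
        have : (0:ℝ) ≤ 1 - 1/2^k := by
          have : (1:ℝ)/2^k ≤ 1 := by
            rw [div_le_one h2k]; exact one_le_pow₀ (by norm_num)
          linarith
        positivity
      refine tendsto_of_tendsto_of_tendsto_of_le_of_le' tendsto_const_nhds
        (tendsto_pow_atTop_nhds_zero_of_lt_one hq0 hq) ?_ ?_
      · exact Eventually.of_forall fun n => p_nonneg k n _
      · filter_upwards [eventually_ge_atTop 1] with n hn2
        have hn0 : (0:ℝ) < n := by exact_mod_cast hn2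
        have h5 : (0:ℝ) ≤ 1 - 1/2^k := by
          have : (1:ℝ)/2^k ≤ 1 := by
            rw [div_le_one h2k]; exact one_le_pow₀ (by norm_num)
          linarith
        have h6 : (1:ℝ) - 1/2^k ≤ 1 := by
          have : (0:ℝ) < 1/2^k := by positivity
          linarith
        have h7 : 2^k * n ≤ ⌊c * n⌋₊ := by
          apply Nat.le_floor
          push_cast
          gcongr
        calc p k n ⌊c * n⌋₊ ≤ 2^n * (1 - 1/2^k)^⌊c * n⌋₊ := first_moment k n _ hn2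
          _ ≤ 2^n * (1 - 1/2^k)^(2^k * n) := by
              gcongr 2^n * ?_
              exact pow_le_pow_of_le_one h5 h6 h7
          _ = (2 * (1 - 1/2^k)^(2^k))^n := by rw [mul_pow, pow_mul]

end P170
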