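import Vale.Agent.P170.Defs2

/-! Elementary facts: symmetry/transport, monotonicity of `p`. -/

set_option linter.unusedSectionVars false

namespace P170

open Finset

section transport

variable {V W : Type} [Fintype V] [DecidableEq V] [Fintype W] [DecidableEq W]

/-- compatible relabelling of literals and assignments -/
structure Relab (V W : Type) where
  lam : Lit V ≃ Lit W
  sig : Asg V ≃ Asg W
  compat : ∀ (a : Asg V) (l : Lit V), a l.1 = l.2 ↔ (sig a) (lam l).1 = (lam l).2

lemma Relab.image_sol (R : Relab V W) {r : ℕ} (C : Fin r → Lit V) :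
    R.sig '' (sol C) = sol (fun i => R.lam (C i)) := by
  ext b
  constructor
  · rintro ⟨a, ⟨i, hi⟩, rfl⟩
    exact ⟨i, (R.compat a (C i)).1 hi⟩
  · rintro ⟨i, hi⟩
    refine ⟨R.sig.symm b, ⟨i, ?_⟩, by simp⟩
    rw [R.compat]
    simpa using hi

lemma Q_transport (R : Relab V W) (r : ℕ) (g : Set (Asg W) → ℝ) (S : Set (Asg V)) :
    Q V r (fun S => g (R.sig '' S)) S = Q W r g (R.sig '' S) := by
  rw [Q_apply, Q_apply]
  have hc : Fintype.card (Fin r → Lit V) = Fintype.card (Fin r → Lit W) :=
    Fintype.card_congr (Equiv.arrowCongr (Equiv.refl _) R.lam)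
  rw [hc]
  congr 1
  refine Fintype.sum_equiv (Equiv.arrowCongr (Equiv.refl _) R.lam) _ _ ?_
  intro C
  rw [Set.image_inter R.sig.injective, R.image_sol]
  rfl

lemma Qpow_transport (R : Relab V W) (r : ℕ) (m : ℕ) :
    ∀ (g : Set (Asg W) → ℝ) (S : Set (Asg V)),
    (Q V r ^ m) (fun S => g (R.sig '' S)) S = (Q W r ^ m) g (R.sig '' S) := by
  induction m with
  | zero => intro g S; simp
  | succ m ih =>
    intro g S
    rw [pow_succ, pow_succ, Module.End.mul_apply, Module.End.mul_apply]
    have : Q V r (fun S => g (R.sig '' S)) = fun S => (Q W r g) (R.sig '' S) := by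
      funext S; exact Q_transport R r g S
    rw [this, ih]

lemma QQ_transport (R : Relab V W) (k r : ℕ) (m j : ℕ) (g : Set (Asg W) → ℝ) (S : Set (Asg V)) :
    (Q V k ^ m * Q V r ^ j) (fun S => g (R.sig '' S)) S
      = (Q W k ^ m * Q W r ^ j) g (R.sig '' S) := by
  rw [Module.End.mul_apply, Module.End.mul_apply]
  have : (Q V r ^ j) (fun S => g (R.sig '' S)) = fun S => ((Q W r ^ j) g) (R.sig '' S) := by
    funext S; exact Qpow_transport R r j g S
  rw [this, Qpow_transport]

lemma ind_image {A B : Type*} (σ : A ≃ B) (S : Set A) : ind (σ '' S) = ind S := by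
  by_cases h : S.Nonempty
  · rw [ind_of_nonempty h, ind_of_nonempty (h.image _)]
  · rw [ind_of_empty h, ind_of_empty]
    rwa [Set.image_nonempty]

/-- relabelling of the variables -/
def Relab.ofEquiv (e : V ≃ W) : Relab V W where
  lam := Equiv.prodCongr e (Equiv.refl _)
  sig := Equiv.arrowCongr e (Equiv.refl _)
  compat a l := by simp [Equiv.arrowCongr]

lemma xor_aux (x y w : Bool) : xor (xor x y) (xor (xor x y) w) = w := by
  cases x <;> cases y <;> cases w <;> rfl

/-- a symmetry moving `l₁` to `l₀` -/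
def Relab.swapLit (l₀ l₁ : Lit V) : Relab V V where
  lam :=
    { toFun := fun l => (Equiv.swap l₀.1 l₁.1 l.1, xor (xor l₀.2 l₁.2) l.2)
      invFun := fun l => (Equiv.swap l₀.1 l₁.1 l.1, xor (xor l₀.2 l₁.2) l.2)
      left_inv := fun l => by
        ext
        · simp
        · exact xor_aux _ _ _
      right_inv := fun l => by
        ext
        · simp
        · exact xor_aux _ _ _ }
  sig :=
    { toFun := fun a v => xor (xor l₀.2 l₁.2) (a (Equiv.swap l₀.1 l₁.1 v))
      invFun := fun a v => xor (xor l₀.2 l₁.2) (a (Equiv.swap l₀.1 l₁.1 v))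
      left_inv := fun a => by
        funext v
        simpa using xor_aux l₀.2 l₁.2 _
      right_inv := fun a => by
        funext v
        simpa using xor_aux l₀.2 l₁.2 _ }
  compat a l := by simp

lemma Relab.swapLit_lam (l₀ l₁ : Lit V) : (Relab.swapLit l₀ l₁).lam l₁ = l₀ := by
  ext
  · simp [Relab.swapLit]
  · simp [Relab.swapLit]

/-- all literals play the same role -/
lemma lit_symm (k r m j : ℕ) (l₀ l₁ : Lit V) :
    (Q V k ^ m * Q V r ^ j) (fun S => ind (S ∩ {a | a l₁.1 = l₁.2})) Set.univ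
      = (Q V k ^ m * Q V r ^ j) (fun S => ind (S ∩ {a | a l₀.1 = l₀.2})) Set.univ := by
  set R := Relab.swapLit l₀ l₁ with hR
  have himg : R.sig '' {a | a l₁.1 = l₁.2} = {a | a l₀.1 = l₀.2} := by
    ext b
    constructor
    · rintro ⟨a, ha, rfl⟩
      have := (R.compat a l₁).1 ha
      rw [hR, Relab.swapLit_lam] at this
      exact this
    · intro hb
      refine ⟨R.sig.symm b, ?_, by simp⟩
      show (R.sig.symm b) l₁.1 = l₁.2
      rw [R.compat, hR, Relab.swapLit_lam, ← hR]
      simpa using hb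
  have h := QQ_transport R k r m j (fun S => ind (S ∩ {a | a l₀.1 = l₀.2})) Set.univ
  rw [Set.image_univ, R.sig.range_eq_univ] at h
  rw [← h]
  have hf : (fun S : Set (Asg V) => ind (S ∩ {a | a l₁.1 = l₁.2}))
      = fun S => ind (R.sig '' S ∩ {a | a l₀.1 = l₀.2}) := by
    funext S
    rw [← ind_image R.sig (S ∩ {a | a l₁.1 = l₁.2}), Set.image_inter R.sig.injective]
    congr 2
  rw [hf]

end transport

lemma pV_congr {V W : Type} [Fintype V] [DecidableEq V] [Fintype W] [DecidableEq W] (e : V ≃ W)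
    (k m : ℕ) : pV V k m = pV W k m := by
  unfold pV
  have h := Qpow_transport (Relab.ofEquiv e) k m ind Set.univ
  rw [Set.image_univ, (Relab.ofEquiv e).sig.range_eq_univ] at h
  rw [← h]
  have hf : (ind : Set (Asg V) → ℝ) = fun S => ind ((Relab.ofEquiv e).sig '' S) := by
    funext S
    exact (ind_image _ S).symm
  rw [← hf]

theorem pV_eq_p (V : Type) [Fintype V] [DecidableEq V] (k m : ℕ) :
    pV V k m = p k (Fintype.card V) m :=
  pV_congr (Fintype.equivFin V) k m

theorem p_zero (k n : ℕ) : p k n 0 = 1 := by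
  unfold p pV
  simp only [pow_zero, Module.End.one_apply]
  exact ind_of_nonempty ⟨fun _ => true, trivial⟩

theorem p_nonneg (k n m : ℕ) : 0 ≤ p k n m :=
  ((avgOp_pos _).pow m) _ ind_nonneg _

section
variable {V : Type} [Fintype V] [DecidableEq V] [Nonempty V]

lemma ind_monoF {A : Type*} : MonoF (ind : Set A → ℝ) := fun _ _ h => ind_mono h

lemma monoF_pow {A : Type*} {ι : Type*} [Fintype ι] {T : ι → Set A} {g : Set A → ℝ}
    (h : MonoF g) (m : ℕ) : MonoF ((avgOp T ^ m) g) := by
  induction m with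
  | zero => simpa using h
  | succ m ih => rw [pow_succ', Module.End.mul_apply]; exact ih.avg T

lemma pV_le_one (k m : ℕ) : pV V k m ≤ 1 :=
  ((Q_mark k).pow m).le_const ind_le_one _

lemma pV_anti (k m : ℕ) : pV V k (m+1) ≤ pV V k m := by
  unfold pV
  rw [pow_succ', Module.End.mul_apply]
  exact avg_le_self (monoF_pow ind_monoF m) _ _

end

theorem p_le_one (k n m : ℕ) (hn : 1 ≤ n) : p k n m ≤ 1 := by
  have : NeZero n := ⟨by omega⟩
  exact pV_le_one (V := Fin n) k m

theorem p_anti (k n m : ℕ) (hn : 1 ≤ n) : p k n (m+1) ≤ p k n m := by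
  have : NeZero n := ⟨by omega⟩
  exact pV_anti (V := Fin n) k m

end P170
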