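import Vale.Agent.P170.Cavity
import Vale.Agent.P170.Basic

/-! The cavity inequality in summed form. -/

set_option linter.unusedSectionVars false

namespace P170

open Finset

/-- probability of satisfiability with `j` extra `(k-1)`-clauses -/
noncomputable def pj (V : Type) [Fintype V] [DecidableEq V] (k m j : ℕ) : ℝ :=
  (Q V k ^ m * Q V (k-1) ^ j) ind Set.univ
/-- expected killing fraction with `j` extra `(k-1)`-clauses -/
noncomputable def zj (V : Type) [Fintype V] [DecidableEq V] (k m j : ℕ) : ℝ :=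
  (Q V k ^ m * Q V (k-1) ^ j) z Set.univ

/-- sequence attached to a state function -/
noncomputable def cs (V : Type) [Fintype V] [DecidableEq V] (k : ℕ) (g : Set (Asg V) → ℝ) : DS :=
  fun t j => (Q V k ^ t * Q V (k-1) ^ j) g Set.univ

section W
variable {W : Type} [Fintype W] [DecidableEq W] [Nonempty W]

/-- parameters -/
noncomputable def xw (W : Type) [Fintype W] : ℝ := 1 / ((Fintype.card W : ℝ) + 1)
noncomputable def uw (W : Type) [Fintype W] (k : ℕ) : ℝ := (1 - xw W) ^ k
noncomputable def aw (W : Type) [Fintype W] (k : ℕ) : ℝ := k * (xw W / 2) * (1 - xw W) ^ (k-1)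
noncomputable def ew (W : Type) [Fintype W] (k : ℕ) : ℝ := 1 - uw W k - 2 * aw W k

lemma xw_pos : 0 < xw W := by unfold xw; positivity
lemma xw_le : xw W ≤ 1/2 := by
  have : (1:ℝ) ≤ Fintype.card W := by exact_mod_cast Fintype.card_pos
  unfold xw
  apply one_div_le_one_div_of_le <;> linarith

/-- state operators -/
noncomputable def XX (W : Type) [Fintype W] [DecidableEq W] (k : ℕ) :
    Module.End ℝ (Set (Asg W) → ℝ) := uw W k • Q W k + (1 - uw W k) • 1
noncomputable def YY (W : Type) [Fintype W] [DecidableEq W] (k : ℕ) :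
    Module.End ℝ (Set (Asg W) → ℝ) := uw W k • Q W k + aw W k • (Q W (k-1) + 1)

lemma uw_pos (k : ℕ) : 0 < uw W k := by
  unfold uw; have := xw_le (W := W); have : 0 < 1 - xw W := by linarith
  positivity
lemma uw_le (k : ℕ) : uw W k ≤ 1 := by
  unfold uw; have := xw_le (W := W); have := xw_pos (W := W)
  exact pow_le_one₀ (by linarith) (by linarith)
lemma aw_nonneg (k : ℕ) : 0 ≤ aw W k := by
  unfold aw; have := xw_le (W := W); have := xw_pos (W := W)
  have : 0 ≤ 1 - xw W := by linarith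
  positivity

lemma ua_eq (k : ℕ) (hk : 1 ≤ k) :
    uw W k + 2 * aw W k = (1 - xw W)^(k-1) * (1 + ((k:ℝ) - 1) * xw W) := by
  obtain ⟨k, rfl⟩ := Nat.exists_eq_add_of_le' hk
  unfold uw aw
  rw [Nat.add_sub_cancel, pow_succ]
  push_cast
  ring

lemma ew_nonneg (k : ℕ) (hk : 1 ≤ k) : 0 ≤ ew W k := by
  have h1 := xw_le (W := W)
  have h0 := xw_pos (W := W)
  have : uw W k + 2 * aw W k ≤ 1 := by
    rw [ua_eq k hk]
    obtain ⟨k, rfl⟩ := Nat.exists_eq_add_of_le' hk
    rw [Nat.add_sub_cancel]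
    push_cast
    have hb : 1 + (k:ℝ) * xw W ≤ (1 + xw W)^k := one_add_mul_le_pow (by linarith) k
    calc (1 - xw W)^k * (1 + ((k:ℝ) + 1 - 1) * xw W)
        ≤ (1 - xw W)^k * (1 + xw W)^k := by
          apply mul_le_mul_of_nonneg_left _ (pow_nonneg (by linarith) _)
          calc 1 + ((k:ℝ) + 1 - 1) * xw W = 1 + (k:ℝ) * xw W := by ring
            _ ≤ _ := hb
      _ = (1 - xw W ^ 2)^k := by rw [← mul_pow]; congr 1; ring
      _ ≤ 1 := pow_le_one₀ (by nlinarith) (by nlinarith)
  unfold ew; linarith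

lemma ew_le (k : ℕ) (hk : 1 ≤ k) : ew W k ≤ k^2 * xw W ^ 2 := by
  have h1 := xw_le (W := W)
  have h0 := xw_pos (W := W)
  have e : ew W k = 1 - (1 - xw W)^(k-1) * (1 + ((k:ℝ) - 1) * xw W) := by
    rw [← ua_eq k hk]; unfold ew; ring
  rw [e]
  obtain ⟨k, rfl⟩ := Nat.exists_eq_add_of_le' hk
  rw [Nat.add_sub_cancel]
  push_cast
  have hb : 1 + (k:ℝ) * (- xw W) ≤ (1 + (- xw W))^k := one_add_mul_le_pow (by linarith) k
  have hk0 : (0:ℝ) ≤ k := Nat.cast_nonneg k
  have h3 : (1 + (k:ℝ) * (- xw W)) * (1 + k * xw W) ≤ (1 + (- xw W))^k * (1 + k * xw W) :=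
    mul_le_mul_of_nonneg_right hb (by positivity)
  have h4 : (1 + (- xw W)) = 1 - xw W := by ring
  rw [h4] at h3
  have h5 : (1 - xw W)^k * (1 + ((k:ℝ) + 1 - 1) * xw W) = (1 - xw W)^k * (1 + k * xw W) := by ring
  rw [h5]
  nlinarith [sq_nonneg (xw W)]

lemma XX_mono_arg (k : ℕ) : Pos (XX W k) :=
  (Pos.smul (uw_pos k).le (avgOp_pos _)).add (Pos.smul (by linarith [uw_le (W := W) k]) Pos.one)

lemma YY_pos (k : ℕ) : Pos (YY W k) :=
  (Pos.smul (uw_pos k).le (avgOp_pos _)).add
    (Pos.smul (aw_nonneg k) ((avgOp_pos _).add Pos.one))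

lemma step_plus (k : ℕ) (g : Set (Asg W) → ℝ) (hg0 : ∀ S, 0 ≤ g S) (S : Set (Asg (Option W))) :
    YY W k g (plus S) ≤ Q (Option W) k (fun S => g (plus S)) S := by
  have h := qT_plus g hg0 S (x := xw W) rfl k ∅
  have e : plus (∅ : Set (Asg (Option W))) = ∅ := rfl
  rw [e, qT_empty, qT_empty, qT_empty] at h
  refine le_trans (le_of_eq ?_) h
  simp only [YY, uw, aw, LinearMap.add_apply, LinearMap.smul_apply, Pi.add_apply, Pi.smul_apply,
    smul_eq_mul, Module.End.one_apply]

lemma step_plus' (r : ℕ) (g : Set (Asg W) → ℝ) (hg0 : ∀ S, 0 ≤ g S) (S : Set (Asg (Option W))) :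
    uw W r * Q W r g (plus S) ≤ Q (Option W) r (fun S => g (plus S)) S := by
  have h := qT_plus g hg0 S (x := xw W) rfl r ∅
  have e : plus (∅ : Set (Asg (Option W))) = ∅ := rfl
  rw [e, qT_empty, qT_empty, qT_empty] at h
  refine le_trans ?_ h
  have h1 := xw_le (W := W)
  have h0 := xw_pos (W := W)
  have h2 : 0 ≤ 1 - xw W := by linarith
  have h3 : 0 ≤ (Q W (r-1)) g (plus S) := avgOp_pos _ g hg0 _
  have h4 := hg0 (plus S)
  have : 0 ≤ r * (xw W / 2) * (1 - xw W)^(r-1) * ((Q W (r-1)) g (plus S) + g (plus S)) := by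
    positivity
  unfold uw
  linarith

lemma step_ex (r : ℕ) (g : Set (Asg W) → ℝ) (hg : MonoF g) (S : Set (Asg (Option W))) :
    Q (Option W) r (fun S => g (ex S)) S ≤ uw W r * Q W r g (ex S) + (1 - uw W r) * g (ex S) := by
  have h := qT_ex g hg S (x := xw W) rfl r ∅
  have e : cyl (∅ : Set (Asg W)) = ∅ := rfl
  rw [e, qT_empty, qT_empty] at h
  exact h

lemma iter_plus (k : ℕ) (m : ℕ) : ∀ (g : Set (Asg W) → ℝ), (∀ S, 0 ≤ g S) →
    ∀ S : Set (Asg (Option W)),
    (YY W k ^ m) g (plus S) ≤ (Q (Option W) k ^ m) (fun S => g (plus S)) S := by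
  induction m with
  | zero => intro g _ S; simp
  | succ m ih =>
    intro g hg S
    rw [pow_succ (YY W k), pow_succ (Q (Option W) k), Module.End.mul_apply, Module.End.mul_apply]
    refine le_trans (ih (YY W k g) (YY_pos k g hg) S) ?_
    exact ((avgOp_pos _).pow m).mono (fun S => step_plus k g hg S) S

lemma iter_plus' (r : ℕ) (j : ℕ) : ∀ (g : Set (Asg W) → ℝ), (∀ S, 0 ≤ g S) →
    ∀ S : Set (Asg (Option W)),
    uw W r ^ j * (Q W r ^ j) g (plus S) ≤ (Q (Option W) r ^ j) (fun S => g (plus S)) S := by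
  induction j with
  | zero => intro g _ S; simp
  | succ j ih =>
    intro g hg S
    rw [pow_succ (Q W r), pow_succ (Q (Option W) r), Module.End.mul_apply, Module.End.mul_apply]
    have h1 := ih (uw W r • Q W r g) (by
      intro S
      exact mul_nonneg (uw_pos r).le (avgOp_pos _ g hg S)) S
    rw [map_smul] at h1
    refine le_trans (le_of_eq ?_) (le_trans h1 ?_)
    · simp only [Pi.smul_apply, smul_eq_mul]; ring
    · exact ((avgOp_pos _).pow j).mono (fun S => step_plus' r g hg S) S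

lemma low (k m j : ℕ) :
    uw W (k-1) ^ j * ((YY W k ^ m * Q W (k-1) ^ j) ind) Set.univ
      ≤ (Q (Option W) k ^ m * Q (Option W) (k-1) ^ j) (fun S => ind (plus S)) Set.univ := by
  rw [Module.End.mul_apply, Module.End.mul_apply]
  have hpl : plus (Set.univ : Set (Asg (Option W))) = Set.univ := rfl
  have h1 := iter_plus' (W := W) (k-1) j ind ind_nonneg
  have h2 : ∀ S, (Q (Option W) k ^ m)
      (fun S => (uw W (k-1) ^ j • (Q W (k-1) ^ j) ind) (plus S)) S
      ≤ (Q (Option W) k ^ m) ((Q (Option W) (k-1) ^ j) (fun S => ind (plus S))) S :=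
    fun S => ((avgOp_pos _).pow m).mono (fun S => h1 S) S
  have h3 := iter_plus (W := W) k m (uw W (k-1) ^ j • (Q W (k-1) ^ j) ind) (by
    intro S
    exact mul_nonneg (pow_nonneg (uw_pos _).le _) (((avgOp_pos _).pow j) _ ind_nonneg S)) Set.univ
  rw [map_smul, hpl] at h3
  refine le_trans ?_ (le_trans h3 (h2 Set.univ))
  simp

lemma XX_monoF (k : ℕ) {g : Set (Asg W) → ℝ} (hg : MonoF g) : MonoF (XX W k g) := by
  intro S S' h
  simp only [XX, LinearMap.add_apply, LinearMap.smul_apply, Pi.add_apply, Pi.smul_apply,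
    smul_eq_mul, Module.End.one_apply]
  have h1 := (hg.avg (fun C : Fin k → Lit W => sol C)) S S' h
  have h2 := hg S S' h
  have := uw_pos (W := W) k
  have : 0 ≤ 1 - uw W k := by linarith [uw_le (W := W) k]
  exact add_le_add (mul_le_mul_of_nonneg_left h1 (uw_pos k).le) (mul_le_mul_of_nonneg_left h2 this)

lemma iter_ex (k : ℕ) (m : ℕ) : ∀ (g : Set (Asg W) → ℝ), MonoF g →
    ∀ S : Set (Asg (Option W)),
    (Q (Option W) k ^ m) (fun S => g (ex S)) S ≤ (XX W k ^ m) g (ex S) := by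
  induction m with
  | zero => intro g _ S; simp
  | succ m ih =>
    intro g hg S
    rw [pow_succ (XX W k), pow_succ (Q (Option W) k), Module.End.mul_apply, Module.End.mul_apply]
    refine le_trans ?_ (ih (XX W k g) (XX_monoF k hg) S)
    refine ((avgOp_pos _).pow m).mono (fun S => ?_) S
    refine le_trans (step_ex k g hg S) (le_of_eq ?_)
    simp only [XX, LinearMap.add_apply, LinearMap.smul_apply, Pi.add_apply, Pi.smul_apply,
      smul_eq_mul, Module.End.one_apply]

lemma XXpow_ind_le (r j : ℕ) (S : Set (Asg W)) :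
    (XX W r ^ j) ind S ≤ uw W r ^ j * (Q W r ^ j) ind S + (1 - uw W r ^ j) := by
  induction j generalizing S with
  | zero => simp
  | succ j ih =>
    rw [pow_succ' (XX W r), Module.End.mul_apply]
    have h1 : (XX W r) ((XX W r ^ j) ind) S
        ≤ (XX W r) (uw W r ^ j • (Q W r ^ j) ind + fun _ => (1 - uw W r ^ j)) S :=
      (XX_mono_arg r).mono (fun S => by simpa using ih S) S
    refine le_trans h1 ?_
    rw [map_add, map_smul]
    have hXc : XX W r (fun _ => (1 - uw W r ^ j)) = fun _ => (1 - uw W r ^ j) := by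
      funext S
      simp only [XX, LinearMap.add_apply, LinearMap.smul_apply, Pi.add_apply, Pi.smul_apply,
        smul_eq_mul, Module.End.one_apply]
      rw [(Q_mark (V := W) r).2]
      ring
    rw [hXc]
    simp only [Pi.add_apply, Pi.smul_apply, smul_eq_mul]
    have h2 : (XX W r) ((Q W r ^ j) ind) S ≤ uw W r * (Q W r ^ (j+1)) ind S + (1 - uw W r) := by
      simp only [XX, LinearMap.add_apply, LinearMap.smul_apply, Pi.add_apply, Pi.smul_apply,
        smul_eq_mul, Module.End.one_apply]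
      rw [pow_succ' (Q W r), Module.End.mul_apply]
      have h3 : (Q W r ^ j) ind S ≤ 1 := ((Q_mark r).pow j).le_const ind_le_one S
      have h4 : 0 ≤ 1 - uw W r := by linarith [uw_le (W := W) r]
      nlinarith
    have h5 : 0 ≤ uw W r ^ j := pow_nonneg (uw_pos r).le j
    have h6 := mul_le_mul_of_nonneg_left h2 h5
    rw [pow_succ (uw W r)]
    nlinarith

lemma up (k m j : ℕ) :
    pj (Option W) k m j ≤ uw W (k-1) ^ j * ((XX W k ^ m * Q W (k-1) ^ j) ind) Set.univ
      + (1 - uw W (k-1) ^ j) := by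
  unfold pj
  rw [Module.End.mul_apply, Module.End.mul_apply]
  have hex : ex (Set.univ : Set (Asg (Option W))) = Set.univ := by
    ext a; simp [ex]
  have hi : (ind : Set (Asg (Option W)) → ℝ) = fun S => ind (ex S) := by
    funext S; exact (ind_ex S).symm
  obtain ⟨h, hh⟩ : ∃ h : Set (Asg W) → ℝ, h = uw W (k-1) ^ j • (Q W (k-1) ^ j) ind
      + fun _ => (1 - uw W (k-1) ^ j) := ⟨_, rfl⟩
  have h1 : ∀ S, (Q (Option W) (k-1) ^ j) ind S ≤ (fun S => h (ex S)) S := by
    intro S
    rw [hi]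
    refine le_trans (iter_ex (k-1) j ind ind_monoF S) ?_
    rw [hh]
    simpa using XXpow_ind_le (k-1) j (ex S)
  have h2 := ((avgOp_pos (fun C : Fin k → Lit (Option W) => sol C)).pow m).mono h1 Set.univ
  have hm : MonoF h := by
    intro S S' hS
    rw [hh]
    have := (monoF_pow (T := fun C : Fin (k-1) → Lit W => sol C) ind_monoF j) S S' hS
    have h5 : 0 ≤ uw W (k-1) ^ j := pow_nonneg (uw_pos _).le j
    simp only [Pi.add_apply, Pi.smul_apply, smul_eq_mul]
    have := mul_le_mul_of_nonneg_left this h5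
    exact add_le_add this le_rfl
  have h3 := iter_ex (W := W) k m _ hm Set.univ
  refine le_trans h2 (le_trans h3 ?_)
  rw [hex, hh, map_add, map_smul]
  have hXc : ∀ c : ℝ, XX W k (fun _ => c) = fun _ => c := by
    intro c
    funext S
    simp only [XX, LinearMap.add_apply, LinearMap.smul_apply, Pi.add_apply, Pi.smul_apply,
      smul_eq_mul, Module.End.one_apply]
    rw [(Q_mark (V := W) k).2]
    ring
  have hXm : ∀ m, ∀ c : ℝ, (XX W k ^ m) (fun _ => c) = fun _ => c := by
    intro m c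
    induction m with
    | zero => simp
    | succ m ih => rw [pow_succ, Module.End.mul_apply, hXc, ih]
  rw [hXm]
  simp

lemma cs_XX (k : ℕ) (g : Set (Asg W) → ℝ) : cs W k (XX W k g) = Xo (uw W k) (cs W k g) := by
  funext t j
  rw [Xo_apply]
  unfold cs XX
  have hc : Commute (Q W k) (Q W (k-1)) := Q_comm _ _
  have e1 : Q W k ^ (t+1) * Q W (k-1) ^ j = (Q W k ^ t * Q W (k-1) ^ j) * Q W k := by
    rw [pow_succ, mul_assoc, mul_assoc, (hc.pow_right j).eq]
  rw [e1]
  simp only [LinearMap.add_apply, LinearMap.smul_apply, Module.End.one_apply,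
    map_add, map_smul, Pi.add_apply, Pi.smul_apply, smul_eq_mul]
  rfl

lemma cs_YY (k : ℕ) (g : Set (Asg W) → ℝ) :
    cs W k (YY W k g) = Yo (uw W k) (aw W k) (cs W k g) := by
  funext t j
  rw [Yo_apply]
  unfold cs YY
  have hc : Commute (Q W k) (Q W (k-1)) := Q_comm _ _
  have e1 : Q W k ^ (t+1) * Q W (k-1) ^ j = (Q W k ^ t * Q W (k-1) ^ j) * Q W k := by
    rw [pow_succ, mul_assoc, mul_assoc, (hc.pow_right j).eq]
  have e2 : Q W k ^ t * Q W (k-1) ^ (j+1) = (Q W k ^ t * Q W (k-1) ^ j) * Q W (k-1) := by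
    rw [pow_succ, mul_assoc]
  rw [e1, e2]
  simp only [LinearMap.add_apply, LinearMap.smul_apply, Module.End.one_apply,
    map_add, map_smul, Pi.add_apply, Pi.smul_apply, smul_eq_mul]
  rfl

lemma cs_XXpow (k m : ℕ) : cs W k ((XX W k ^ m) ind) = (Xo (uw W k) ^ m) (cs W k ind) := by
  induction m with
  | zero => simp
  | succ m ih => rw [pow_succ', Module.End.mul_apply, cs_XX, ih, pow_succ', Module.End.mul_apply]

lemma cs_YYpow (k m : ℕ) :
    cs W k ((YY W k ^ m) ind) = (Yo (uw W k) (aw W k) ^ m) (cs W k ind) := by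
  induction m with
  | zero => simp
  | succ m ih => rw [pow_succ', Module.End.mul_apply, cs_YY, ih, pow_succ', Module.End.mul_apply]

lemma XX_comm (k : ℕ) : Commute (XX W k) (Q W (k-1)) := by
  unfold XX
  exact ((Q_comm k (k-1)).smul_left _).add_left ((Commute.one_left _).smul_left _)

lemma YY_comm (k : ℕ) : Commute (YY W k) (Q W (k-1)) := by
  unfold YY
  exact ((Q_comm k (k-1)).smul_left _).add_left
    (((Commute.refl _).add_left (Commute.one_left _)).smul_left _)

lemma XX_seq (k m j : ℕ) :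
    ((XX W k ^ m * Q W (k-1) ^ j) ind) Set.univ = (Xo (uw W k) ^ m) (cs W k ind) 0 j := by
  rw [← cs_XXpow, ((XX_comm k).pow_pow m j).eq, Module.End.mul_apply]
  simp [cs]

lemma YY_seq (k m j : ℕ) :
    ((YY W k ^ m * Q W (k-1) ^ j) ind) Set.univ
      = (Yo (uw W k) (aw W k) ^ m) (cs W k ind) 0 j := by
  rw [← cs_YYpow, ((YY_comm k).pow_pow m j).eq, Module.End.mul_apply]
  simp [cs]

end W

section Z
variable {V : Type} [Fintype V] [DecidableEq V] [Nonempty V]

lemma z_eq (S : Set (Asg V)) : z S = ind S - Q V 1 ind S := by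
  rw [kill 1 one_ne_zero S, pow_one]

/-- `E z = P(sat) - P(sat and literal l₀)` -/
lemma zj_eq (k m j : ℕ) (l₀ : Lit V) :
    zj V k m j = pj V k m j
      - (Q V k ^ m * Q V (k-1) ^ j) (fun S => ind (S ∩ {a | a l₀.1 = l₀.2})) Set.univ := by
  unfold zj pj
  have h1 : (z : Set (Asg V) → ℝ) = ind - Q V 1 ind := by
    funext S; rw [z_eq]; rfl
  rw [h1, map_sub, Pi.sub_apply]
  congr 1
  have h2 : Q V 1 ind = ((Fintype.card (Lit V) : ℝ)⁻¹) •
      ∑ l : Lit V, (fun S : Set (Asg V) => ind (S ∩ {a | a l.1 = l.2})) := by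
    funext S
    rw [Q_apply, card_clause, pow_one, Pi.smul_apply, Finset.sum_apply, smul_eq_mul,
      div_eq_inv_mul]
    congr 1
    refine Fintype.sum_equiv (Equiv.funUnique (Fin 1) (Lit V)) _ _ ?_
    intro C
    congr 2
    ext a
    simp [sol]
  rw [h2, map_smul, map_sum, Pi.smul_apply, Finset.sum_apply]
  have h3 : ∀ l : Lit V, (Q V k ^ m * Q V (k-1) ^ j) (fun S => ind (S ∩ {a | a l.1 = l.2})) Set.univ
      = (Q V k ^ m * Q V (k-1) ^ j) (fun S => ind (S ∩ {a | a l₀.1 = l₀.2})) Set.univ :=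
    fun l => lit_symm k (k-1) m j l₀ l
  rw [Finset.sum_congr rfl (fun l _ => h3 l), Finset.sum_const, Finset.card_univ, nsmul_eq_mul,
    smul_eq_mul]
  have : (Fintype.card (Lit V) : ℝ) ≠ 0 := by
    have : 0 < Fintype.card (Lit V) := Fintype.card_pos
    positivity
  field_simp

lemma zj_nonneg (k m j : ℕ) : 0 ≤ zj V k m j :=
  (((avgOp_pos _).pow m).mul ((avgOp_pos _).pow j)) _ z_nonneg _

lemma zj_le_one (k m j : ℕ) : zj V k m j ≤ 1 :=
  (((Q_mark k).pow m).mul ((Q_mark (k-1)).pow j)).le_const z_le_one _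

lemma pj_nonneg (k m j : ℕ) : 0 ≤ pj V k m j :=
  (((avgOp_pos _).pow m).mul ((avgOp_pos _).pow j)) _ ind_nonneg _

lemma pj_le_one (k m j : ℕ) : pj V k m j ≤ 1 :=
  (((Q_mark k).pow m).mul ((Q_mark (k-1)).pow j)).le_const ind_le_one _

lemma pj_sub_j (k m j : ℕ) (hk : 2 ≤ k) :
    pj V k m j - pj V k m (j+1) = (Q V k ^ m * Q V (k-1) ^ j) (fun S => z S ^ (k-1)) Set.univ := by
  unfold pj
  have h1 : (fun S : Set (Asg V) => z S ^ (k-1)) = ind - Q V (k-1) ind := by
    funext S; exact (kill (k-1) (by omega) S).symm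
  have h2 : (Q V k ^ m * Q V (k-1) ^ (j+1)) ind = (Q V k ^ m * Q V (k-1) ^ j) (Q V (k-1) ind) := by
    rw [pow_succ (Q V (k-1)), ← mul_assoc]; rfl
  rw [h1, map_sub, Pi.sub_apply, h2]

lemma pj_sub_m (k m j : ℕ) (hk : 1 ≤ k) :
    pj V k m j - pj V k (m+1) j = (Q V k ^ m * Q V (k-1) ^ j) (fun S => z S ^ k) Set.univ := by
  unfold pj
  have h1 : (fun S : Set (Asg V) => z S ^ k) = ind - Q V k ind := by
    funext S; exact (kill k (by omega) S).symm
  have hc : Commute (Q V k) (Q V (k-1)) := Q_comm _ _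
  have e1 : Q V k ^ (m+1) * Q V (k-1) ^ j = (Q V k ^ m * Q V (k-1) ^ j) * Q V k := by
    rw [pow_succ, mul_assoc, mul_assoc, (hc.pow_right j).eq]
  have h2 : (Q V k ^ (m+1) * Q V (k-1) ^ j) ind = (Q V k ^ m * Q V (k-1) ^ j) (Q V k ind) := by
    rw [e1]; rfl
  rw [h1, map_sub, Pi.sub_apply, h2]

lemma pj_anti_j (k m j : ℕ) (hk : 2 ≤ k) : pj V k m (j+1) ≤ pj V k m j := by
  have h := pj_sub_j (V := V) k m j hk
  have h2 : 0 ≤ (Q V k ^ m * Q V (k-1) ^ j) (fun S => z S ^ (k-1)) Set.univ :=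
    (((avgOp_pos _).pow m).mul ((avgOp_pos _).pow j)) _ (fun S => pow_nonneg (z_nonneg S) _) _
  linarith

lemma pj_anti_m (k m j : ℕ) (hk : 1 ≤ k) : pj V k (m+1) j ≤ pj V k m j := by
  have h := pj_sub_m (V := V) k m j hk
  have h2 : 0 ≤ (Q V k ^ m * Q V (k-1) ^ j) (fun S => z S ^ k) Set.univ :=
    (((avgOp_pos _).pow m).mul ((avgOp_pos _).pow j)) _ (fun S => pow_nonneg (z_nonneg S) _) _
  linarith

/-- summed loss by `(k-1)`-clauses controlled by the summed killing fraction -/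
lemma sum_y_le (k : ℕ) (hk : 3 ≤ k) (δ : ℝ) (hδ : 0 < δ) (M j : ℕ) :
    ∑ t ∈ range M, (pj V k t j - pj V k t (j+1)) ≤ δ * ∑ t ∈ range M, zj V k t j + 1/δ := by
  have hpt : ∀ S : Set (Asg V), z S ^ (k-1) ≤ δ * z S + (1/δ) * z S ^ k := by
    intro S
    have hz0 := z_nonneg S
    have hz1 := z_le_one S
    obtain ⟨k, rfl⟩ := Nat.exists_eq_add_of_le' (show 2 ≤ k by omega)
    have e : k + 2 - 1 = k + 1 := rfl
    rw [e]
    have hk1 : 1 ≤ k := by omega
    by_cases h : z S ≤ δ
    · have h1 : z S ^ (k+1) ≤ δ * z S := by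
        rw [pow_succ]
        apply mul_le_mul_of_nonneg_right _ hz0
        calc z S ^ k ≤ z S ^ 1 := pow_le_pow_of_le_one hz0 hz1 hk1
          _ = z S := pow_one _
          _ ≤ δ := h
      have : 0 ≤ (1/δ) * z S ^ (k+2) := by positivity
      linarith
    · push Not at h
      have h1 : z S ^ (k+1) ≤ (1/δ) * z S ^ (k+2) := by
        rw [one_div, ← div_eq_inv_mul, le_div_iff₀ hδ, pow_succ (z S) (k+1)]
        exact mul_le_mul_of_nonneg_left h.le (by positivity)
      have : 0 ≤ δ * z S := by positivity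
      linarith
  have h1 : ∀ t, pj V k t j - pj V k t (j+1)
      ≤ δ * zj V k t j + (1/δ) * (pj V k t j - pj V k (t+1) j) := by
    intro t
    rw [pj_sub_j k t j (by omega), pj_sub_m k t j (by omega)]
    unfold zj
    have hP : Pos (Q V k ^ t * Q V (k-1) ^ j) := ((avgOp_pos _).pow t).mul ((avgOp_pos _).pow j)
    have := hP.mono (g := fun S => z S ^ (k-1))
      (g' := δ • z + (1/δ) • fun S => z S ^ k) (fun S => by simpa using hpt S) Set.univ
    rw [map_add, map_smul, map_smul] at this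
    simpa using this
  calc ∑ t ∈ range M, (pj V k t j - pj V k t (j+1))
      ≤ ∑ t ∈ range M, (δ * zj V k t j + (1/δ) * (pj V k t j - pj V k (t+1) j)) :=
        Finset.sum_le_sum fun t _ => h1 t
    _ = δ * ∑ t ∈ range M, zj V k t j + (1/δ) * (pj V k 0 j - pj V k M j) := by
        rw [Finset.sum_add_distrib, ← Finset.mul_sum, ← Finset.mul_sum,
          Finset.sum_range_sub' (fun t => pj V k t j)]
    _ ≤ _ := by
        have h2 := pj_le_one (V := V) k 0 j
        have h3 := pj_nonneg (V := V) k M j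
        have h4 : pj V k 0 j - pj V k M j ≤ 1 := by linarith
        have h5 : (1/δ) * (pj V k 0 j - pj V k M j) ≤ (1/δ) * 1 :=
          mul_le_mul_of_nonneg_left h4 (by positivity)
        linarith

end Z

section final
variable {W : Type} [Fintype W] [DecidableEq W] [Nonempty W]

/-- The summed cavity inequality. -/
theorem cav_sum (k : ℕ) (hk : 2 ≤ k) (M : ℕ) (β : ℝ) (hβ0 : 0 ≤ β)
    (hβ : ∀ j, ∑ t ∈ range M, (pj W k t j - pj W k t (j+1)) ≤ β * 2^j) (j : ℕ) :
    ∑ m ∈ range M, zj (Option W) k m j ≤ M * (1 - uw W (k-1) ^ j)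
      + (M / uw W k) * (aw W k * ((1 + aw W k)^M * β * 2^j) + ew W k * M) := by
  have hmain := seq_main (u := uw W k) (a := aw W k) (e := ew W k) (uw_pos k) (aw_nonneg k)
    (ew_nonneg k (by omega)) (by unfold ew; ring) (cs W k ind)
    (fun t j => pj_nonneg k t j) (fun t j => pj_le_one k t j)
    (fun t j => pj_anti_j k t j hk) M β hβ0 hβ j
  set B := (M / uw W k) * (aw W k * ((1 + aw W k)^M * β * 2^j) + ew W k * M) with hB
  have hB0 : 0 ≤ B := by
    have h1 := uw_pos (W := W) k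
    have h2 := aw_nonneg (W := W) k
    have h3 := ew_nonneg (W := W) k (by omega)
    positivity
  have hterm : ∀ m, zj (Option W) k m j ≤ (1 - uw W (k-1) ^ j) + uw W (k-1) ^ j *
      ((Xo (uw W k) ^ m) (cs W k ind) 0 j - (Yo (uw W k) (aw W k) ^ m) (cs W k ind) 0 j) := by
    intro m
    rw [zj_eq k m j ((none, true) : Lit (Option W))]
    have h1 := up (W := W) k m j
    have h2 := low (W := W) k m j
    rw [XX_seq] at h1
    rw [YY_seq] at h2
    have hf : (fun S : Set (Asg (Option W)) =>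
        ind (S ∩ {a | a ((none, true) : Lit (Option W)).1 = ((none, true) : Lit (Option W)).2}))
        = fun S => ind (plus S) := by
      funext S; exact (ind_plus S).symm
    rw [hf]
    linarith
  calc ∑ m ∈ range M, zj (Option W) k m j
      ≤ ∑ m ∈ range M, ((1 - uw W (k-1) ^ j) + uw W (k-1) ^ j *
      ((Xo (uw W k) ^ m) (cs W k ind) 0 j - (Yo (uw W k) (aw W k) ^ m) (cs W k ind) 0 j)) :=
        Finset.sum_le_sum fun m _ => hterm m
    _ = M * (1 - uw W (k-1) ^ j) + uw W (k-1) ^ j * ∑ m ∈ range M,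
        ((Xo (uw W k) ^ m) (cs W k ind) 0 j - (Yo (uw W k) (aw W k) ^ m) (cs W k ind) 0 j) := by
        rw [Finset.sum_add_distrib, ← Finset.mul_sum, Finset.sum_const, Finset.card_range,
          nsmul_eq_mul]
    _ ≤ _ := by
        have h0 : 0 ≤ uw W (k-1) ^ j := pow_nonneg (uw_pos _).le _
        have h1 : uw W (k-1) ^ j ≤ 1 := pow_le_one₀ (uw_pos _).le (uw_le _)
        have h2 := mul_le_mul_of_nonneg_left hmain h0
        have h3 : uw W (k-1) ^ j * B ≤ B := by nlinarith
        linarith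

lemma Xpow_ge {u : ℝ} (h0 : 0 ≤ u) (h1 : u ≤ 1) {c : DS} (hc : ∀ t j, c (t+1) j ≤ c t j) (m : ℕ) :
    ∀ t j, c (t+m) j ≤ (Xo u ^ m) c t j := by
  induction m with
  | zero => intro t j; simp
  | succ m ih =>
    intro t j
    rw [pow_succ', Module.End.mul_apply, Xo_apply]
    have i1 := ih (t+1) j
    have i2 := ih t j
    have e : t + 1 + m = t + (m+1) := by ring
    rw [e] at i1
    have i3 : c (t+(m+1)) j ≤ c (t+m) j := hc (t+m) j
    nlinarith

/-- loss of mean when a variable is added -/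
theorem cav_reg (k : ℕ) (hk : 2 ≤ k) (M : ℕ) (β : ℝ) (hβ0 : 0 ≤ β)
    (hβ : ∀ j, ∑ t ∈ range M, (pj W k t j - pj W k t (j+1)) ≤ β * 2^j) :
    ∑ m ∈ range M, (pV W k m - pV (Option W) k m) ≤
      (M / uw W k) * (aw W k * ((1 + aw W k)^M * β * 2^0) + ew W k * M) := by
  have hmain := seq_main (u := uw W k) (a := aw W k) (e := ew W k) (uw_pos k) (aw_nonneg k)
    (ew_nonneg k (by omega)) (by unfold ew; ring) (cs W k ind)
    (fun t j => pj_nonneg k t j) (fun t j => pj_le_one k t j)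
    (fun t j => pj_anti_j k t j hk) M β hβ0 hβ 0
  refine le_trans (Finset.sum_le_sum fun m _ => ?_) hmain
  have h2 := low (W := W) k m 0
  rw [YY_seq] at h2
  simp only [pow_zero, one_mul, mul_one] at h2
  have h3 := Xpow_ge (uw_pos (W := W) k).le (uw_le k) (c := cs W k ind)
    (fun t j => pj_anti_m k t j (by omega)) m 0 0
  have h4 : cs W k ind (0+m) 0 = pV W k m := by simp [cs, pV]
  rw [h4] at h3
  have h5 : (Q (Option W) k ^ m) (fun S => ind (plus S)) Set.univ ≤ pV (Option W) k m := by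
    unfold pV
    refine ((avgOp_pos _).pow m).mono (fun S => ?_) _
    rw [ind_plus]
    exact ind_mono Set.inter_subset_left
  linarith

end final

end P170
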