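import Mathlib

/-! Lemmas on double sequences (shift operators). -/

namespace P170

open Finset

abbrev DS := ℕ → ℕ → ℝ

/-- shift in the first variable -/
def E1 : Module.End ℝ DS where
  toFun c := fun t j => c (t+1) j
  map_add' _ _ := rfl
  map_smul' _ _ := rfl

/-- shift in the second variable -/
def E2 : Module.End ℝ DS where
  toFun c := fun t j => c t (j+1)
  map_add' _ _ := rfl
  map_smul' _ _ := rfl

lemma E_comm : Commute E1 E2 := by
  ext c t j
  rfl

/-- `u E1 + (1-u)` -/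
noncomputable def Xo (u : ℝ) : Module.End ℝ DS := u • E1 + (1-u) • 1
/-- `u E1 + a (E2 + 1)` -/
noncomputable def Yo (u a : ℝ) : Module.End ℝ DS := u • E1 + a • (E2 + 1)

lemma Xo_apply (u : ℝ) (c : DS) (t j : ℕ) : Xo u c t j = u * c (t+1) j + (1-u) * c t j := by
  simp [Xo, E1]

lemma Yo_apply (u a : ℝ) (c : DS) (t j : ℕ) :
    Yo u a c t j = u * c (t+1) j + a * (c t (j+1) + c t j) := by
  simp [Yo, E1, E2]
  ring

lemma XY_comm (u a : ℝ) : Commute (Xo u) (Yo u a) := by
  unfold Xo Yo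
  have h12 := E_comm
  apply Commute.add_left
  · apply Commute.smul_left
    apply Commute.add_right
    · exact (Commute.refl _).smul_right _
    · exact (h12.add_right (Commute.one_right _)).smul_right _
  · exact (Commute.one_left _).smul_left _

lemma XsubY (u a e : ℝ) (h : u + 2 * a + e = 1) :
    Xo u - Yo u a = a • (1 - E2) + e • 1 := by
  ext c t j
  simp only [LinearMap.sub_apply, Pi.sub_apply, Xo_apply, Yo_apply, LinearMap.add_apply,
    LinearMap.smul_apply, Pi.add_apply, Pi.smul_apply, smul_eq_mul, Module.End.one_apply]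
  simp only [E2, LinearMap.coe_mk, AddHom.coe_mk]
  have : e = 1 - u - 2 * a := by linarith
  subst this
  ring

def Nn (c : DS) : Prop := ∀ t j, 0 ≤ c t j

lemma Nn.X {u : ℝ} (h0 : 0 ≤ u) (h1 : u ≤ 1) {c : DS} (h : Nn c) : Nn (Xo u c) := by
  intro t j
  rw [Xo_apply]
  have := h (t+1) j
  have := h t j
  have : 0 ≤ 1 - u := by linarith
  positivity

lemma Nn.Xpow {u : ℝ} (h0 : 0 ≤ u) (h1 : u ≤ 1) {c : DS} (h : Nn c) (m : ℕ) :
    Nn ((Xo u ^ m) c) := by
  induction m with
  | zero => simpa using h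
  | succ m ih => rw [pow_succ']; exact ih.X h0 h1

lemma Nn.Y {u a : ℝ} (h0 : 0 ≤ u) (h1 : 0 ≤ a) {c : DS} (h : Nn c) : Nn (Yo u a c) := by
  intro t j
  rw [Yo_apply]
  have := h (t+1) j
  have := h t j
  have := h t (j+1)
  positivity

lemma Nn.Ypow {u a : ℝ} (h0 : 0 ≤ u) (h1 : 0 ≤ a) {c : DS} (h : Nn c) (m : ℕ) :
    Nn ((Yo u a ^ m) c) := by
  induction m with
  | zero => simpa using h
  | succ m ih => rw [pow_succ']; exact ih.Y h0 h1

/-- resolvent bound -/
lemma sum_Xpow_le {u : ℝ} (h0 : 0 < u) (h1 : u ≤ 1) (R : ℕ) :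
    ∀ (c : DS), Nn c → ∀ t j,
      u * ∑ r ∈ range R, (Xo u ^ r) c t j ≤ ∑ s ∈ range R, c (t+s) j := by
  induction R with
  | zero => intro c _ t j; simp
  | succ R ih =>
    intro c hc t j
    have h2 : ∀ r, (Xo u ^ (r+1)) c t j
        = u * (Xo u ^ r) c (t+1) j + (1-u) * (Xo u ^ r) c t j := by
      intro r
      rw [pow_succ', Module.End.mul_apply, Xo_apply]
    have hshift : ∀ r, (Xo u ^ r) c (t+1) j = (Xo u ^ r) (E1 c) t j := by
      intro r
      have hcomm : Commute (Xo u ^ r) E1 := by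
        apply Commute.pow_left
        unfold Xo
        exact ((Commute.refl E1).smul_left _).add_left ((Commute.one_left _).smul_left _)
      have := congrArg (fun L : Module.End ℝ DS => L c) hcomm.eq
      simp only [Module.End.mul_apply] at this
      rw [this]; rfl
    have hE : Nn (E1 c) := fun t j => hc (t+1) j
    have hih := ih (E1 c) hE t j
    rw [Finset.sum_range_succ'] 
    simp only [pow_zero, Module.End.one_apply, h2, hshift]
    rw [Finset.sum_add_distrib, ← Finset.mul_sum, ← Finset.mul_sum]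
    rw [Finset.sum_range_succ' (fun s => c (t+s) j)]
    have hmono : ∑ r ∈ range R, (Xo u ^ r) c t j
        ≤ (u * ∑ r ∈ range R, (Xo u ^ r) (E1 c) t j + (1-u) * ∑ r ∈ range R, (Xo u ^ r) c t j)
          + c t j := by
      have e1 : ∑ r ∈ range (R+1), (Xo u ^ r) c t j
          = (u * ∑ r ∈ range R, (Xo u ^ r) (E1 c) t j + (1-u) * ∑ r ∈ range R, (Xo u ^ r) c t j)
          + c t j := by
        rw [Finset.sum_range_succ']
        simp only [pow_zero, Module.End.one_apply, h2, hshift]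
        rw [Finset.sum_add_distrib, ← Finset.mul_sum, ← Finset.mul_sum]
      rw [← e1, Finset.sum_range_succ]
      have := (Nn.Xpow h0.le h1 hc R) t j
      linarith
    have e3 : ∑ s ∈ range R, (E1 c) (t+s) j = ∑ s ∈ range R, c (t+(s+1)) j := by
      refine Finset.sum_congr rfl fun s _ => ?_
      show c (t+s+1) j = _
      rw [add_assoc]
    rw [e3] at hih
    simp only [add_zero]
    nlinarith

/-- sums of `Yo` applied -/
lemma sum_Ypow_le {u a : ℝ} (h0 : 0 ≤ u) (h1 : 0 ≤ a) (h2 : u + 2 * a ≤ 1) (i : ℕ) :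
    ∀ (c : DS), Nn c → ∀ (β : ℝ), 0 ≤ β → ∀ R : ℕ,
      (∀ j, ∑ t ∈ range (R+i), c t j ≤ β * 2 ^ j) →
      ∀ j, ∑ t ∈ range R, (Yo u a ^ i) c t j ≤ (1+a)^i * β * 2 ^ j := by
  induction i with
  | zero => intro c _ β _ R h j; simpa using h j
  | succ i ih =>
    intro c hc β hβ R h j
    rw [pow_succ (Yo u a) i]
    have key : ∀ j, ∑ t ∈ range (R+i), (Yo u a c) t j ≤ ((1+a)*β) * 2 ^ j := by
      intro j
      simp only [Yo_apply]
      rw [Finset.sum_add_distrib, ← Finset.mul_sum, ← Finset.mul_sum, Finset.sum_add_distrib]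
      have hj := h j
      have hj1 := h (j+1)
      have e1 : ∑ t ∈ range (R+i), c (t+1) j ≤ ∑ t ∈ range (R+(i+1)), c t j := by
        rw [← add_assoc, Finset.sum_range_succ' (fun t => c t j)]
        have := hc 0 j
        linarith
      have e2 : ∀ j, ∑ t ∈ range (R+i), c t j ≤ ∑ t ∈ range (R+(i+1)), c t j := by
        intro j
        rw [← add_assoc, Finset.sum_range_succ (fun t => c t j)]
        have := hc (R+i) j
        linarith
      have e3 := e2 j
      have e4 := e2 (j+1)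
      have hp : (0:ℝ) ≤ β * 2^j := by positivity
      have : (2:ℝ)^(j+1) = 2 * 2^j := by ring
      rw [this] at hj1
      have a1 : u * ∑ t ∈ range (R+i), c (t+1) j ≤ u * (β * 2^j) :=
        mul_le_mul_of_nonneg_left (e1.trans hj) h0
      have a2 : a * (∑ t ∈ range (R+i), c t (j+1) + ∑ t ∈ range (R+i), c t j)
          ≤ a * (β * (2 * 2^j) + β * 2^j) := by
        apply mul_le_mul_of_nonneg_left _ h1
        linarith
      nlinarith
    have := ih (Yo u a c) (hc.Y h0 h1) ((1+a)*β) (by positivity) R key j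
    rw [Module.End.mul_apply]
    calc _ ≤ _ := this
      _ = _ := by ring

lemma Ypow_le_one {u a : ℝ} (h0 : 0 ≤ u) (h1 : 0 ≤ a) (h2 : u + 2 * a ≤ 1) {c : DS}
    (hc : ∀ t j, c t j ≤ 1) (i : ℕ) : ∀ t j, (Yo u a ^ i) c t j ≤ 1 := by
  induction i with
  | zero => simpa using hc
  | succ i ih =>
    intro t j
    rw [pow_succ', Module.End.mul_apply, Yo_apply]
    have := ih (t+1) j
    have := ih t j
    have := ih t (j+1)
    nlinarith

/-- The main sequence lemma. -/
theorem seq_main {u a e : ℝ} (hu : 0 < u) (ha : 0 ≤ a) (he : 0 ≤ e) (h : u + 2 * a + e = 1)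
    (p : DS) (hp0 : Nn p) (hp1 : ∀ t j, p t j ≤ 1) (hpj : ∀ t j, p t (j+1) ≤ p t j)
    (M : ℕ) (β : ℝ) (hβ0 : 0 ≤ β)
    (hβ : ∀ j, ∑ t ∈ range M, (p t j - p t (j+1)) ≤ β * 2 ^ j) (j : ℕ) :
    ∑ m ∈ range M, ((Xo u ^ m) p 0 j - (Yo u a ^ m) p 0 j)
      ≤ (M / u) * (a * ((1+a)^M * β * 2^j) + e * M) := by
  set y : DS := fun t j => p t j - p t (j+1) with hy
  have hy0 : Nn y := fun t j => by simp only [hy]; linarith [hpj t j]
  set w : DS := a • y + e • p with hw
  have hw0 : Nn w := by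
    intro t j
    simp only [hw, Pi.add_apply, Pi.smul_apply, smul_eq_mul]
    have := hy0 t j
    have := hp0 t j
    positivity
  have hXY : (Xo u - Yo u a) p = w := by
    rw [XsubY u a e h]
    ext t j
    simp only [hw, hy, LinearMap.add_apply, LinearMap.smul_apply, Pi.add_apply, Pi.smul_apply,
      smul_eq_mul, LinearMap.sub_apply, Pi.sub_apply, Module.End.one_apply]
    rfl
  have hu1 : u ≤ 1 := by linarith
  have hexp : ∀ m, (Xo u ^ m) p 0 j - (Yo u a ^ m) p 0 j
      = ∑ i ∈ range m, (Xo u ^ (m-1-i)) ((Yo u a ^ i) w) 0 j := by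
    intro m
    have hg : Xo u ^ m - Yo u a ^ m
        = ∑ i ∈ range m, (Xo u ^ (m-1-i)) * (Yo u a ^ i) * (Xo u - Yo u a) := by
      have := (XY_comm u a).geom_sum₂_mul m
      rw [← this, Finset.sum_mul]
      rw [← Finset.sum_range_reflect]
      refine Finset.sum_congr rfl fun i hi => ?_
      have hi' := Finset.mem_range.1 hi
      have : m - 1 - (m - 1 - i) = i := by omega
      rw [this]
    have := congrArg (fun L : Module.End ℝ DS => L p 0 j) hg
    simp only [LinearMap.sub_apply, Pi.sub_apply, LinearMap.sum_apply, Finset.sum_apply,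
      Module.End.mul_apply] at this
    rw [this]
    refine Finset.sum_congr rfl fun i _ => ?_
    have : (Xo u) p - (Yo u a) p = w := by simpa using hXY
    rw [this]
  rw [Finset.sum_congr rfl (fun m _ => hexp m)]
  -- swap sums
  have hswap : ∑ m ∈ range M, ∑ i ∈ range m, (Xo u ^ (m-1-i)) ((Yo u a ^ i) w) 0 j
      = ∑ i ∈ range M, ∑ r ∈ range (M-1-i), (Xo u ^ r) ((Yo u a ^ i) w) 0 j := by
    rw [Finset.sum_sigma', Finset.sum_sigma']
    refine Finset.sum_bij' (fun x _ => ⟨x.2, x.1 - 1 - x.2⟩) (fun x _ => ⟨x.1 + x.2 + 1, x.1⟩)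
      ?_ ?_ ?_ ?_ ?_
    · rintro ⟨m, i⟩ hx
      simp only [Finset.mem_sigma, Finset.mem_range] at hx ⊢
      omega
    · rintro ⟨i, r⟩ hx
      simp only [Finset.mem_sigma, Finset.mem_range] at hx ⊢
      omega
    · rintro ⟨m, i⟩ hx
      simp only [Finset.mem_sigma, Finset.mem_range] at hx
      simp only [Sigma.mk.injEq, heq_eq_eq, and_true]
      omega
    · rintro ⟨i, r⟩ hx
      simp only [Finset.mem_sigma, Finset.mem_range] at hx
      simp only [Sigma.mk.injEq, heq_eq_eq, true_and]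
      omega
    · rintro ⟨m, i⟩ hx
      rfl
  rw [hswap]
  have hrow : ∀ i ∈ range M, ∑ r ∈ range (M-1-i), (Xo u ^ r) ((Yo u a ^ i) w) 0 j
      ≤ (1/u) * (a * ((1+a)^M * β * 2^j) + e * M) := by
    intro i hi
    have hi' := Finset.mem_range.1 hi
    have h1 := sum_Xpow_le hu hu1 (M-1-i) _ (hw0.Ypow hu.le ha i) 0 j
    have h2 : ∑ s ∈ range (M-1-i), (Yo u a ^ i) w (0+s) j
        ≤ a * ((1+a)^M * β * 2^j) + e * M := by
      have e1 : ∀ s, (Yo u a ^ i) w (0+s) j
          = a * (Yo u a ^ i) y s j + e * (Yo u a ^ i) p s j := by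
        intro s
        rw [hw, map_add, map_smul, map_smul]
        simp
      simp only [e1]
      rw [Finset.sum_add_distrib, ← Finset.mul_sum, ← Finset.mul_sum]
      have h3 : ∑ s ∈ range (M-1-i), (Yo u a ^ i) y s j ≤ (1+a)^i * β * 2^j := by
        apply sum_Ypow_le hu.le ha (by linarith) i y hy0 β hβ0
        intro j'
        refine le_trans ?_ (hβ j')
        apply Finset.sum_le_sum_of_subset_of_nonneg
        · apply Finset.range_subset_range.2; omega
        · intro t _ _; exact hy0 t j'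
      have h4 : ∑ s ∈ range (M-1-i), (Yo u a ^ i) p s j ≤ M := by
        calc ∑ s ∈ range (M-1-i), (Yo u a ^ i) p s j ≤ ∑ s ∈ range (M-1-i), (1:ℝ) :=
              Finset.sum_le_sum fun s _ => Ypow_le_one hu.le ha (by linarith) hp1 i s j
          _ = ((M-1-i : ℕ) : ℝ) := by simp
          _ ≤ M := by exact_mod_cast (by omega)
      have h5 : (1+a)^i ≤ (1+a)^M := pow_le_pow_right₀ (by linarith) hi'.le
      have h6 : (1+a)^i * β * 2^j ≤ (1+a)^M * β * 2^j := by gcongr
      have h7 := mul_le_mul_of_nonneg_left (h3.trans h6) ha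
      have h8 := mul_le_mul_of_nonneg_left h4 he
      linarith
    rw [one_div, ← div_eq_inv_mul, le_div_iff₀ hu, mul_comm]
    exact h1.trans h2
  calc _ ≤ ∑ i ∈ range M, (1/u) * (a * ((1+a)^M * β * 2^j) + e * M) := Finset.sum_le_sum hrow
    _ = _ := by
      rw [Finset.sum_const, Finset.card_range, nsmul_eq_mul]
      ring

end P170
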