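import Vale.Agent.P170.Core
import Vale.Agent.P170.Seq

/-! Adding one variable: the cavity inequality. -/

set_option linter.unusedSectionVars false

namespace P170

open Finset

section qT
variable {V : Type} [Fintype V] [DecidableEq V]

/-- solutions of a literal -/
def solL (l : Lit V) : Set (Asg V) := {a | a l.1 = l.2}

/-- clause average with a partially built clause `T` -/
noncomputable def qT (r : ℕ) (g : Set (Asg V) → ℝ) (S T : Set (Asg V)) : ℝ :=
  (∑ C : Fin r → Lit V, g (S ∩ (T ∪ sol C))) / (Fintype.card (Lit V) : ℝ) ^ r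

lemma qT_empty (r : ℕ) (g : Set (Asg V) → ℝ) (S : Set (Asg V)) : qT r g S ∅ = Q V r g S := by
  rw [qT, Q_apply, card_clause]
  simp

lemma qT_zero (g : Set (Asg V) → ℝ) (S T : Set (Asg V)) : qT 0 g S T = g (S ∩ T) := by
  rw [qT]
  have : ∀ C : Fin 0 → Lit V, (sol C : Set (Asg V)) = ∅ := by
    intro C
    ext a
    simp [sol]
  simp [this]

lemma sol_cons {r : ℕ} (l : Lit V) (C : Fin r → Lit V) :
    sol (Fin.cons l C : Fin (r+1) → Lit V) = solL l ∪ sol C := by
  ext a
  simp only [sol, solL, Set.mem_ofPred_eq, Set.mem_union]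
  rw [Fin.exists_fin_succ]
  simp

lemma qT_succ (r : ℕ) (g : Set (Asg V) → ℝ) (S T : Set (Asg V)) :
    qT (r+1) g S T = (∑ l : Lit V, qT r g S (T ∪ solL l)) / (Fintype.card (Lit V) : ℝ) := by
  rw [qT]
  have h1 : ∑ C : Fin (r+1) → Lit V, g (S ∩ (T ∪ sol C))
      = ∑ l : Lit V, ∑ C : Fin r → Lit V, g (S ∩ ((T ∪ solL l) ∪ sol C)) := by
    rw [← Fintype.sum_prod_type']
    refine Fintype.sum_equiv (Fin.consEquiv (fun _ => Lit V)).symm _ _ ?_
    intro C
    obtain ⟨⟨l, C⟩, rfl⟩ := (Fin.consEquiv (fun _ : Fin (r+1) => Lit V)).surjective C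
    rw [Equiv.symm_apply_apply]
    have : (Fin.consEquiv (fun _ : Fin (r+1) => Lit V)) (l, C) = Fin.cons l C := rfl
    rw [this, sol_cons, Set.union_assoc]
  rw [h1, pow_succ]
  simp only [qT, ← Finset.sum_div]
  rw [div_div]

end qT

section ext
variable {W : Type} [Fintype W] [DecidableEq W]

/-- extend an assignment -/
def ext (b : Bool) (a : Asg W) : Asg (Option W) := fun o => o.elim b a

def plus (S : Set (Asg (Option W))) : Set (Asg W) := {a | ext true a ∈ S}
def ex (S : Set (Asg (Option W))) : Set (Asg W) := {a | ∃ b, ext b a ∈ S}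
def cyl (T : Set (Asg W)) : Set (Asg (Option W)) := {a | (fun w => a (some w)) ∈ T}

omit [Fintype W] [DecidableEq W] in
lemma ext_some (b : Bool) (a : Asg W) (w : W) : ext b a (some w) = a w := rfl
omit [Fintype W] [DecidableEq W] in
lemma ext_none (b : Bool) (a : Asg W) : ext b a none = b := rfl

omit [Fintype W] [DecidableEq W] in
lemma ind_ex (S : Set (Asg (Option W))) : ind (ex S) = ind S := by
  by_cases h : S.Nonempty
  · rw [ind_of_nonempty h, ind_of_nonempty]
    obtain ⟨a, ha⟩ := h
    refine ⟨fun w => a (some w), a none, ?_⟩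
    convert ha using 1
    funext o
    cases o <;> rfl
  · rw [ind_of_empty h, ind_of_empty]
    rintro ⟨a, b, hb⟩
    exact h ⟨_, hb⟩

omit [Fintype W] [DecidableEq W] in
lemma ind_plus (S : Set (Asg (Option W))) :
    ind (plus S) = ind (S ∩ {a | a none = true}) := by
  by_cases h : (plus S).Nonempty
  · rw [ind_of_nonempty h, ind_of_nonempty]
    obtain ⟨a, ha⟩ := h
    exact ⟨ext true a, ha, rfl⟩
  · rw [ind_of_empty h, ind_of_empty]
    rintro ⟨a, ha, hb⟩
    apply h
    refine ⟨fun w => a (some w), ?_⟩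
    show ext true _ ∈ S
    convert ha using 1
    funext o
    cases o
    · exact hb.symm
    · rfl

lemma card_lit_option : (Fintype.card (Lit (Option W)) : ℝ) = 2 * (Fintype.card W + 1) := by
  simp [Fintype.card_prod]; ring

omit [DecidableEq W] in
lemma card_lit : (Fintype.card (Lit W) : ℝ) = 2 * Fintype.card W := by
  simp [Fintype.card_prod]; ring

lemma sum_lit_option (F : Lit (Option W) → ℝ) :
    ∑ l, F l = ∑ l : Lit W, F (some l.1, l.2) + F (none, true) + F (none, false) := by
  rw [Fintype.sum_prod_type, Fintype.sum_option, Fintype.sum_prod_type]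
  simp only [Fintype.sum_bool]
  ring

variable [Nonempty W]

/-- lower bound through `plus` -/
lemma qT_plus (g : Set (Asg W) → ℝ) (hg0 : ∀ S, 0 ≤ g S) (S : Set (Asg (Option W)))
    {x : ℝ} (hx : x = 1 / ((Fintype.card W : ℝ) + 1)) (r : ℕ) :
    ∀ T : Set (Asg (Option W)),
    (1-x)^r * qT r g (plus S) (plus T)
      + r * (x/2) * (1-x)^(r-1) * (qT (r-1) g (plus S) (plus T) + g (plus S))
    ≤ qT r (fun S => g (plus S)) S T := by
  have hN : (0:ℝ) < Fintype.card W := by exact_mod_cast Fintype.card_pos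
  have hx0 : 0 < x := by rw [hx]; positivity
  have h1x : 1 - x = Fintype.card W / (Fintype.card W + 1) := by
    rw [hx]; field_simp; ring
  have h1x0 : 0 < 1 - x := by rw [h1x]; positivity
  have h1x1 : 1 - x ≤ 1 := by linarith
  have hplus_inter : ∀ A B : Set (Asg (Option W)), plus (A ∩ B) = plus A ∩ plus B := fun _ _ => rfl
  have qnn : ∀ r (A B : Set (Asg W)), 0 ≤ qT r g A B := by
    intro r A B
    rw [qT]
    exact div_nonneg (Finset.sum_nonneg fun C _ => hg0 _) (by positivity)
  induction r with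
  | zero => intro T; simp [qT_zero, hplus_inter]
  | succ r ih =>
    intro T
    rw [qT_succ r (fun S => g (plus S)), sum_lit_option, card_lit_option]
    -- the three kinds of literals
    have e1 : ∀ l : Lit W, plus (T ∪ solL (some l.1, l.2)) = plus T ∪ solL l := by
      intro l; rfl
    have e2 : plus (T ∪ solL ((none, true) : Lit (Option W))) = Set.univ := by
      ext a; simp [plus, solL, ext_none]
    have e3 : plus (T ∪ solL ((none, false) : Lit (Option W))) = plus T := by
      ext a; simp [plus, solL, ext_none]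
    have quniv : ∀ r, qT r g (plus S) Set.univ = g (plus S) := by
      intro r
      rw [qT]
      simp only [Set.univ_union, Set.inter_univ, Finset.sum_const, Finset.card_univ, nsmul_eq_mul]
      rw [card_clause]
      field_simp
    have i1 : ∀ l : Lit W, _ := fun l => ih (T ∪ solL (some l.1, l.2))
    have i2 := ih (T ∪ solL ((none, true) : Lit (Option W)))
    have i3 := ih (T ∪ solL ((none, false) : Lit (Option W)))
    simp only [e1] at i1
    rw [e2, quniv] at i2
    rw [e3] at i3
    have hpw : 0 < (1-x)^r := by positivity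
    -- sum over l
    have s1 : ∑ l : Lit W, ((1-x)^r * qT r g (plus S) (plus T ∪ solL l)
        + r * (x/2) * (1-x)^(r-1) * (qT (r-1) g (plus S) (plus T ∪ solL l) + g (plus S)))
        ≤ ∑ l : Lit W, qT r (fun S => g (plus S)) S (T ∪ solL (some l.1, l.2)) :=
      Finset.sum_le_sum fun l _ => i1 l
    rw [Finset.sum_add_distrib, ← Finset.mul_sum, ← Finset.mul_sum, Finset.sum_add_distrib] at s1
    have c1 : ∑ l : Lit W, qT r g (plus S) (plus T ∪ solL l)
        = (2 * Fintype.card W) * qT (r+1) g (plus S) (plus T) := by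
      rw [qT_succ, card_lit]; field_simp
    have c2 : (r:ℝ) * ∑ l : Lit W, qT (r-1) g (plus S) (plus T ∪ solL l)
        = r * ((2 * Fintype.card W) * qT r g (plus S) (plus T)) := by
      rcases Nat.eq_zero_or_pos r with h | h
      · subst h; simp
      · obtain ⟨r', rfl⟩ := Nat.exists_eq_succ_of_ne_zero h.ne'
        rw [Nat.succ_eq_add_one, Nat.add_sub_cancel, qT_succ, card_lit]; field_simp
    have c3 : ∑ _l : Lit W, g (plus S) = (2 * Fintype.card W) * g (plus S) := by
      rw [Finset.sum_const, Finset.card_univ, nsmul_eq_mul, card_lit]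
    have hr1 : (r:ℝ) * (1-x)^(r-1) * (1-x) = r * (1-x)^r := by
      rcases Nat.eq_zero_or_pos r with h | h
      · subst h; simp
      · obtain ⟨r', rfl⟩ := Nat.exists_eq_succ_of_ne_zero h.ne'
        rw [Nat.succ_eq_add_one, Nat.add_sub_cancel, pow_succ]; ring
    have i2' : (1-x)^r * g (plus S) ≤ qT r (fun S => g (plus S)) S (T ∪ solL (none, true)) := by
      refine le_trans ?_ i2
      have : 0 ≤ r * (x/2) * (1-x)^(r-1) * (qT (r-1) g (plus S) Set.univ + g (plus S)) := by
        have := qnn (r-1) (plus S) Set.univ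
        have := hg0 (plus S)
        positivity
      linarith
    have i3' : (1-x)^r * qT r g (plus S) (plus T)
        ≤ qT r (fun S => g (plus S)) S (T ∪ solL (none, false)) := by
      refine le_trans ?_ i3
      have : 0 ≤ r * (x/2) * (1-x)^(r-1) * (qT (r-1) g (plus S) (plus T) + g (plus S)) := by
        have := qnn (r-1) (plus S) (plus T)
        have := hg0 (plus S)
        positivity
      linarith
    rw [le_div_iff₀ (by positivity)]
    have hx' : x * (Fintype.card W + 1) = 1 := by rw [hx]; field_simp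
    have hNx : (1-x) * (Fintype.card W + 1) = Fintype.card W := by rw [h1x]; field_simp
    set q1 := qT (r+1) g (plus S) (plus T) with hq1
    set q0 := qT r g (plus S) (plus T) with hq0
    set G := g (plus S) with hG
    set N : ℝ := (Fintype.card W : ℝ) with hNdef
    have s2 : (1-x)^r * (2 * N * q1) + (x/2) * (1-x)^(r-1) * (r * (2*N*q0) + r * (2*N*G))
        ≤ ∑ l : Lit W, qT r (fun S => g (plus S)) S (T ∪ solL (some l.1, l.2)) := by
      refine le_trans (le_of_eq ?_) s1
      rw [c1, c3]
      have : (r:ℝ) * (x/2) * (1-x)^(r-1) * (∑ l : Lit W, qT (r-1) g (plus S) (plus T ∪ solL l)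
          + 2 * N * G) = (x/2) * (1-x)^(r-1) * (r * ∑ l : Lit W, qT (r-1) g (plus S) (plus T ∪ solL l)
          + r * (2 * N * G)) := by ring
      rw [this, c2]
    have goal_eq : ((1 - x) ^ (r + 1) * q1 + ((r + 1 : ℕ):ℝ) * (x / 2) * (1 - x) ^ (r + 1 - 1)
        * (qT (r + 1 - 1) g (plus S) (plus T) + G)) * (2 * (N + 1))
        = ((1-x)^r * (2 * N * q1) + (x/2) * (1-x)^(r-1) * (r * (2*N*q0) + r * (2*N*G)))
          + (1-x)^r * G + (1-x)^r * q0 := by
      rw [Nat.add_sub_cancel, ← hq0]
      push_cast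
      have t1 : (1-x)^(r+1) * (2*(N+1)) = (1-x)^r * (2*N) := by
        rw [pow_succ]
        linear_combination 2 * (1-x)^r * hNx
      have t2 : (r:ℝ) * (x/2) * (1-x)^r * (2*(N+1)) = (x/2) * (1-x)^(r-1) * r * (2*N) := by
        linear_combination (-(x/2) * (2*(N+1))) * hr1 + (x * r * (1-x)^(r-1)) * hNx
      have t3 : (x/2) * (2*(N+1)) = 1 := by linear_combination hx'
      linear_combination q1 * t1 + (q0 + G) * t2 + (1-x)^r * (q0+G) * t3
    rw [goal_eq]
    linarith

/-- upper bound through `ex` -/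
lemma qT_ex (g : Set (Asg W) → ℝ) (hg : MonoF g) (S : Set (Asg (Option W)))
    {x : ℝ} (hx : x = 1 / ((Fintype.card W : ℝ) + 1)) (r : ℕ) :
    ∀ T : Set (Asg W),
    qT r (fun S => g (ex S)) S (cyl T)
      ≤ (1-x)^r * qT r g (ex S) T + (1 - (1-x)^r) * g (ex S) := by
  have hN : (0:ℝ) < Fintype.card W := by exact_mod_cast Fintype.card_pos
  have hx0 : 0 < x := by rw [hx]; positivity
  have h1x : 1 - x = Fintype.card W / (Fintype.card W + 1) := by
    rw [hx]; field_simp; ring
  have h1x0 : 0 < 1 - x := by rw [h1x]; positivity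
  have hx' : x * (Fintype.card W + 1) = 1 := by rw [hx]; field_simp
  have hNx : (1-x) * (Fintype.card W + 1) = Fintype.card W := by rw [h1x]; field_simp
  induction r with
  | zero =>
    intro T
    simp only [qT_zero, pow_zero, one_mul, sub_self, zero_mul, add_zero]
    apply le_of_eq
    congr 1
    ext a
    simp only [ex, cyl, Set.mem_ofPred_eq, Set.mem_inter_iff, ext_some]
    constructor
    · rintro ⟨b, h1, h2⟩; exact ⟨⟨b, h1⟩, h2⟩
    · rintro ⟨⟨b, h1⟩, h2⟩; exact ⟨b, h1, h2⟩
  | succ r ih =>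
    intro T
    rw [qT_succ r (fun S => g (ex S)), sum_lit_option, card_lit_option]
    have e1 : ∀ l : Lit W, cyl T ∪ solL (some l.1, l.2) = cyl (T ∪ solL l) := by
      intro l; rfl
    simp only [e1]
    have hub : ∀ T', qT r (fun S => g (ex S)) S T' ≤ g (ex S) := by
      intro T'
      rw [qT, div_le_iff₀ (by rw [card_lit_option]; positivity)]
      calc _ ≤ ∑ _C : Fin r → Lit (Option W), g (ex S) := by
            refine Finset.sum_le_sum fun C _ => hg _ _ ?_
            rintro a ⟨b, hb⟩
            exact ⟨b, hb.1⟩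
        _ = _ := by
            rw [Finset.sum_const, Finset.card_univ, nsmul_eq_mul, card_clause]; ring
    have s1 : ∑ l : Lit W, qT r (fun S => g (ex S)) S (cyl (T ∪ solL l))
        ≤ ∑ l : Lit W, ((1-x)^r * qT r g (ex S) (T ∪ solL l) + (1 - (1-x)^r) * g (ex S)) :=
      Finset.sum_le_sum fun l _ => ih (T ∪ solL l)
    rw [Finset.sum_add_distrib, ← Finset.mul_sum] at s1
    have c1 : ∑ l : Lit W, qT r g (ex S) (T ∪ solL l)
        = (2 * Fintype.card W) * qT (r+1) g (ex S) T := by
      rw [qT_succ, card_lit]; field_simp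
    have c3 : ∑ _l : Lit W, (1 - (1-x)^r) * g (ex S)
        = (2 * Fintype.card W) * ((1 - (1-x)^r) * g (ex S)) := by
      rw [Finset.sum_const, Finset.card_univ, nsmul_eq_mul, card_lit]
    rw [c1, c3] at s1
    have u1 := hub (cyl T ∪ solL (none, true))
    have u2 := hub (cyl T ∪ solL (none, false))
    rw [div_le_iff₀ (by positivity)]
    set q1 := qT (r+1) g (ex S) T with hq1
    set G := g (ex S) with hG
    set N : ℝ := (Fintype.card W : ℝ) with hNdef
    have goal_eq : ((1-x)^(r+1) * q1 + (1 - (1-x)^(r+1)) * G) * (2 * (N+1))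
        = (1-x)^r * (2 * N * q1) + 2 * N * ((1 - (1-x)^r) * G) + G + G := by
      have t1 : (1-x)^(r+1) * (2*(N+1)) = (1-x)^r * (2*N) := by
        rw [pow_succ]
        linear_combination 2 * (1-x)^r * hNx
      linear_combination (q1 - G) * t1
    rw [goal_eq]
    linarith

end ext

end P170
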