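import Mathlib

/-! Core definitions: random clauses act on sets of assignments by intersection. -/

namespace P170

open Finset

/-- literals -/
abbrev Lit (V : Type) := V × Bool
/-- assignments -/
abbrev Asg (V : Type) := V → Bool

section General

variable {A : Type*} {ι κ : Type*} [Fintype ι] [Fintype κ]

/-- averaging operator over a finite family of cuts -/
noncomputable def avgOp (T : ι → Set A) : Module.End ℝ (Set A → ℝ) where
  toFun g := fun S => (∑ i, g (S ∩ T i)) / Fintype.card ι
  map_add' g h := by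
    funext S
    simp [Finset.sum_add_distrib, add_div]
  map_smul' c g := by
    funext S
    simp [← Finset.mul_sum, mul_div_assoc]

lemma avgOp_apply (T : ι → Set A) (g : Set A → ℝ) (S : Set A) :
    avgOp T g S = (∑ i, g (S ∩ T i)) / Fintype.card ι := rfl

lemma avgOp_comm (T : ι → Set A) (T' : κ → Set A) : Commute (avgOp T) (avgOp T') := by
  ext g S
  simp only [Module.End.mul_apply, avgOp_apply, ← Finset.sum_div]
  rw [Finset.sum_comm]
  rw [div_div, div_div, mul_comm]
  congr 1
  refine Finset.sum_congr rfl fun i _ => Finset.sum_congr rfl fun j _ => ?_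
  congr 1
  ext a
  simp only [Set.mem_inter_iff]
  tauto

/-- pointwise order on state functions is preserved by positive operators -/
def Pos (L : Module.End ℝ (Set A → ℝ)) : Prop := ∀ g : Set A → ℝ, (∀ S, 0 ≤ g S) → ∀ S, 0 ≤ L g S

lemma Pos.mono {L : Module.End ℝ (Set A → ℝ)} (h : Pos L) {g g' : Set A → ℝ}
    (hg : ∀ S, g S ≤ g' S) (S : Set A) : L g S ≤ L g' S := by
  have := h (g' - g) (fun S => by simp [hg S]) S
  rw [map_sub] at this
  simpa using this

lemma avgOp_pos (T : ι → Set A) : Pos (avgOp T) := by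
  intro g hg S
  rw [avgOp_apply]
  exact div_nonneg (Finset.sum_nonneg (fun i _ => hg (S ∩ T i))) (by positivity)

lemma Pos.mul {L L' : Module.End ℝ (Set A → ℝ)} (h : Pos L) (h' : Pos L') : Pos (L * L') := by
  intro g hg S
  rw [Module.End.mul_apply]
  exact h _ (h' g hg) S

lemma Pos.one : Pos (1 : Module.End ℝ (Set A → ℝ)) := by
  intro g hg S
  simpa using hg S

lemma Pos.add {L L' : Module.End ℝ (Set A → ℝ)} (h : Pos L) (h' : Pos L') : Pos (L + L') := by
  intro g hg S
  have := add_nonneg (h g hg S) (h' g hg S)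
  simpa using this

lemma Pos.smul {L : Module.End ℝ (Set A → ℝ)} {c : ℝ} (hc : 0 ≤ c) (h : Pos L) : Pos (c • L) := by
  intro g hg S
  have := mul_nonneg hc (h g hg S)
  simpa using this

lemma Pos.pow {L : Module.End ℝ (Set A → ℝ)} (h : Pos L) (m : ℕ) : Pos (L ^ m) := by
  induction m with
  | zero => simpa using Pos.one
  | succ m ih => rw [pow_succ]; exact ih.mul h

lemma avgOp_const [Nonempty ι] (T : ι → Set A) (c : ℝ) : avgOp T (fun _ => c) = fun _ => c := by
  funext S
  rw [avgOp_apply]
  simp

/-- `Mark L`: positive and preserves constants -/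
def Mark (L : Module.End ℝ (Set A → ℝ)) : Prop := Pos L ∧ ∀ c : ℝ, L (fun _ => c) = fun _ => c

lemma avgOp_mark [Nonempty ι] (T : ι → Set A) : Mark (avgOp T) :=
  ⟨avgOp_pos T, avgOp_const T⟩

lemma Mark.mul {L L' : Module.End ℝ (Set A → ℝ)} (h : Mark L) (h' : Mark L') : Mark (L * L') :=
  ⟨h.1.mul h'.1, fun c => by rw [Module.End.mul_apply, h'.2, h.2]⟩

lemma Mark.one : Mark (1 : Module.End ℝ (Set A → ℝ)) := ⟨Pos.one, fun c => by simp⟩

lemma Mark.pow {L : Module.End ℝ (Set A → ℝ)} (h : Mark L) (m : ℕ) : Mark (L ^ m) := by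
  induction m with
  | zero => simpa using Mark.one
  | succ m ih => rw [pow_succ]; exact ih.mul h

lemma Mark.le_const {L : Module.End ℝ (Set A → ℝ)} (h : Mark L) {g : Set A → ℝ} {c : ℝ}
    (hg : ∀ S, g S ≤ c) (S : Set A) : L g S ≤ c := by
  have := h.1.mono (g := g) (g' := fun _ => c) hg S
  rwa [h.2] at this

/-- indicator of nonemptiness -/
noncomputable def ind (S : Set A) : ℝ := by
  classical exact if S.Nonempty then 1 else 0

lemma ind_of_nonempty {S : Set A} (h : S.Nonempty) : ind S = 1 := by simp [ind, h]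
lemma ind_of_empty {S : Set A} (h : ¬ S.Nonempty) : ind S = 0 := by simp [ind, h]

lemma ind_nonneg (S : Set A) : 0 ≤ ind S := by unfold ind; split <;> norm_num
lemma ind_le_one (S : Set A) : ind S ≤ 1 := by unfold ind; split <;> norm_num

lemma ind_mono {S S' : Set A} (h : S ⊆ S') : ind S ≤ ind S' := by
  by_cases hS : S.Nonempty
  · rw [ind_of_nonempty hS, ind_of_nonempty (hS.mono h)]
  · rw [ind_of_empty hS]; exact ind_nonneg _

/-- monotone state functions -/
def MonoF (g : Set A → ℝ) : Prop := ∀ S S' : Set A, S ⊆ S' → g S ≤ g S'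

lemma MonoF.avg {g : Set A → ℝ} (h : MonoF g) (T : ι → Set A) : MonoF (avgOp T g) := by
  intro S S' hSS
  rw [avgOp_apply, avgOp_apply]
  gcongr with i _
  exact h _ _ (Set.inter_subset_inter_left _ hSS)

lemma avg_le_self {g : Set A → ℝ} (h : MonoF g) [Nonempty ι] (T : ι → Set A) (S : Set A) :
    avgOp T g S ≤ g S := by
  rw [avgOp_apply, div_le_iff₀ (by exact_mod_cast Fintype.card_pos)]
  calc ∑ i, g (S ∩ T i) ≤ ∑ _i : ι, g S :=
        Finset.sum_le_sum fun i _ => h _ _ Set.inter_subset_left
    _ = g S * Fintype.card ι := by simp [mul_comm]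

end General

section Clauses

variable {V : Type} [Fintype V] [DecidableEq V]

/-- solutions of a clause with `r` literals -/
def sol {r : ℕ} (C : Fin r → Lit V) : Set (Asg V) := {a | ∃ i, a (C i).1 = (C i).2}

/-- one random clause with `r` i.i.d. literals -/
noncomputable def Q (V : Type) [Fintype V] [DecidableEq V] (r : ℕ) :
    Module.End ℝ (Set (Asg V) → ℝ) :=
  avgOp (fun C : Fin r → Lit V => sol C)

lemma Q_apply (r : ℕ) (g : Set (Asg V) → ℝ) (S : Set (Asg V)) :
    Q V r g S = (∑ C : Fin r → Lit V, g (S ∩ sol C)) / Fintype.card (Fin r → Lit V) := rfl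

/-- set of literals which kill `S` -/
noncomputable def Zs (S : Set (Asg V)) : Finset (Lit V) := by
  classical exact univ.filter (fun l => ∀ a ∈ S, a l.1 ≠ l.2)

lemma mem_Zs {S : Set (Asg V)} {l : Lit V} : l ∈ Zs S ↔ ∀ a ∈ S, a l.1 ≠ l.2 := by
  simp [Zs]

/-- fraction of killing literals, zero if `S` is empty -/
noncomputable def z (S : Set (Asg V)) : ℝ :=
  ind S * ((Zs S).card / Fintype.card (Lit V))

lemma z_nonneg (S : Set (Asg V)) : 0 ≤ z S := by
  unfold z; exact mul_nonneg (ind_nonneg _) (by positivity)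

lemma z_le_ind (S : Set (Asg V)) : z S ≤ ind S := by
  unfold z
  apply mul_le_of_le_one_right (ind_nonneg _)
  apply div_le_one_of_le₀ _ (by positivity)
  exact_mod_cast Finset.card_le_univ _

lemma z_le_one (S : Set (Asg V)) : z S ≤ 1 := (z_le_ind S).trans (ind_le_one S)

lemma inter_sol_nonempty_iff {r : ℕ} {S : Set (Asg V)} {C : Fin r → Lit V} :
    (S ∩ sol C).Nonempty ↔ ∃ i, C i ∉ Zs S := by
  constructor
  · rintro ⟨a, haS, i, hi⟩
    exact ⟨i, fun h => (mem_Zs.1 h) a haS hi⟩
  · rintro ⟨i, hi⟩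
    rw [mem_Zs] at hi
    push Not at hi
    obtain ⟨a, haS, ha⟩ := hi
    exact ⟨a, haS, i, ha⟩

omit [DecidableEq V] in
lemma card_clause (r : ℕ) : (Fintype.card (Fin r → Lit V) : ℝ) = (Fintype.card (Lit V) : ℝ) ^ r := by
  rw [Fintype.card_fun]; simp

/-- the key killing identity -/
lemma kill (r : ℕ) (hr : r ≠ 0) [Nonempty V] (S : Set (Asg V)) :
    ind S - Q V r ind S = z S ^ r := by
  classical
  by_cases hS : S.Nonempty
  · have hcard : (0 : ℝ) < Fintype.card (Lit V) := by exact_mod_cast Fintype.card_pos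
    have h1 : ∀ C : Fin r → Lit V,
        ind (S ∩ sol C) = 1 - (if C ∈ Fintype.piFinset (fun _ : Fin r => Zs S) then 1 else 0) := by
      intro C
      by_cases h : (S ∩ sol C).Nonempty
      · rw [ind_of_nonempty h, if_neg]
        · ring
        · rw [inter_sol_nonempty_iff] at h
          obtain ⟨i, hi⟩ := h
          rw [Fintype.mem_piFinset]
          intro hh; exact hi (hh i)
      · rw [ind_of_empty h, if_pos]
        · ring
        · rw [inter_sol_nonempty_iff] at h
          push Not at h
          rw [Fintype.mem_piFinset]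
          exact h
    have h2 : ∑ C : Fin r → Lit V, ind (S ∩ sol C)
        = (Fintype.card (Lit V) : ℝ) ^ r - ((Zs S).card : ℝ) ^ r := by
      rw [Finset.sum_congr rfl (fun C _ => h1 C), Finset.sum_sub_distrib]
      congr 1
      · simp
      · rw [Finset.sum_ite_mem, Finset.univ_inter, Finset.sum_const, Fintype.card_piFinset_const]
        simp
    rw [Q_apply, h2, card_clause, ind_of_nonempty hS, z, ind_of_nonempty hS, one_mul, div_pow,
      sub_div, div_self (by positivity)]
    ring
  · have h0 : ∀ C : Fin r → Lit V, ind (S ∩ sol C) = 0 := fun C =>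
      ind_of_empty (fun h => hS h.left)
    rw [Q_apply, Finset.sum_congr rfl (fun C _ => h0 C), ind_of_empty hS, z, ind_of_empty hS]
    simp [hr]

lemma Q_mark [Nonempty V] (r : ℕ) : Mark (Q V r) := avgOp_mark _

lemma Q_comm (r s : ℕ) : Commute (Q V r) (Q V s) := avgOp_comm _ _

end Clauses

end P170
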