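import Vale.Agent.P170.Core

/-! Numbers attached to the random formula. -/

namespace P170

open Finset

/-- satisfiability probability of `m` random `k`-clauses (i.i.d. literals) on the variable set `V` -/
noncomputable def pV (V : Type) [Fintype V] [DecidableEq V] (k m : ℕ) : ℝ :=
  (Q V k ^ m) ind Set.univ

/-- expected fraction of killing literals (zero when unsatisfiable) of `m` random `k`-clauses -/
noncomputable def zV (V : Type) [Fintype V] [DecidableEq V] (k m : ℕ) : ℝ :=
  (Q V k ^ m) z Set.univ

/-- satisfiability probability on `n` variables -/
noncomputable def p (k n m : ℕ) : ℝ := pV (Fin n) k m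

/-- truncated mean of the hitting time of unsatisfiability -/
noncomputable def mean (k n M : ℕ) : ℝ := ∑ m ∈ range M, p k n m

/-- truncated variance of the hitting time -/
noncomputable def vari (k n M : ℕ) : ℝ :=
  ∑ m ∈ range M, (2 * (m:ℝ) + 1) * p k n m - (mean k n M) ^ 2

end P170
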