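import Vale.Agent.P170.Defs2

set_option linter.unusedSectionVars false

namespace P170

open Finset

theorem Qpow_apply (V : Type) [Fintype V] [DecidableEq V] (k m : ℕ) (g : Set (Asg V) → ℝ)
    (S : Set (Asg V)) : (Q V k ^ m) g S =
      (∑ F : Fin m → (Fin k → Lit V), g (S ∩ ⋂ i, sol (F i))) /
        (Fintype.card (Fin k → Lit V) : ℝ) ^ m := by
  induction m generalizing S with
  | zero => simp
  | succ m ih =>
    rw [pow_succ', Module.End.mul_apply]
    change (∑ C : Fin k → Lit V, ((Q V k ^ m) g) (S ∩ sol C)) / (Fintype.card (Fin k → Lit V) : ℝ) = _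
    simp_rw [ih]
    rw [← Finset.sum_div, div_div, pow_succ]
    congr 1
    rw [← (Fin.consEquiv (fun _ : Fin (m+1) => (Fin k → Lit V))).sum_comp, Fintype.sum_prod_type]
    refine Finset.sum_congr rfl fun C _ => Finset.sum_congr rfl fun F _ => ?_
    congr 1
    ext a
    simp only [Set.mem_inter_iff, Set.mem_iInter, Fin.consEquiv_apply, Fin.forall_fin_succ,
      Fin.cons_zero, Fin.cons_succ]
    tauto

theorem p_eq_count (k n m : ℕ) (hn : 1 ≤ n) : p k n m =
    (Nat.card {F : Fin m → Fin k → Fin n × Bool //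
      ∃ a : Fin n → Bool, ∀ i, ∃ l, a (F i l).1 = (F i l).2} : ℝ) / ((2*n : ℝ)^k)^m := by
  classical
  unfold p pV
  rw [Qpow_apply]
  congr 1
  · rw [Nat.card_eq_fintype_card, Fintype.card_subtype, Finset.card_filter]
    push_cast
    refine Finset.sum_congr rfl fun F _ => ?_
    unfold ind
    have : (Set.univ ∩ ⋂ i, sol (F i)).Nonempty ↔
        ∃ a : Fin n → Bool, ∀ i, ∃ l, a (F i l).1 = (F i l).2 := by
      simp only [Set.univ_inter, Set.Nonempty, Set.mem_iInter, sol, Set.mem_ofPred_eq]
    by_cases h : (Set.univ ∩ ⋂ i, sol (F i)).Nonempty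
    · rw [if_pos h, if_pos (this.1 h)]
    · rw [if_neg h, if_neg (fun h' => h (this.2 h'))]
  · rw [Fintype.card_fun, Fintype.card_prod, Fintype.card_bool, Fintype.card_fin, Fintype.card_fin]
    push_cast
    ring

end P170
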