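import Vale.Agent.P170.CavSum

/-! The recursion on the number of variables: bounded total frozen mass, regularity, positivity. -/

set_option linter.unusedSectionVars false

namespace P170

open Finset

section transport
variable {V W : Type} [Fintype V] [DecidableEq V] [Fintype W] [DecidableEq W]
  [Nonempty V] [Nonempty W]

lemma z_image (R : Relab V W) (S : Set (Asg V)) : z (R.sig '' S) = z S := by
  have h1 := kill 1 one_ne_zero S
  have h2 := kill 1 one_ne_zero (R.sig '' S)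
  have h3 := Q_transport R 1 ind S
  have hf : (fun S => ind (R.sig '' S)) = (ind : Set (Asg V) → ℝ) := by
    funext S
    exact ind_image _ S
  rw [hf] at h3
  rw [pow_one] at h1 h2
  rw [← h1, ← h2, ind_image, h3]

lemma zj_congr (e : V ≃ W) (k m j : ℕ) : zj V k m j = zj W k m j := by
  unfold zj
  have h := QQ_transport (Relab.ofEquiv e) k (k-1) m j z Set.univ
  rw [Set.image_univ, (Relab.ofEquiv e).sig.range_eq_univ] at h
  rw [← h]
  have hf : (z : Set (Asg V) → ℝ) = fun S => z ((Relab.ofEquiv e).sig '' S) := by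
    funext S
    exact (z_image _ S).symm
  rw [← hf]

lemma pj_congr (e : V ≃ W) (k m j : ℕ) : pj V k m j = pj W k m j := by
  unfold pj
  have h := QQ_transport (Relab.ofEquiv e) k (k-1) m j ind Set.univ
  rw [Set.image_univ, (Relab.ofEquiv e).sig.range_eq_univ] at h
  rw [← h]
  have hf : (ind : Set (Asg V) → ℝ) = fun S => ind ((Relab.ofEquiv e).sig '' S) := by
    funext S
    exact (ind_image _ S).symm
  rw [← hf]

end transport

section num
variable {W : Type} [Fintype W] [DecidableEq W] [Nonempty W]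

lemma uw_inv (k : ℕ) : 1 / uw W k ≤ 2^k := by
  have h1 := xw_le (W := W)
  unfold uw
  rw [div_le_iff₀ (by have : 0 < 1 - xw W := by linarith
                      positivity), ← mul_pow]
  exact one_le_pow₀ (by linarith)

lemma aw_le (k : ℕ) : aw W k ≤ k * xw W / 2 := by
  unfold aw
  have h1 := xw_le (W := W)
  have h0 := xw_pos (W := W)
  have h2 : (1 - xw W)^(k-1) ≤ 1 := pow_le_one₀ (by linarith) (by linarith)
  have h3 : 0 ≤ (k:ℝ) * (xw W / 2) := by positivity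
  calc (k:ℝ) * (xw W / 2) * (1 - xw W)^(k-1) ≤ k * (xw W / 2) * 1 :=
        mul_le_mul_of_nonneg_left h2 h3
    _ = _ := by ring

lemma cav_coef (k : ℕ) (hk : 2 ≤ k) (M : ℕ) (L : ℝ) (hL : (M:ℝ) * xw W ≤ L) (β : ℝ)
    (hβ0 : 0 ≤ β) (j : ℕ) :
    (M / uw W k) * (aw W k * ((1 + aw W k)^M * β * 2^j) + ew W k * M)
      ≤ (2^k * (k*L/2) * Real.exp (k*L/2)) * β * 2^j + 2^k * k^2 * L^2 := by
  have hx := xw_pos (W := W)
  have hu := uw_inv (W := W) k
  have hup := uw_pos (W := W) k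
  have ha0 := aw_nonneg (W := W) k
  have ha := aw_le (W := W) k
  have he0 := ew_nonneg (W := W) k (by omega)
  have he := ew_le (W := W) k (by omega)
  have hM : (0:ℝ) ≤ M := Nat.cast_nonneg M
  have hL0 : 0 ≤ L := le_trans (by positivity) hL
  have hMa : M * aw W k ≤ k * L / 2 := by
    have h1 : (M:ℝ) * aw W k ≤ M * (k * xw W / 2) := mul_le_mul_of_nonneg_left ha hM
    have h2 : (k:ℝ) * (M * xw W) ≤ k * L := mul_le_mul_of_nonneg_left hL (Nat.cast_nonneg k)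
    linarith
  have hexp : (1 + aw W k)^M ≤ Real.exp (k*L/2) := by
    calc (1 + aw W k)^M ≤ (Real.exp (aw W k))^M := by
          apply pow_le_pow_left₀ (by linarith)
          linarith [Real.add_one_le_exp (aw W k)]
      _ = Real.exp (M * aw W k) := by rw [← Real.exp_nat_mul]
      _ ≤ _ := Real.exp_le_exp.2 hMa
  have hE0 : 0 ≤ (1 + aw W k)^M := by positivity
  have h1 : (M / uw W k) * (aw W k * ((1 + aw W k)^M * β * 2^j))
      ≤ (2^k * (k*L/2) * Real.exp (k*L/2)) * β * 2^j := by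
    have e1 : (M / uw W k) * (aw W k * ((1 + aw W k)^M * β * 2^j))
        = ((1 / uw W k) * (M * aw W k) * (1 + aw W k)^M) * β * 2^j := by ring
    rw [e1]
    gcongr
  have h2 : (M / uw W k) * (ew W k * M) ≤ 2^k * k^2 * L^2 := by
    have e1 : (M / uw W k) * (ew W k * M) = (1 / uw W k) * (ew W k * M^2) := by ring
    have e2 : ew W k * M^2 ≤ k^2 * L^2 := by
      calc ew W k * M^2 ≤ (k^2 * xw W ^2) * M^2 := by gcongr
        _ = k^2 * (M * xw W)^2 := by ring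
        _ ≤ k^2 * L^2 := by gcongr
    rw [e1]
    calc (1 / uw W k) * (ew W k * M^2) ≤ 2^k * (k^2 * L^2) := by gcongr
      _ = _ := by ring
  rw [mul_add]
  linarith

lemma first_coef (k : ℕ) (hk : 2 ≤ k) (M : ℕ) (L : ℝ) (hL : (M:ℝ) * xw W ≤ L) (j : ℕ) :
    M * (1 - uw W (k-1) ^ j) ≤ k * L * 2^j := by
  have hx := xw_pos (W := W)
  have hx1 := xw_le (W := W)
  have hM : (0:ℝ) ≤ M := Nat.cast_nonneg M
  have hL0 : 0 ≤ L := le_trans (by positivity) hL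
  have h1 : 1 - uw W (k-1) ^ j ≤ k * j * xw W := by
    unfold uw
    rw [← pow_mul]
    have hb : 1 + (((k-1)*j : ℕ):ℝ) * (- xw W) ≤ (1 + (- xw W))^((k-1)*j) :=
      one_add_mul_le_pow (by linarith) _
    have e : (1 + (- xw W)) = 1 - xw W := by ring
    rw [e] at hb
    have h2 : (((k-1)*j : ℕ):ℝ) ≤ k * j := by
      rw [Nat.cast_mul]
      gcongr
      omega
    have h3 : (((k-1)*j : ℕ):ℝ) * xw W ≤ k * j * xw W := mul_le_mul_of_nonneg_right h2 hx.le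
    linarith
  have h4 : (j:ℝ) ≤ 2^j := by exact_mod_cast (Nat.lt_two_pow_self (n := j)).le
  calc M * (1 - uw W (k-1) ^ j) ≤ M * (k * j * xw W) := mul_le_mul_of_nonneg_left h1 hM
    _ = k * (M * xw W) * j := by ring
    _ ≤ k * L * 2^j := by gcongr

end num

lemma card_opt (n : ℕ) : Fintype.card (Option (Fin n)) = n + 1 := by simp

/-- one step of the recursion -/
lemma zstep (k : ℕ) (hk : 2 ≤ k) (n : ℕ) (hn : 1 ≤ n) (M : ℕ) (L : ℝ)
    (hL : (M:ℝ) ≤ L * (n+1)) (β : ℝ) (hβ0 : 0 ≤ β)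
    (hβ : ∀ j, ∑ t ∈ range M, (pj (Fin n) k t j - pj (Fin n) k t (j+1)) ≤ β * 2^j) (j : ℕ) :
    ∑ m ∈ range M, zj (Fin (n+1)) k m j ≤ k * L * 2^j +
      ((2^k * (k*L/2) * Real.exp (k*L/2)) * β * 2^j + 2^k * k^2 * L^2) := by
  have : NeZero n := ⟨by omega⟩
  have hL' : (M:ℝ) * xw (Fin n) ≤ L := by
    unfold xw
    rw [Fintype.card_fin, mul_one_div, div_le_iff₀ (by positivity)]
    exact hL
  have h := cav_sum (W := Fin n) k hk M β hβ0 hβ j
  have e : ∀ m, zj (Option (Fin n)) k m j = zj (Fin (n+1)) k m j := fun m =>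
    zj_congr (Fintype.equivFinOfCardEq (card_opt n)) k m j
  rw [Finset.sum_congr rfl (fun m _ => e m)] at h
  have h1 := cav_coef (W := Fin n) k hk M L hL' β hβ0 j
  have h2 := first_coef (W := Fin n) k hk M L hL' j
  linarith

/-- bound of the loss by (k-1)-clauses with horizon `H (n+1)` -/
lemma beta_bound (k : ℕ) (hk : 3 ≤ k) (n : ℕ) (hn : 1 ≤ n) (Θ : ℝ)
    (h : ∀ j, ∑ t ∈ range (2^k*n), zj (Fin n) k t j ≤ Θ * 2^j) (δ : ℝ) (hδ : 0 < δ) (j : ℕ) :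
    ∑ t ∈ range (2^k*(n+1)), (pj (Fin n) k t j - pj (Fin n) k t (j+1))
      ≤ (δ * (Θ + 2^k) + 1/δ) * 2^j := by
  have : NeZero n := ⟨by omega⟩
  have h1 := sum_y_le (V := Fin n) k hk δ hδ (2^k*(n+1)) j
  have h2 : ∑ t ∈ range (2^k*(n+1)), zj (Fin n) k t j ≤ Θ * 2^j + 2^k := by
    have e : 2^k*(n+1) = 2^k*n + 2^k := by ring
    rw [e, Finset.sum_range_add]
    have h3 : ∑ x ∈ range (2^k), zj (Fin n) k (2^k*n + x) j ≤ ∑ x ∈ range (2^k), (1:ℝ) :=
      Finset.sum_le_sum fun x _ => zj_le_one k _ j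
    have h4 : ∑ x ∈ range (2^k), (1:ℝ) = 2^k := by simp
    rw [h4] at h3
    exact add_le_add (h j) h3
  have h5 : (1:ℝ) ≤ 2^j := one_le_pow₀ (by norm_num)
  have h6 : Θ * 2^j + 2^k ≤ (Θ + 2^k) * 2^j := by
    have : (2:ℝ)^k * 1 ≤ 2^k * 2^j := mul_le_mul_of_nonneg_left h5 (by positivity)
    linarith
  have h7 : δ * ∑ t ∈ range (2^k*(n+1)), zj (Fin n) k t j ≤ δ * ((Θ + 2^k) * 2^j) :=
    mul_le_mul_of_nonneg_left (h2.trans h6) hδ.le
  have h8 : 1/δ * 1 ≤ 1/δ * 2^j := mul_le_mul_of_nonneg_left h5 (by positivity)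
  linarith

theorem frozen_all (k : ℕ) (hk : 3 ≤ k) : ∃ Θ : ℝ, 0 ≤ Θ ∧ ∀ n : ℕ, 1 ≤ n → ∀ j,
    ∑ t ∈ range (2^k * n), zj (Fin n) k t j ≤ Θ * 2^j := by
  obtain ⟨C₂, hC₂⟩ : ∃ C : ℝ, C = 2^k * (k*2^k/2) * Real.exp (k*2^k/2) := ⟨_, rfl⟩
  obtain ⟨C₃, hC₃⟩ : ∃ C : ℝ, C = 2^k * k^2 * (2^k)^2 := ⟨_, rfl⟩
  have hk0 : (0:ℝ) < k := by exact_mod_cast (by omega : 0 < k)
  have hC₂0 : 0 < C₂ := by rw [hC₂]; positivity
  have hC₃0 : 0 < C₃ := by rw [hC₃]; positivity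
  obtain ⟨Θ, hΘ⟩ : ∃ Θ : ℝ, Θ = 2*(k*2^k) + 2^k + 4*C₂^2 + 2*C₃ := ⟨_, rfl⟩
  have hΘ0 : 0 ≤ Θ := by rw [hΘ]; positivity
  refine ⟨Θ, hΘ0, ?_⟩
  intro n hn
  induction n, hn using Nat.le_induction with
  | base =>
    intro j
    have h5 : (1:ℝ) ≤ 2^j := one_le_pow₀ (by norm_num)
    have h1 : ∑ t ∈ range (2^k*1), zj (Fin 1) k t j ≤ ∑ t ∈ range (2^k*1), (1:ℝ) :=
      Finset.sum_le_sum fun x _ => zj_le_one k _ j
    have h4 : ∑ x ∈ range (2^k*1), (1:ℝ) = 2^k := by simp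
    have h6 : (2:ℝ)^k ≤ Θ := by
      rw [hΘ]
      have : 0 ≤ 2*((k:ℝ)*2^k) + 4*C₂^2 + 2*C₃ := by positivity
      linarith
    calc _ ≤ (2:ℝ)^k := h1.trans h4.le
      _ ≤ Θ := h6
      _ = Θ * 1 := (mul_one _).symm
      _ ≤ Θ * 2^j := mul_le_mul_of_nonneg_left h5 hΘ0
  | succ n hn ih =>
    intro j
    have h5 : (1:ℝ) ≤ 2^j := one_le_pow₀ (by norm_num)
    have hδ : 0 < 1/(2*C₂) := by positivity
    have hβ := beta_bound k hk n hn Θ ih (1/(2*C₂)) hδ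
    have h := zstep k (by omega) n hn (2^k*(n+1)) (2^k) (by push_cast; exact le_rfl)
      (1/(2*C₂) * (Θ + 2^k) + 1/(1/(2*C₂))) (by positivity) hβ j
    rw [← hC₂, ← hC₃] at h
    have e : C₂ * (1/(2*C₂) * (Θ + 2^k) + 1/(1/(2*C₂))) = (Θ + 2^k)/2 + 2*C₂^2 := by
      field_simp
    have h6 : C₃ * 1 ≤ C₃ * 2^j := mul_le_mul_of_nonneg_left h5 hC₃0.le
    calc _ ≤ _ := h
      _ = k * 2^k * 2^j + ((C₂ * (1/(2*C₂) * (Θ + 2^k) + 1/(1/(2*C₂)))) * 2^j + C₃) := by ring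
      _ = k * 2^k * 2^j + (((Θ + 2^k)/2 + 2*C₂^2) * 2^j + C₃) := by rw [e]
      _ ≤ k * 2^k * 2^j + (((Θ + 2^k)/2 + 2*C₂^2) * 2^j + C₃ * 2^j) := by linarith
      _ = (k * 2^k + (Θ + 2^k)/2 + 2*C₂^2 + C₃) * 2^j := by ring
      _ = Θ * 2^j := by
        congr 1
        rw [hΘ]; ring

lemma zj_zero (V : Type) [Fintype V] [DecidableEq V] (k t : ℕ) : zj V k t 0 = zV V k t := by
  unfold zj zV
  rw [pow_zero, mul_one]

lemma pj_zero (V : Type) [Fintype V] [DecidableEq V] (k t : ℕ) : pj V k t 0 = pV V k t := by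
  unfold pj pV
  rw [pow_zero, mul_one]

theorem frozen_bound (k : ℕ) (hk : 3 ≤ k) : ∃ Θ : ℝ, 0 ≤ Θ ∧ ∀ n : ℕ, 1 ≤ n →
    ∑ t ∈ range (2^k * n), zV (Fin n) k t ≤ Θ := by
  obtain ⟨Θ, h0, h⟩ := frozen_all k hk
  refine ⟨Θ, h0, fun n hn => ?_⟩
  have := h n hn 0
  rw [pow_zero, mul_one] at this
  simpa only [zj_zero] using this

theorem regularity (k : ℕ) (hk : 3 ≤ k) : ∃ C : ℝ, 0 ≤ C ∧ ∀ n : ℕ, 1 ≤ n →
    mean k n (2^k * n) - C ≤ mean k (n+1) (2^k * (n+1)) := by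
  obtain ⟨Θ, h0, h⟩ := frozen_all k hk
  refine ⟨(2^k * (k*2^k/2) * Real.exp (k*2^k/2)) * (1 * (Θ + 2^k) + 1/1) * 2^0
    + 2^k * k^2 * (2^k)^2, by positivity, fun n hn => ?_⟩
  have : NeZero n := ⟨by omega⟩
  have hβ := beta_bound k hk n hn Θ (h n hn) 1 one_pos
  have h1 := cav_reg (W := Fin n) k (by omega) (2^k*(n+1)) (1 * (Θ + 2^k) + 1/1)
    (by positivity) hβ
  have hL : (((2^k*(n+1) : ℕ)):ℝ) * xw (Fin n) ≤ 2^k := by
    unfold xw
    rw [Fintype.card_fin, mul_one_div, div_le_iff₀ (by positivity)]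
    push_cast
    exact le_rfl
  have h2 := cav_coef (W := Fin n) k (by omega) (2^k*(n+1)) (2^k) hL (1 * (Θ + 2^k) + 1/1)
    (by positivity) 0
  have h3 := h1.trans h2
  have e1 : ∀ m, pV (Option (Fin n)) k m = p k (n+1) m := by
    intro m
    rw [pV_eq_p, card_opt]
  rw [Finset.sum_sub_distrib, Finset.sum_congr rfl (fun m _ => e1 m)] at h3
  have h4 : mean k n (2^k*n) ≤ ∑ m ∈ range (2^k*(n+1)), pV (Fin n) k m := by
    unfold mean p
    apply Finset.sum_le_sum_of_subset_of_nonneg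
    · exact Finset.range_mono (Nat.mul_le_mul_left _ (by omega))
    · intro i _ _
      exact p_nonneg k n i
  unfold mean at h4 ⊢
  linarith

/-- killing mass on a short horizon -/
lemma short (k : ℕ) (hk : 3 ≤ k) (M : ℕ) (hM : 1 ≤ M) (i : ℕ) : ∀ j,
    ∑ t ∈ range M, zj (Fin (8*k*2^k*M + i)) k t j ≤ (M * (1/2)^i + 1/4) * 2^j := by
  induction i with
  | zero =>
    intro j
    have h5 : (1:ℝ) ≤ 2^j := one_le_pow₀ (by norm_num)
    have hpos : 1 ≤ 8*k*2^k*M + 0 := by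
      have : 0 < 8*k*2^k*M := by positivity
      omega
    have : NeZero (8*k*2^k*M + 0) := ⟨by omega⟩
    have h1 : ∑ t ∈ range M, zj (Fin (8*k*2^k*M + 0)) k t j ≤ ∑ t ∈ range M, (1:ℝ) :=
      Finset.sum_le_sum fun x _ => zj_le_one k _ j
    have h4 : ∑ x ∈ range M, (1:ℝ) = M := by simp
    rw [h4] at h1
    have hM0 : (0:ℝ) ≤ M := Nat.cast_nonneg M
    calc _ ≤ (M:ℝ) := h1
      _ ≤ (M * (1/2)^0 + 1/4) * 1 := by norm_num
      _ ≤ _ := mul_le_mul_of_nonneg_left h5 (by positivity)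
  | succ i ih =>
    intro j
    have h5 : (1:ℝ) ≤ 2^j := one_le_pow₀ (by norm_num)
    set n := 8*k*2^k*M + i with hn
    have hk0 : (0:ℝ) < k := by exact_mod_cast (by omega : 0 < k)
    have hpos : 1 ≤ n := by
      have : 0 < 8*k*2^k*M := by positivity
      omega
    have : NeZero n := ⟨by omega⟩
    have hβ : ∀ j, ∑ t ∈ range M, (pj (Fin n) k t j - pj (Fin n) k t (j+1))
        ≤ (M * (1/2)^i + 1/4) * 2^j := by
      intro j
      refine le_trans (Finset.sum_le_sum fun t _ => ?_) (ih j)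
      rw [pj_sub_j k t j (by omega)]
      unfold zj
      refine ((((avgOp_pos _).pow t).mul ((avgOp_pos _).pow j))).mono (fun S => ?_) _
      have : z S ^ (k-1) ≤ z S ^ 1 := pow_le_pow_of_le_one (z_nonneg S) (z_le_one S) (by omega)
      simpa using this
    have hH : (8:ℝ) ≤ 2^k := by
      calc (8:ℝ) = 2^3 := by norm_num
        _ ≤ 2^k := pow_le_pow_right₀ (by norm_num) hk
    have hL : (M:ℝ) ≤ (1/(8*k*2^k)) * (n+1) := by
      rw [one_div, ← div_eq_inv_mul, le_div_iff₀ (by positivity)]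
      have : M * (8*k*2^k) ≤ n + 1 := by
        rw [hn]
        nlinarith
      exact_mod_cast this
    have h := zstep k (by omega) n hpos M (1/(8*k*2^k)) hL (M * (1/2)^i + 1/4)
      (by positivity) hβ j
    have e1 : (k:ℝ) * (1/(8*k*2^k)) = 1/(8*2^k) := by field_simp
    have e1' : (1:ℝ)/(8*2^k) ≤ 1/64 := by
      apply one_div_le_one_div_of_le (by norm_num); linarith
    have e2 : (2:ℝ)^k * (1/(8*2^k)/2) = 1/16 := by field_simp; norm_num
    have e3 : Real.exp (1/(8*2^k)/2) ≤ 2 := by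
      have h1 : Real.exp (1/(8*2^k)/2) ≤ Real.exp (1/2) := by
        apply Real.exp_le_exp.2; linarith
      have h2 : Real.exp (1/2) ≤ 2 := by
        have := Real.exp_one_lt_d9
        have h3 : Real.exp (1/2) ^ 2 = Real.exp 1 := by
          rw [← Real.exp_nat_mul]; norm_num
        nlinarith [Real.exp_pos (1/2)]
      linarith
    have e4 : (2:ℝ)^k * k^2 * (1/(8*k*2^k))^2 = 1/(64*2^k) := by field_simp; norm_num
    have e4' : (1:ℝ)/(64*2^k) ≤ 1/64 := by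
      apply one_div_le_one_div_of_le (by norm_num); linarith
    rw [e1, e4, e2] at h
    have hB0 : 0 ≤ ((M:ℝ) * (1/2)^i + 1/4) * 2^j := by positivity
    have h6 : 1/16 * Real.exp (1/(8*2^k)/2) * (M * (1/2)^i + 1/4) * 2^j
        ≤ 1/8 * ((M * (1/2)^i + 1/4) * 2^j) := by
      have : 1/16 * Real.exp (1/(8*2^k)/2) ≤ 1/8 := by linarith
      calc _ = 1/16 * Real.exp (1/(8*2^k)/2) * ((M * (1/2)^i + 1/4) * 2^j) := by ring
        _ ≤ _ := mul_le_mul_of_nonneg_right this hB0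
    have h7 : (1:ℝ)/(8*2^k) * 2^j ≤ 1/64 * 2^j := mul_le_mul_of_nonneg_right e1' (by positivity)
    have h8 : (1:ℝ)/(64*2^k) ≤ 1/64 * 2^j := by nlinarith
    have h9 : 0 ≤ (M:ℝ) * (1/2)^i * 2^j := by positivity
    have e5 : (8*k*2^k*M + (i+1)) = n + 1 := by rw [hn]; ring
    rw [e5]
    refine h.trans ?_
    have h10 : 1/64 * 2^j + (1/8 * (((M:ℝ) * (1/2)^i + 1/4) * 2^j) + 1/64 * 2^j)
        ≤ ((M:ℝ) * (1/2)^(i+1) + 1/4) * 2^j := by
      have e6 : ((M:ℝ) * (1/2)^(i+1) + 1/4) * 2^j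
          = 1/2 * ((M:ℝ) * (1/2)^i * 2^j) + 1/4 * 2^j := by
        rw [pow_succ (1/2 : ℝ)]; ring
      have e7 : 1/64 * 2^j + (1/8 * (((M:ℝ) * (1/2)^i + 1/4) * 2^j) + 1/64 * 2^j)
          = 1/8 * ((M:ℝ) * (1/2)^i * 2^j) + 1/16 * 2^j := by ring
      have h11 : (0:ℝ) < 2^j := by positivity
      rw [e6, e7]
      linarith
    linarith

theorem positivity_sub (k : ℕ) (hk : 3 ≤ k) : ∃ c : ℝ, 0 < c ∧ ∀ n₀ : ℕ, ∃ n : ℕ, n₀ ≤ n ∧ 1 ≤ n ∧
    c * n ≤ mean k n (2^k * n) := by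
  have hk0 : (0:ℝ) < k := by exact_mod_cast (by omega : 0 < k)
  refine ⟨1/(4*(8*k*2^k)), by positivity, fun n₀ => ?_⟩
  obtain ⟨M, hM⟩ : ∃ M : ℕ, M = n₀ + 1 := ⟨_, rfl⟩
  obtain ⟨D, hD⟩ : ∃ D : ℕ, D = 8*k*2^k := ⟨_, rfl⟩
  have hD1 : 8 ≤ D := by
    rw [hD]
    have h1 : 1 ≤ 2^k := Nat.one_le_two_pow
    calc 8 = 8*1*1 := by norm_num
      _ ≤ 8*k*2^k := Nat.mul_le_mul (Nat.mul_le_mul_left _ (by omega)) h1
  have hDM : 8*M ≤ D*M := Nat.mul_le_mul_right _ hD1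
  obtain ⟨n, hn⟩ : ∃ n : ℕ, n = D*M + D*M := ⟨_, rfl⟩
  have hn1 : 1 ≤ n := by omega
  refine ⟨n, by omega, hn1, ?_⟩
  have : NeZero n := ⟨by omega⟩
  have h := short k hk M (by omega) (D*M) 0
  have en : 8*k*2^k*M + D*M = n := by rw [hn, hD]
  rw [en, pow_zero, mul_one] at h
  -- probability of being unsatisfiable
  have h1 : 1 - p k n M ≤ ∑ t ∈ range M, zj (Fin n) k t 0 := by
    have e : 1 - p k n M = ∑ t ∈ range M, (p k n t - p k n (t+1)) := by
      rw [Finset.sum_range_sub' (fun t => p k n t), p_zero]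
    rw [e]
    refine Finset.sum_le_sum fun t _ => ?_
    have h2 := pj_sub_m (V := Fin n) k t 0 (by omega)
    rw [pj_zero, pj_zero] at h2
    have h3 : p k n t - p k n (t+1) = pV (Fin n) k t - pV (Fin n) k (t+1) := rfl
    rw [h3, h2]
    unfold zj
    refine ((((avgOp_pos _).pow t).mul ((avgOp_pos _).pow 0))).mono (fun S => ?_) _
    have : z S ^ k ≤ z S ^ 1 := pow_le_pow_of_le_one (z_nonneg S) (z_le_one S) (by omega)
    simpa using this
  have h2 : (M:ℝ) * (1/2)^(D*M) ≤ 1/4 := by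
    have h3 : (M:ℝ) ≤ 2^M := by exact_mod_cast (Nat.lt_two_pow_self (n := M)).le
    have h4 : ((1:ℝ)/2)^(D*M) ≤ (1/2)^(M+2) :=
      pow_le_pow_of_le_one (by norm_num) (by norm_num) (by omega)
    calc (M:ℝ) * (1/2)^(D*M) ≤ 2^M * (1/2)^(M+2) := by gcongr
      _ = 1/4 := by
        rw [pow_add, ← mul_assoc, ← mul_pow]; norm_num
  have h5 : 1/2 ≤ p k n M := by linarith
  have hanti : ∀ t, t ≤ M → 1/2 ≤ p k n t := by
    intro t ht
    have ha : Antitone (fun t => p k n t) := antitone_nat_of_succ_le (fun t => p_anti k n t hn1)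
    exact h5.trans (ha ht)
  have h6 : (M:ℝ) * (1/2) ≤ ∑ t ∈ range M, p k n t := by
    have : ∑ t ∈ range M, (1/2:ℝ) ≤ ∑ t ∈ range M, p k n t :=
      Finset.sum_le_sum fun t ht => hanti t (Finset.mem_range.1 ht).le
    simpa using this
  have h7 : ∑ t ∈ range M, p k n t ≤ mean k n (2^k*n) := by
    unfold mean
    apply Finset.sum_le_sum_of_subset_of_nonneg
    · apply Finset.range_mono
      have h1 : 1 ≤ 2^k := Nat.one_le_two_pow
      calc M ≤ n := by omega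
        _ = 1*n := (one_mul _).symm
        _ ≤ 2^k*n := Nat.mul_le_mul_right _ h1
    · intro i _ _
      exact p_nonneg k n i
  have h8 : 1/(4*(8*k*2^k)) * (n:ℝ) = M * (1/2) := by
    have : (n:ℝ) = 2*((8*k*2^k)*M) := by
      rw [hn, hD]; push_cast; ring
    rw [this]
    field_simp
    norm_num
  rw [h8]
  exact h6.trans h7

end P170
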