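import Mathlib

open Filter Finset

namespace P170

def SatF {n m : ℕ} (F : Fin m → Finset (Fin n × Bool)) : Prop :=
  ∃ a : Fin n → Bool, ∀ i, ∃ l ∈ F i, a l.1 = l.2

open Classical in
noncomputable def properClauses (k n : ℕ) : Finset (Finset (Fin n × Bool)) :=
  Finset.univ.filter (fun C => C.card = k ∧ Set.InjOn Prod.fst (C : Set (Fin n × Bool)))

noncomputable def satProb (k n m : ℕ) : ℝ :=
  (Nat.card {F : Fin m → Finset (Fin n × Bool) // (∀ i, F i ∈ properClauses k n) ∧ SatF F} : ℝ)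
    / ((properClauses k n).card : ℝ)^m

noncomputable def pIid (k n m : ℕ) : ℝ :=
  (Nat.card {F : Fin m → Fin k → Fin n × Bool //
    ∃ a : Fin n → Bool, ∀ i, ∃ l, a (F i l).1 = (F i l).2} : ℝ) / ((2*n : ℝ)^k)^m

section Rec

variable {A : Type*} [DecidableEq A] {X Y : Type*} [Fintype X] [Fintype Y]

/-- Weighted number of satisfiable sequences, recursively. -/
noncomputable def R (w : X → ℝ) (S : X → Finset A) : ℕ → Finset A → ℝ
  | 0, Γ => if Γ.Nonempty then 1 else 0
  | m + 1, Γ => ∑ x, w x * R w S m (Γ ∩ S x)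

open Classical in
theorem R_eq (w : X → ℝ) (S : X → Finset A) (m : ℕ) (Γ : Finset A) :
    R w S m Γ = ∑ F : Fin m → X, (∏ i, w (F i)) *
      (if ∃ a ∈ Γ, ∀ i, a ∈ S (F i) then 1 else 0) := by
  induction m generalizing Γ with
  | zero =>
    by_cases h : Γ.Nonempty
    · rw [R, if_pos h]
      obtain ⟨a, ha⟩ := h
      have : ∃ a, a ∈ Γ := ⟨a, ha⟩
      simp [this]
    · rw [R, if_neg h]
      have : ¬ ∃ a, a ∈ Γ := fun ⟨a, ha⟩ => h ⟨a, ha⟩
      simp [this]
  | succ m ih =>
    rw [R, ← (Fin.consEquiv fun _ => X).sum_comp, Fintype.sum_prod_type]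
    refine Finset.sum_congr rfl fun x _ => ?_
    rw [ih, Finset.mul_sum]
    refine Finset.sum_congr rfl fun F _ => ?_
    have h1 : ∏ i, w ((Fin.consEquiv fun _ => X) (x, F) i) = w x * ∏ i, w (F i) := by
      rw [Fin.prod_univ_succ]; simp [Fin.consEquiv]
    have h2 : (∃ a ∈ Γ, ∀ i, a ∈ S ((Fin.consEquiv fun _ => X) (x, F) i)) ↔
        (∃ a ∈ Γ ∩ S x, ∀ i, a ∈ S (F i)) := by
      constructor
      · rintro ⟨a, ha, h⟩
        have h0 := h 0
        refine ⟨a, Finset.mem_inter.2 ⟨ha, by simpa [Fin.consEquiv] using h0⟩, fun i => ?_⟩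
        have := h i.succ
        simpa [Fin.consEquiv] using this
      · rintro ⟨a, ha, h⟩
        refine ⟨a, (Finset.mem_inter.1 ha).1, fun i => ?_⟩
        refine Fin.cases ?_ (fun i => ?_) i
        · simpa [Fin.consEquiv] using (Finset.mem_inter.1 ha).2
        · simpa [Fin.consEquiv] using h i
    rw [h1, mul_assoc]
    simp only [h2]

theorem R_nonneg {w : X → ℝ} (hw : ∀ x, 0 ≤ w x) (S : X → Finset A) (m : ℕ) (Γ : Finset A) :
    0 ≤ R w S m Γ := by
  induction m generalizing Γ with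
  | zero => rw [R]; split_ifs <;> norm_num
  | succ m ih => rw [R]; exact Finset.sum_nonneg fun x _ => mul_nonneg (hw x) (ih _)

theorem R_mono {w : X → ℝ} (hw : ∀ x, 0 ≤ w x) (S : X → Finset A) (m : ℕ) {Γ Γ' : Finset A}
    (h : Γ ⊆ Γ') : R w S m Γ ≤ R w S m Γ' := by
  induction m generalizing Γ Γ' with
  | zero =>
    rw [R, R]
    by_cases h1 : Γ.Nonempty
    · rw [if_pos h1, if_pos (h1.mono h)]
    · rw [if_neg h1]; split_ifs <;> norm_num
  | succ m ih =>
    rw [R, R]
    exact Finset.sum_le_sum fun x _ => mul_le_mul_of_nonneg_left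
      (ih (Finset.inter_subset_inter_right h)) (hw x)

theorem R_anti {w : X → ℝ} (hw : ∀ x, 0 ≤ w x) (hs : ∑ x, w x ≤ 1) (S : X → Finset A) (m : ℕ)
    (Γ : Finset A) : R w S (m + 1) Γ ≤ R w S m Γ := by
  rw [R]
  calc ∑ x, w x * R w S m (Γ ∩ S x) ≤ ∑ x, w x * R w S m Γ :=
        Finset.sum_le_sum fun x _ => mul_le_mul_of_nonneg_left
          (R_mono hw S m Finset.inter_subset_left) (hw x)
    _ = (∑ x, w x) * R w S m Γ := by rw [Finset.sum_mul]
    _ ≤ 1 * R w S m Γ := mul_le_mul_of_nonneg_right hs (R_nonneg hw S m Γ)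
    _ = R w S m Γ := one_mul _

theorem R_antitone {w : X → ℝ} (hw : ∀ x, 0 ≤ w x) (hs : ∑ x, w x ≤ 1) (S : X → Finset A)
    (Γ : Finset A) : Antitone fun m => R w S m Γ :=
  antitone_nat_of_succ_le fun m => R_anti hw hs S m Γ

theorem R_le_one {w : X → ℝ} (hw : ∀ x, 0 ≤ w x) (hs : ∑ x, w x ≤ 1) (S : X → Finset A)
    (m : ℕ) (Γ : Finset A) : R w S m Γ ≤ 1 := by
  refine (R_antitone hw hs S Γ (Nat.zero_le m)).trans ?_
  simp only [R]
  split_ifs <;> norm_num

theorem R_w_mono {w w' : X → ℝ} (hw : ∀ x, 0 ≤ w x) (h : ∀ x, w x ≤ w' x) (S : X → Finset A)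
    (m : ℕ) (Γ : Finset A) : R w S m Γ ≤ R w' S m Γ := by
  induction m generalizing Γ with
  | zero => rw [R, R]
  | succ m ih =>
    rw [R, R]
    exact Finset.sum_le_sum fun x _ => mul_le_mul (h x) (ih _) (R_nonneg hw S m _)
      ((hw x).trans (h x))

open Classical in
/-- Push-forward of weights. -/
theorem R_push {w : X → ℝ} {w' : Y → ℝ} {S : X → Finset A} {S' : Y → Finset A} {c : ℝ}
    (φ : X → Y) (hS : ∀ x, w x ≠ 0 → S x = S' (φ x))
    (hφ : ∀ y, ∑ x with φ x = y, w x = c * w' y) (m : ℕ) (Γ : Finset A) :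
    R w S m Γ = c ^ m * R w' S' m Γ := by
  induction m generalizing Γ with
  | zero => simp [R]
  | succ m ih =>
    rw [R, R, ← Finset.sum_fiberwise Finset.univ φ, Finset.mul_sum]
    refine Finset.sum_congr rfl fun y _ => ?_
    have : ∀ x ∈ Finset.univ.filter (fun x => φ x = y),
        w x * R w S m (Γ ∩ S x) = w x * (c ^ m * R w' S' m (Γ ∩ S' y)) := by
      intro x hx
      have hx2 := (Finset.mem_filter.1 hx).2
      by_cases h0 : w x = 0
      · rw [h0]; simp
      · rw [hS x h0, hx2, ih]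
    rw [Finset.sum_congr rfl this, ← Finset.sum_mul, hφ y]
    ring

/-- Dropping the clauses of the second type. -/
theorem R_split {w w1 w2 : X → ℝ} (hw1 : ∀ x, 0 ≤ w1 x) (hw2 : ∀ x, 0 ≤ w2 x)
    (hw : ∀ x, w x = w1 x + w2 x) (S : X → Finset A) (m : ℕ) (Γ : Finset A) :
    R w S m Γ ≤ ∑ i ∈ range (m + 1), (m.choose i : ℝ) * ((∑ x, w2 x) ^ i * R w1 S (m - i) Γ) := by
  set b := ∑ x, w2 x with hb
  have hb0 : 0 ≤ b := Finset.sum_nonneg fun x _ => hw2 x
  induction m generalizing Γ with
  | zero => simp [R]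
  | succ m ih =>
    rw [Finset.sum_choose_succ_mul (fun i j => b ^ i * R w1 S j Γ) m]
    have e : R w S (m + 1) Γ = ∑ x, w1 x * R w S m (Γ ∩ S x) + ∑ x, w2 x * R w S m (Γ ∩ S x) := by
      rw [R, ← Finset.sum_add_distrib]
      exact Finset.sum_congr rfl fun x _ => by rw [hw x]; ring
    rw [e]
    refine add_le_add ?_ ?_
    · calc ∑ x, w1 x * R w S m (Γ ∩ S x)
          ≤ ∑ x, w1 x * ∑ i ∈ range (m + 1),
              (m.choose i : ℝ) * (b ^ i * R w1 S (m - i) (Γ ∩ S x)) :=
            Finset.sum_le_sum fun x _ => mul_le_mul_of_nonneg_left (ih _) (hw1 x)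
        _ = ∑ i ∈ range (m + 1), (m.choose i : ℝ) * (b ^ i * R w1 S (m + 1 - i) Γ) := by
            simp only [Finset.mul_sum]
            rw [Finset.sum_comm]
            refine Finset.sum_congr rfl fun i hi => ?_
            have hi' : m + 1 - i = (m - i) + 1 := by
              have := Finset.mem_range.1 hi; omega
            rw [hi', R, Finset.mul_sum, Finset.mul_sum]
            exact Finset.sum_congr rfl fun x _ => by ring
    · calc ∑ x, w2 x * R w S m (Γ ∩ S x)
          ≤ ∑ x, w2 x * R w S m Γ := by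
            refine Finset.sum_le_sum fun x _ => mul_le_mul_of_nonneg_left ?_ (hw2 x)
            exact R_mono (fun x => by rw [hw x]; exact add_nonneg (hw1 x) (hw2 x)) S m
              Finset.inter_subset_left
        _ = b * R w S m Γ := by rw [hb, Finset.sum_mul]
        _ ≤ b * ∑ i ∈ range (m + 1), (m.choose i : ℝ) * (b ^ i * R w1 S (m - i) Γ) :=
            mul_le_mul_of_nonneg_left (ih Γ) hb0
        _ = ∑ i ∈ range (m + 1), (m.choose i : ℝ) * (b ^ (i + 1) * R w1 S (m - i) Γ) := by
            rw [Finset.mul_sum]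
            exact Finset.sum_congr rfl fun i _ => by ring

/-- Binomial tail by Markov. -/
theorem binom_tail {x : ℝ} (hx0 : 0 ≤ x) (hx1 : x ≤ 1) {m m0 : ℕ} (h : m0 ≤ m) :
    ∑ i ∈ (range (m + 1)).filter (fun i => m - i < m0), (m.choose i : ℝ) * (x ^ i * (1 - x) ^ (m - i))
      ≤ m * x / ((m : ℝ) - m0 + 1) := by
  have hpos : (0 : ℝ) < (m : ℝ) - m0 + 1 := by
    have : (m0 : ℝ) ≤ m := by exact_mod_cast h
    linarith
  rw [le_div_iff₀ hpos]
  have hmean : ∑ i ∈ range (m + 1), (i : ℝ) * ((m.choose i : ℝ) * (x ^ i * (1 - x) ^ (m - i)))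
      = m * x := by
    have h1 := congrArg (Polynomial.eval x) (bernsteinPolynomial.sum_smul ℝ m)
    simp only [bernsteinPolynomial, Polynomial.eval_finsetSum, nsmul_eq_mul,
      Polynomial.eval_mul, Polynomial.eval_natCast, Polynomial.eval_pow, Polynomial.eval_X,
      Polynomial.eval_sub, Polynomial.eval_one] at h1
    rw [← h1]
    exact Finset.sum_congr rfl fun i _ => by ring
  rw [← hmean, Finset.sum_mul]
  calc ∑ i ∈ (range (m + 1)).filter (fun i => m - i < m0),
        (m.choose i : ℝ) * (x ^ i * (1 - x) ^ (m - i)) * ((m : ℝ) - m0 + 1)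
      ≤ ∑ i ∈ (range (m + 1)).filter (fun i => m - i < m0),
        (i : ℝ) * ((m.choose i : ℝ) * (x ^ i * (1 - x) ^ (m - i))) := by
        refine Finset.sum_le_sum fun i hi => ?_
        obtain ⟨hi1, hi2⟩ := Finset.mem_filter.1 hi
        have hi3 : m - m0 + 1 ≤ i := by
          have := Finset.mem_range.1 hi1; omega
        have hi4 : (m : ℝ) - m0 + 1 ≤ i := by
          have : ((m - m0 + 1 : ℕ) : ℝ) ≤ i := by exact_mod_cast hi3
          rw [Nat.cast_add, Nat.cast_sub h] at this
          simpa using this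
        rw [mul_comm (i : ℝ)]
        have h1x : 0 ≤ 1 - x := by linarith
        exact mul_le_mul_of_nonneg_left hi4 (by positivity)
    _ ≤ ∑ i ∈ range (m + 1), (i : ℝ) * ((m.choose i : ℝ) * (x ^ i * (1 - x) ^ (m - i))) := by
        refine Finset.sum_le_sum_of_subset_of_nonneg (Finset.filter_subset _ _) fun i _ _ => ?_
        have h1x : 0 ≤ 1 - x := by linarith
        positivity

end Rec

section Concrete

variable {k n : ℕ}

open Classical in
/-- satisfying assignments of a tuple -/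
noncomputable def St (k n : ℕ) (τ : Fin k → Fin n × Bool) : Finset (Fin n → Bool) :=
  Finset.univ.filter fun a => ∃ l, a (τ l).1 = (τ l).2

open Classical in
/-- satisfying assignments of a clause -/
noncomputable def Sc (n : ℕ) (C : Finset (Fin n × Bool)) : Finset (Fin n → Bool) :=
  Finset.univ.filter fun a => ∃ l ∈ C, a l.1 = l.2

/-- proper tuples -/
def Prop' (k n : ℕ) (τ : Fin k → Fin n × Bool) : Prop := Function.Injective fun l => (τ l).1

open Classical in
noncomputable def wt (k n : ℕ) (_ : Fin k → Fin n × Bool) : ℝ := ((2 * n : ℝ) ^ k)⁻¹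

open Classical in
noncomputable def wp (k n : ℕ) (τ : Fin k → Fin n × Bool) : ℝ :=
  if Prop' k n τ then ((2 * n : ℝ) ^ k)⁻¹ else 0

open Classical in
noncomputable def wi (k n : ℕ) (τ : Fin k → Fin n × Bool) : ℝ :=
  if Prop' k n τ then 0 else ((2 * n : ℝ) ^ k)⁻¹

open Classical in
noncomputable def wc (k n : ℕ) (C : Finset (Fin n × Bool)) : ℝ :=
  if C ∈ properClauses k n then (((properClauses k n).card : ℝ))⁻¹ else 0

theorem pIid_eq (k n m : ℕ) : pIid k n m = R (wt k n) (St k n) m Finset.univ := by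
  classical
  rw [R_eq, pIid, Nat.card_eq_fintype_card, Fintype.card_subtype]
  simp only [wt, Finset.prod_const, Finset.card_univ, Fintype.card_fin, St, Finset.mem_filter,
    Finset.mem_univ, true_and]
  rw [← Finset.mul_sum, Finset.sum_boole, div_eq_inv_mul, inv_pow]

theorem satProb_eq (k n m : ℕ) : satProb k n m = R (wc k n) (Sc n) m Finset.univ := by
  classical
  rw [R_eq, satProb, Nat.card_eq_fintype_card, Fintype.card_subtype]
  have : ∀ F : Fin m → Finset (Fin n × Bool), (∏ i, wc k n (F i)) *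
      (if ∃ a ∈ (Finset.univ : Finset (Fin n → Bool)), ∀ i, a ∈ Sc n (F i) then (1 : ℝ) else 0) =
      ((((properClauses k n).card : ℝ))⁻¹) ^ m *
      (if (∀ i, F i ∈ properClauses k n) ∧ SatF F then (1 : ℝ) else 0) := by
    intro F
    by_cases h : ∀ i, F i ∈ properClauses k n
    · have h1 : ∏ i, wc k n (F i) = ((((properClauses k n).card : ℝ))⁻¹) ^ m := by
        rw [Finset.prod_congr rfl (fun i _ => by rw [wc, if_pos (h i)])]
        simp
      rw [h1]
      simp only [h, Sc, SatF, Finset.mem_filter, Finset.mem_univ, true_and, implies_true]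
    · have h2 : ∏ i, wc k n (F i) = 0 := by
        push Not at h
        obtain ⟨i, hi⟩ := h
        exact Finset.prod_eq_zero (Finset.mem_univ i) (by rw [wc, if_neg hi])
      have h3 : ¬ ((∀ i, F i ∈ properClauses k n) ∧ SatF F) := fun hh => h hh.1
      rw [h2, if_neg h3]
      simp
  rw [Finset.sum_congr rfl fun F _ => this F, ← Finset.mul_sum, Finset.sum_boole,
    div_eq_inv_mul, inv_pow]

theorem wp_nonneg (τ : Fin k → Fin n × Bool) : 0 ≤ wp k n τ := by
  unfold wp; split_ifs <;> positivity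

theorem wi_nonneg (τ : Fin k → Fin n × Bool) : 0 ≤ wi k n τ := by
  unfold wi; split_ifs <;> positivity

theorem wc_nonneg (C : Finset (Fin n × Bool)) : 0 ≤ wc k n C := by
  unfold wc; split_ifs <;> positivity

theorem wt_eq (τ : Fin k → Fin n × Bool) : wt k n τ = wp k n τ + wi k n τ := by
  unfold wt wp wi; split_ifs <;> simp

theorem sum_wc_le : ∑ C, wc k n C ≤ 1 := by
  classical
  unfold wc
  rw [Finset.sum_ite_mem, Finset.univ_inter, Finset.sum_const, nsmul_eq_mul]
  exact mul_inv_le_one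

theorem sum_wt (hn : 1 ≤ n) : ∑ τ, wt k n τ = 1 := by
  classical
  unfold wt
  rw [Finset.sum_const, Finset.card_univ, nsmul_eq_mul, Fintype.card_fun, Fintype.card_prod]
  simp only [Fintype.card_fin, Fintype.card_bool]
  push_cast
  rw [mul_comm (n : ℝ) 2]
  apply mul_inv_cancel₀
  have : (0 : ℝ) < n := by exact_mod_cast hn
  positivity

/-- probability of a proper clause -/
noncomputable def qq (k n : ℕ) : ℝ := ∑ τ, wp k n τ

open Classical in
theorem card_proper (k n : ℕ) : (Finset.univ.filter fun τ : Fin k → Fin n × Bool =>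
    Prop' k n τ).card = n.descFactorial k * 2 ^ k := by
  have e : {τ : Fin k → Fin n × Bool // Prop' k n τ} ≃
      {f : Fin k → Fin n // Function.Injective f} × (Fin k → Bool) :=
    { toFun := fun τ => (⟨fun l => (τ.1 l).1, τ.2⟩, fun l => (τ.1 l).2)
      invFun := fun q => ⟨fun l => (q.1.1 l, q.2 l), q.1.2⟩
      left_inv := fun τ => rfl
      right_inv := fun q => rfl }
  rw [← Fintype.card_subtype, Fintype.card_congr e, Fintype.card_prod,
    Fintype.card_congr (Equiv.subtypeInjectiveEquivEmbedding (Fin k) (Fin n)),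
    Fintype.card_embedding_eq]
  simp

theorem qq_eq (k n : ℕ) : qq k n = (n.descFactorial k * 2 ^ k : ℕ) * ((2 * n : ℝ) ^ k)⁻¹ := by
  classical
  unfold qq wp
  rw [← Finset.sum_filter, Finset.sum_const, nsmul_eq_mul]
  congr 2
  rw [← card_proper k n]

theorem qq_ge (hkn : k ≤ n) (hn : 1 ≤ n) : 1 - (k : ℝ) ^ 2 / n ≤ qq k n := by
  rw [qq_eq]
  have hn' : (0 : ℝ) < n := by exact_mod_cast hn
  have h1 : (((n + 1 - k : ℕ) : ℝ)) ^ k ≤ n.descFactorial k := by
    exact_mod_cast Nat.pow_sub_le_descFactorial n k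
  have h2 : ((n + 1 - k : ℕ) : ℝ) = n * (1 + -(((k : ℝ) - 1) / n)) := by
    rw [Nat.cast_sub (by omega)]
    push_cast
    field_simp
    ring
  have h3 : 1 + (k : ℝ) * (-(((k : ℝ) - 1) / n)) ≤ (1 + -(((k : ℝ) - 1) / n)) ^ k := by
    apply one_add_mul_le_pow
    have : ((k : ℝ) - 1) / n ≤ 1 := by
      rw [div_le_one hn']
      have : (k : ℝ) ≤ n := by exact_mod_cast hkn
      linarith
    linarith
  have h4 : ((n.descFactorial k * 2 ^ k : ℕ) : ℝ) * ((2 * n : ℝ) ^ k)⁻¹ =
      (n.descFactorial k : ℝ) / (n : ℝ) ^ k := by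
    push_cast
    rw [mul_pow]
    field_simp
  rw [h4, le_div_iff₀ (by positivity)]
  rw [h2, mul_pow] at h1
  refine le_trans ?_ h1
  rw [mul_comm]
  apply mul_le_mul_of_nonneg_left _ (by positivity)
  refine le_trans ?_ h3
  have : (k : ℝ) * (-(((k : ℝ) - 1) / n)) = -((k : ℝ) ^ 2 / n) + k / n := by
    field_simp; ring
  rw [this]
  have : 0 ≤ (k : ℝ) / n := by positivity
  linarith

theorem qq_add (hn : 1 ≤ n) : qq k n + ∑ τ, wi k n τ = 1 := by
  rw [qq, ← Finset.sum_add_distrib, ← sum_wt (k := k) hn]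
  exact Finset.sum_congr rfl fun τ _ => (wt_eq τ).symm

open Classical in
theorem fiber_card {C : Finset (Fin n × Bool)} (hC : C.card = k) :
    (Finset.univ.filter fun τ : Fin k → Fin n × Bool => Finset.univ.image τ = C).card
      = k.factorial := by
  have e : {τ : Fin k → Fin n × Bool // Finset.univ.image τ = C} ≃ (Fin k ≃ C) :=
    { toFun := fun τ => Equiv.ofBijective
        (fun l => ⟨τ.1 l, by
          have := Finset.mem_image_of_mem τ.1 (Finset.mem_univ l); rwa [τ.2] at this⟩)
        (by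
          rw [Fintype.bijective_iff_surjective_and_card]
          constructor
          · rintro ⟨c, hc⟩
            rw [← τ.2] at hc
            obtain ⟨l, _, hl⟩ := Finset.mem_image.1 hc
            exact ⟨l, Subtype.ext hl⟩
          · simp [hC])
      invFun := fun e => ⟨fun l => (e l).1, by
        ext c
        simp only [Finset.mem_image, Finset.mem_univ, true_and]
        constructor
        · rintro ⟨l, rfl⟩; exact (e l).2
        · intro hc; exact ⟨e.symm ⟨c, hc⟩, by simp⟩⟩
      left_inv := fun τ => by ext x <;> rfl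
      right_inv := fun e => by ext x <;> rfl }
  rw [← Fintype.card_subtype, Fintype.card_congr e]
  have e0 : Fin k ≃ C := Fintype.equivOfCardEq (by simp [hC])
  rw [Fintype.card_equiv e0]
  simp

open Classical in
theorem fiber_sum (C : Finset (Fin n × Bool)) :
    ∑ τ with Finset.univ.image τ = C, wp k n τ =
      if C ∈ properClauses k n then (k.factorial : ℝ) * ((2 * n : ℝ) ^ k)⁻¹ else 0 := by
  split_ifs with hC
  · obtain ⟨-, h1, h2⟩ := Finset.mem_filter.1 hC
    have : ∀ τ ∈ Finset.univ.filter (fun τ : Fin k → Fin n × Bool => Finset.univ.image τ = C),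
        wp k n τ = ((2 * n : ℝ) ^ k)⁻¹ := by
      intro τ hτ
      have hτ2 := (Finset.mem_filter.1 hτ).2
      have hinj : Function.Injective τ := by
        have h3 : (Finset.univ.image τ).card = (Finset.univ : Finset (Fin k)).card := by
          rw [hτ2, h1]; simp
        have h4 := Finset.injOn_of_card_image_eq h3
        intro l l' h
        exact h4 (by simp) (by simp) h
      rw [wp, if_pos]
      intro l l' hll
      have m1 : τ l ∈ (C : Set (Fin n × Bool)) := by
        rw [← hτ2]; simp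
      have m2 : τ l' ∈ (C : Set (Fin n × Bool)) := by
        rw [← hτ2]; simp
      exact hinj (h2 m1 m2 hll)
    rw [Finset.sum_congr rfl this, Finset.sum_const, fiber_card h1, nsmul_eq_mul]
  · refine Finset.sum_eq_zero fun τ hτ => ?_
    have hτ2 := (Finset.mem_filter.1 hτ).2
    rw [wp, if_neg]
    intro hp
    apply hC
    have hinj : Function.Injective τ := fun l l' h => hp (by simp [h])
    refine Finset.mem_filter.2 ⟨Finset.mem_univ _, ?_, ?_⟩
    · rw [← hτ2, Finset.card_image_of_injective _ hinj]; simp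
    · rw [← hτ2]
      intro a ha b hb hab
      simp only [Finset.coe_image, Finset.coe_univ, Set.image_univ, Set.mem_range] at ha hb
      obtain ⟨l, rfl⟩ := ha
      obtain ⟨l', rfl⟩ := hb
      rw [hp hab]

theorem qq_eq_card (k n : ℕ) :
    qq k n = (properClauses k n).card * ((k.factorial : ℝ) * ((2 * n : ℝ) ^ k)⁻¹) := by
  classical
  unfold qq
  rw [← Finset.sum_fiberwise Finset.univ (fun τ : Fin k → Fin n × Bool => Finset.univ.image τ)]
  rw [Finset.sum_congr rfl fun C _ => fiber_sum C, Finset.sum_ite_mem, Finset.univ_inter,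
    Finset.sum_const, nsmul_eq_mul]

theorem R_wp (k n m : ℕ) (Γ : Finset (Fin n → Bool)) :
    R (wp k n) (St k n) m Γ = qq k n ^ m * R (wc k n) (Sc n) m Γ := by
  classical
  refine R_push (fun τ : Fin k → Fin n × Bool => Finset.univ.image τ) ?_ ?_ m Γ
  · intro τ _
    ext a
    simp [St, Sc]
  · intro C
    have e1 : qq k n * wc k n C =
        if C ∈ properClauses k n then (k.factorial : ℝ) * ((2 * n : ℝ) ^ k)⁻¹ else 0 := by
      rw [qq_eq_card]
      unfold wc
      split_ifs with h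
      · have : ((properClauses k n).card : ℝ) ≠ 0 := by
          exact_mod_cast (Finset.card_pos.2 ⟨C, h⟩).ne'
        field_simp
      · simp
    rw [e1, ← fiber_sum C]
    congr!

theorem qq_nonneg (k n : ℕ) : 0 ≤ qq k n := Finset.sum_nonneg fun τ _ => wp_nonneg τ

theorem satProb_nonneg (k n m : ℕ) : 0 ≤ satProb k n m := by
  rw [satProb_eq]; exact R_nonneg wc_nonneg _ _ _

theorem satProb_le_one (k n m : ℕ) : satProb k n m ≤ 1 := by
  rw [satProb_eq]; exact R_le_one wc_nonneg sum_wc_le _ _ _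

theorem satProb_antitone (k n : ℕ) : Antitone (satProb k n) := by
  intro a b hab
  rw [satProb_eq, satProb_eq]
  exact R_antitone wc_nonneg sum_wc_le _ _ hab

theorem pIid_nonneg (k n m : ℕ) : 0 ≤ pIid k n m := by
  unfold pIid; positivity

/-- (i) -/
theorem pIid_ge (k n m : ℕ) : qq k n ^ m * satProb k n m ≤ pIid k n m := by
  rw [pIid_eq, satProb_eq, ← R_wp]
  exact R_w_mono wp_nonneg (fun τ => by rw [wt_eq]; linarith [wi_nonneg τ]) _ _ _

/-- (ii) -/
theorem pIid_le (k : ℕ) {n : ℕ} (hn : 1 ≤ n) {m m0 : ℕ} (h : m0 ≤ m) :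
    pIid k n m ≤ satProb k n m0 + m * (1 - qq k n) / ((m : ℝ) - m0 + 1) := by
  have hq := qq_add (k := k) hn
  have hi0 : 0 ≤ ∑ τ, wi k n τ := Finset.sum_nonneg fun τ _ => wi_nonneg τ
  have hq0 := qq_nonneg k n
  have e1 : ∑ τ, wi k n τ = 1 - qq k n := by linarith
  set x := 1 - qq k n with hx
  have hx0 : 0 ≤ x := by linarith
  have hx1 : x ≤ 1 := by linarith
  have hqx : qq k n = 1 - x := by linarith
  rw [pIid_eq]
  refine (R_split wp_nonneg wi_nonneg wt_eq _ _ _).trans ?_
  have e2 : ∀ i ∈ range (m + 1), (m.choose i : ℝ) * ((∑ τ, wi k n τ) ^ i *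
      R (wp k n) (St k n) (m - i) Finset.univ) =
      ((m.choose i : ℝ) * (x ^ i * (1 - x) ^ (m - i))) * satProb k n (m - i) := by
    intro i _
    rw [R_wp, ← satProb_eq, e1, hqx]; ring
  rw [Finset.sum_congr rfl e2, ← Finset.sum_filter_add_sum_filter_not (range (m + 1))
    (fun i => m - i < m0), add_comm]
  have h1x : 0 ≤ 1 - x := by linarith
  refine add_le_add ?_ ?_
  · calc ∑ i ∈ (range (m + 1)).filter (fun i => ¬ (m - i < m0)),
          ((m.choose i : ℝ) * (x ^ i * (1 - x) ^ (m - i))) * satProb k n (m - i)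
        ≤ ∑ i ∈ (range (m + 1)).filter (fun i => ¬ (m - i < m0)),
          ((m.choose i : ℝ) * (x ^ i * (1 - x) ^ (m - i))) * satProb k n m0 := by
          refine Finset.sum_le_sum fun i hi => ?_
          have := (Finset.mem_filter.1 hi).2
          exact mul_le_mul_of_nonneg_left (satProb_antitone k n (by omega)) (by positivity)
      _ ≤ ∑ i ∈ range (m + 1),
          ((m.choose i : ℝ) * (x ^ i * (1 - x) ^ (m - i))) * satProb k n m0 :=
          Finset.sum_le_sum_of_subset_of_nonneg (Finset.filter_subset _ _)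
            fun i _ _ => mul_nonneg (by positivity) (satProb_nonneg k n m0)
      _ = satProb k n m0 := by
          rw [← Finset.sum_mul]
          have : ∑ i ∈ range (m + 1), (m.choose i : ℝ) * (x ^ i * (1 - x) ^ (m - i)) = 1 := by
            have h2 := (add_pow x (1 - x) m).symm
            rw [add_sub_cancel, one_pow] at h2
            refine Eq.trans (Finset.sum_congr rfl fun i _ => ?_) h2
            ring
          rw [this, one_mul]
  · refine le_trans ?_ (binom_tail hx0 hx1 h)
    refine Finset.sum_le_sum fun i _ => ?_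
    exact mul_le_of_le_one_right (by positivity) (satProb_le_one k n _)

end Concrete

/-- Transfer of the threshold from the i.i.d. literal model to the proper clause model. -/
theorem transfer (k : ℕ) (hk : 1 ≤ k) (α : ℝ) (hα : 0 < α)
    (h1 : ∀ c : ℝ, 0 ≤ c → c < α →
      Tendsto (fun n : ℕ => pIid k n ⌊c * n⌋₊) atTop (nhds 1))
    (h0 : ∀ c : ℝ, α < c → Tendsto (fun n : ℕ => pIid k n ⌊c * n⌋₊) atTop (nhds 0)) :
    (∀ c : ℝ, 0 ≤ c → c < α →
      Tendsto (fun n : ℕ => satProb k n ⌊c * n⌋₊) atTop (nhds 1)) ∧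
    (∀ c : ℝ, α < c → Tendsto (fun n : ℕ => satProb k n ⌊c * n⌋₊) atTop (nhds 0)) := by
  have hk' : (0 : ℝ) < k := by exact_mod_cast hk
  constructor
  · intro c hc hcα
    obtain ⟨c', hcc', hc'α⟩ := exists_between hcα
    have hc' : 0 ≤ c' := hc.trans hcc'.le
    have herr : Tendsto (fun n : ℕ => (c' * k ^ 2 / (c' - c)) / (n : ℝ)) atTop (nhds 0) :=
      tendsto_const_div_atTop_nhds_zero_nat _
    have hlow := (h1 c' hc' hc'α).sub herr
    rw [sub_zero] at hlow
    refine tendsto_of_tendsto_of_tendsto_of_le_of_le' hlow tendsto_const_nhds ?_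
      (Eventually.of_forall fun n => satProb_le_one k n _)
    filter_upwards [eventually_ge_atTop (max k 1)] with n hn
    have hn1 : 1 ≤ n := (le_max_right _ _).trans hn
    have hkn : k ≤ n := (le_max_left _ _).trans hn
    have hn' : (0 : ℝ) < n := by exact_mod_cast hn1
    have hle : ⌊c * n⌋₊ ≤ ⌊c' * n⌋₊ := Nat.floor_mono (by gcongr)
    have key := pIid_le k hn1 hle
    have hq := qq_ge hkn hn1
    have hqle : 0 ≤ 1 - qq k n := by
      have := qq_add (k := k) hn1
      have h2 : 0 ≤ ∑ τ, wi k n τ := Finset.sum_nonneg fun τ _ => wi_nonneg τ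
      linarith
    have hden : (c' - c) * n ≤ (⌊c' * n⌋₊ : ℝ) - ⌊c * n⌋₊ + 1 := by
      have a1 := Nat.lt_floor_add_one (c' * n)
      have a2 := Nat.floor_le (mul_nonneg hc hn'.le)
      nlinarith
    have hnum : (⌊c' * n⌋₊ : ℝ) * (1 - qq k n) ≤ c' * k ^ 2 := by
      have a1 := Nat.floor_le (mul_nonneg hc' hn'.le)
      calc (⌊c' * n⌋₊ : ℝ) * (1 - qq k n) ≤ (c' * n) * ((k : ℝ) ^ 2 / n) :=
            mul_le_mul a1 (by linarith) hqle (by positivity)
        _ = c' * k ^ 2 := by field_simp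
    have hfin : (⌊c' * n⌋₊ : ℝ) * (1 - qq k n) / ((⌊c' * n⌋₊ : ℝ) - ⌊c * n⌋₊ + 1) ≤
        (c' * k ^ 2 / (c' - c)) / (n : ℝ) := by
      rw [div_div]
      exact div_le_div₀ (by positivity) hnum (mul_pos (by linarith) hn') hden
    linarith
  · intro c hcα
    have hc : 0 < c := hα.trans hcα
    have hup : Tendsto (fun n : ℕ => Real.exp (2 * k ^ 2 * c) * pIid k n ⌊c * n⌋₊) atTop
        (nhds 0) := by
      simpa using (h0 c hcα).const_mul (Real.exp (2 * k ^ 2 * c))
    refine tendsto_of_tendsto_of_tendsto_of_le_of_le' tendsto_const_nhds hup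
      (Eventually.of_forall fun n => satProb_nonneg k n _) ?_
    filter_upwards [eventually_ge_atTop (2 * k ^ 2)] with n hn
    have hk2 : k ≤ k ^ 2 := Nat.le_self_pow (by norm_num) k
    have hkn : k ≤ n := by omega
    have hn1 : 1 ≤ n := hk.trans hkn
    have hn' : (0 : ℝ) < n := by exact_mod_cast hn1
    have hq := qq_ge hkn hn1
    set y : ℝ := (k : ℝ) ^ 2 / n with hy
    have hy0 : 0 ≤ y := by positivity
    have hy1 : y ≤ 1 / 2 := by
      rw [hy, div_le_div_iff₀ hn' (by norm_num)]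
      have : ((2 * k ^ 2 : ℕ) : ℝ) ≤ n := by exact_mod_cast hn
      push_cast at this
      linarith
    -- 1 - y ≥ exp (-2y)
    have hexp : Real.exp (-(2 * y)) ≤ 1 - y := by
      have a1 : 1 + 2 * y ≤ Real.exp (2 * y) := by
        have := Real.add_one_le_exp (2 * y); linarith
      rw [Real.exp_neg]
      rw [inv_le_comm₀ (Real.exp_pos _) (by linarith)]
      refine le_trans ?_ a1
      rw [inv_le_comm₀ (by linarith) (by linarith), inv_eq_one_div, div_le_iff₀ (by linarith)]
      nlinarith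
    have hpow : Real.exp (-(2 * k ^ 2 * c)) ≤ qq k n ^ ⌊c * n⌋₊ := by
      calc Real.exp (-(2 * k ^ 2 * c)) ≤ Real.exp (-(2 * y)) ^ ⌊c * n⌋₊ := by
            rw [← Real.exp_nat_mul]
            apply Real.exp_le_exp.2
            have a1 := Nat.floor_le (mul_nonneg hc.le hn'.le)
            have a2 : (⌊c * n⌋₊ : ℝ) * (2 * y) ≤ (c * n) * (2 * y) :=
              mul_le_mul_of_nonneg_right a1 (by positivity)
            have a3 : (c * n) * (2 * y) = 2 * k ^ 2 * c := by
              rw [hy]; field_simp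
            linarith
        _ ≤ qq k n ^ ⌊c * n⌋₊ := pow_le_pow_left₀ (Real.exp_pos _).le (by linarith) _
    have h3 := pIid_ge k n ⌊c * n⌋₊
    have h4 : Real.exp (-(2 * k ^ 2 * c)) * satProb k n ⌊c * n⌋₊ ≤ pIid k n ⌊c * n⌋₊ :=
      (mul_le_mul_of_nonneg_right hpow (satProb_nonneg k n _)).trans h3
    have h5 : Real.exp (2 * k ^ 2 * c) * (Real.exp (-(2 * k ^ 2 * c)) * satProb k n ⌊c * n⌋₊) =
        satProb k n ⌊c * n⌋₊ := by
      rw [← mul_assoc, ← Real.exp_add]; simp
    calc satProb k n ⌊c * n⌋₊ =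
        Real.exp (2 * k ^ 2 * c) * (Real.exp (-(2 * k ^ 2 * c)) * satProb k n ⌊c * n⌋₊) := h5.symm
      _ ≤ Real.exp (2 * k ^ 2 * c) * pIid k n ⌊c * n⌋₊ :=
          mul_le_mul_of_nonneg_left h4 (Real.exp_pos _).le

end P170
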