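import Vale.Agent.P170.Assemble
import Vale.Agent.P170.Link
import Vale.Agent.P170.Transfer

/-! P170: the width of the threshold window is `O(n^(2/3))`. -/

namespace P170

open Finset Filter Topology

set_option linter.unusedSectionVars false

lemma win_mean_nonneg (k n M : ℕ) : 0 ≤ mean k n M :=
  Finset.sum_nonneg fun m _ => p_nonneg k n m

lemma win_mean_le (k n M : ℕ) (hn : 1 ≤ n) : mean k n M ≤ M := by
  calc mean k n M ≤ ∑ _m ∈ range M, (1:ℝ) :=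
        Finset.sum_le_sum fun m _ => p_le_one k n m hn
    _ = M := by simp

lemma win_anti (k n : ℕ) (hn : 1 ≤ n) : Antitone (p k n) :=
  antitone_nat_of_succ_le fun m => p_anti k n m hn

/-- the variance bound with optimised `δ` -/
lemma win_var (k : ℕ) (hk : 3 ≤ k) : ∃ Cv : ℝ, 0 ≤ Cv ∧ ∀ n : ℕ, 1 ≤ n →
    vari k n (2^k * n) ≤ Cv * (n:ℝ) ^ (4/3 : ℝ) := by
  obtain ⟨Θ, hΘ0, hΘ⟩ := frozen_bound k hk
  refine ⟨2 * Θ * ((2:ℝ)^k) ^ (4/3 : ℝ), by positivity, fun n hn => ?_⟩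
  have hn0 : (0:ℝ) < n := by exact_mod_cast hn
  set M : ℕ := 2^k * n with hM
  have hM1 : 1 ≤ M := Nat.mul_pos (by positivity) hn
  have hM0 : (0:ℝ) < M := by exact_mod_cast hM1
  have hδ0 : (0:ℝ) < (M:ℝ) ^ (-(1/3) : ℝ) := by positivity
  have hδ1 : (M:ℝ) ^ (-(1/3) : ℝ) ≤ 1 :=
    Real.rpow_le_one_of_one_le_of_nonpos (by exact_mod_cast hM1) (by norm_num)
  have h := var_bound k hk n hn M Θ (hΘ n hn) _ hδ0 hδ1
  have e1 : ((M:ℝ) ^ (-(1/3) : ℝ))^2 * M = (M:ℝ) ^ (1/3 : ℝ) := by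
    rw [← Real.rpow_natCast, ← Real.rpow_mul hM0.le]
    nth_rewrite 2 [← Real.rpow_one (M:ℝ)]
    rw [← Real.rpow_add hM0]
    norm_num
  have e2 : 1 / (M:ℝ) ^ (-(1/3) : ℝ) = (M:ℝ) ^ (1/3 : ℝ) := by
    rw [Real.rpow_neg hM0.le]; simp
  rw [e1, e2] at h
  have e3 : (M:ℝ) * (M:ℝ) ^ (1/3 : ℝ) = (M:ℝ) ^ (4/3 : ℝ) := by
    nth_rewrite 1 [← Real.rpow_one (M:ℝ)]
    rw [← Real.rpow_add hM0]; norm_num
  have e4 : (M:ℝ) ^ (4/3 : ℝ) = ((2:ℝ)^k) ^ (4/3 : ℝ) * (n:ℝ) ^ (4/3 : ℝ) := by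
    rw [hM]; push_cast
    rw [Real.mul_rpow (by positivity) hn0.le]
  calc vari k n M ≤ M * Θ * ((M:ℝ) ^ (1/3 : ℝ) + (M:ℝ) ^ (1/3 : ℝ)) := h
    _ = 2 * Θ * ((M:ℝ) * (M:ℝ) ^ (1/3 : ℝ)) := by ring
    _ = 2 * Θ * ((2:ℝ)^k) ^ (4/3 : ℝ) * (n:ℝ) ^ (4/3 : ℝ) := by rw [e3, e4]; ring

lemma win_left (k n : ℕ) (hn : 1 ≤ n) (Cv : ℝ)
    (hv : vari k n (2^k * n) ≤ Cv * (n:ℝ) ^ (4/3 : ℝ)) (m : ℕ) (t : ℝ) (ht : 0 < t)
    (hm : (m:ℝ) + t ≤ mean k n (2^k * n)) :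
    1 - p k n m ≤ Cv * (n:ℝ) ^ (4/3 : ℝ) / t ^ 2 := by
  have h := cheb_left (p k n) (p_nonneg k n) (p_zero k n) (fun m => p_anti k n m hn)
    (2^k * n) m (by unfold mean at hm; linarith)
  refine h.trans ?_
  have hv' : (∑ i ∈ range (2^k * n), (2 * (i:ℝ) + 1) * p k n i - (∑ i ∈ range (2^k * n), p k n i)^2)
      ≤ Cv * (n:ℝ) ^ (4/3 : ℝ) := hv
  have hd : t ≤ ∑ i ∈ range (2^k * n), p k n i - m := by unfold mean at hm; linarith
  have hn0 : (0:ℝ) < n := by exact_mod_cast hn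
  have hv0 : 0 ≤ Cv * (n:ℝ) ^ (4/3 : ℝ) := by
    by_contra hneg
    push Not at hneg
    have h2 := (div_neg_of_neg_of_pos (lt_of_le_of_lt hv' hneg)
      (show 0 < (∑ i ∈ range (2^k * n), p k n i - m)^2 by
        have : 0 < ∑ i ∈ range (2^k * n), p k n i - m := by linarith
        positivity))
    have := p_le_one k n m hn
    linarith
  calc _ ≤ Cv * (n:ℝ) ^ (4/3 : ℝ) / (∑ i ∈ range (2^k * n), p k n i - m)^2 := by gcongr
    _ ≤ Cv * (n:ℝ) ^ (4/3 : ℝ) / t ^ 2 := by gcongr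

lemma win_right (k n : ℕ) (hn : 1 ≤ n) (Cv : ℝ)
    (hv : vari k n (2^k * n) ≤ Cv * (n:ℝ) ^ (4/3 : ℝ)) (m : ℕ) (hmM : m < 2^k * n) (t : ℝ)
    (ht : 0 < t) (hm : mean k n (2^k * n) + t ≤ m + 1) :
    p k n m ≤ Cv * (n:ℝ) ^ (4/3 : ℝ) / t ^ 2 := by
  have h := cheb_right (p k n) (p_nonneg k n) (p_zero k n) (fun m => p_anti k n m hn)
    (2^k * n) m hmM (by unfold mean at hm; linarith)
  refine h.trans ?_
  have hv' : (∑ i ∈ range (2^k * n), (2 * (i:ℝ) + 1) * p k n i - (∑ i ∈ range (2^k * n), p k n i)^2)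
      ≤ Cv * (n:ℝ) ^ (4/3 : ℝ) := hv
  have hd : t ≤ m + 1 - ∑ i ∈ range (2^k * n), p k n i := by unfold mean at hm; linarith
  have hv0 : 0 ≤ Cv * (n:ℝ) ^ (4/3 : ℝ) := by
    by_contra hneg
    push Not at hneg
    have h2 := (div_neg_of_neg_of_pos (lt_of_le_of_lt hv' hneg)
      (show 0 < (m + 1 - ∑ i ∈ range (2^k * n), p k n i)^2 by
        have : 0 < m + 1 - ∑ i ∈ range (2^k * n), p k n i := by linarith
        positivity))
    have := p_nonneg k n m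
    linarith
  calc _ ≤ Cv * (n:ℝ) ^ (4/3 : ℝ) / (m + 1 - ∑ i ∈ range (2^k * n), p k n i)^2 := by gcongr
    _ ≤ Cv * (n:ℝ) ^ (4/3 : ℝ) / t ^ 2 := by gcongr


/-- the threshold is at most `(3/4) 2^k` -/
lemma win_alpha_le (k : ℕ) (hk : 3 ≤ k) (α : ℝ)
    (h1 : ∀ c : ℝ, 0 ≤ c → c < α → Tendsto (fun n : ℕ => p k n ⌊c * n⌋₊) atTop (𝓝 1)) :
    α ≤ 3 / 4 * 2 ^ k := by
  by_contra hcon
  push Not at hcon
  obtain ⟨l, rfl⟩ : ∃ l, k = l + 2 := ⟨k - 2, by omega⟩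
  have hc : (3 / 4 * 2 ^ (l + 2) : ℝ) = ((3 * 2 ^ l : ℕ) : ℝ) := by push_cast; ring
  have ht := h1 (3 / 4 * 2 ^ (l + 2)) (by positivity) hcon
  have hfl : ∀ n : ℕ, ⌊(3 / 4 * 2 ^ (l + 2) : ℝ) * n⌋₊ = 3 * 2 ^ l * n := by
    intro n
    rw [hc, ← Nat.cast_mul, Nat.floor_natCast]
  simp_rw [hfl] at ht
  have h2k : (0:ℝ) < 2 ^ (l + 2) := by positivity
  have h5 : (0:ℝ) ≤ 1 - 1/2^(l + 2) := by
    have : (1:ℝ)/2^(l + 2) ≤ 1 := by
      rw [div_le_one h2k]; exact one_le_pow₀ (by norm_num)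
    linarith
  have hq : (2:ℝ) * (1 - 1/2^(l + 2))^(3 * 2 ^ l) < 1 := by
    have h3 : (1 - 1/2^(l + 2) : ℝ)^(3 * 2 ^ l) ≤ Real.exp (-(3/4)) := by
      have h4 : (1 - 1/2^(l + 2) : ℝ) ≤ Real.exp (-(1/2^(l + 2))) := Real.one_sub_le_exp_neg _
      calc (1 - 1/2^(l + 2) : ℝ)^(3 * 2 ^ l) ≤ (Real.exp (-(1/2^(l + 2))))^(3 * 2 ^ l) := by gcongr
        _ = Real.exp (-(3/4)) := by
            rw [← Real.exp_nat_mul]; congr 1; push_cast; rw [pow_add]; field_simp; norm_num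
    have h6 : Real.exp (-(3/4)) < 1 / 2 := by
      have h7 : (2 : ℝ) < Real.exp (3/4) := by
        have h8 : (2 : ℝ) ^ (4 : ℕ) < Real.exp (3/4) ^ (4 : ℕ) := by
          rw [← Real.exp_nat_mul]
          have h9 : ((4 : ℕ) : ℝ) * (3/4) = 3 := by norm_num
          rw [h9]
          have h10 := Real.exp_one_gt_d9
          have h11 : Real.exp 3 = Real.exp 1 ^ (3 : ℕ) := by
            rw [← Real.exp_nat_mul]; norm_num
          rw [h11]
          have h12 : (2.7182818283 : ℝ) ^ 3 ≤ Real.exp 1 ^ 3 := by gcongr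
          refine lt_of_lt_of_le (by norm_num) h12
        exact lt_of_pow_lt_pow_left₀ 4 (Real.exp_pos _).le h8
      rw [Real.exp_neg, one_div]
      exact inv_strictAnti₀ (by norm_num) h7
    linarith
  have hz : Tendsto (fun n : ℕ => ((2:ℝ) * (1 - 1/2^(l + 2))^(3 * 2 ^ l)) ^ n) atTop (𝓝 0) :=
    tendsto_pow_atTop_nhds_zero_of_lt_one (by positivity) hq
  have hle : ∀ᶠ n : ℕ in atTop, p (l + 2) n (3 * 2 ^ l * n) ≤
      ((2:ℝ) * (1 - 1/2^(l + 2))^(3 * 2 ^ l)) ^ n := by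
    filter_upwards [eventually_ge_atTop 1] with n hn
    refine (first_moment (l + 2) n _ hn).trans (le_of_eq ?_)
    rw [mul_pow, ← pow_mul]
  have := le_of_tendsto_of_tendsto ht hz hle
  norm_num at this

/-- the normalised truncated mean converges to the threshold -/
lemma win_mean_tendsto (k : ℕ) (hk : 3 ≤ k) (α : ℝ) (hα : 0 < α)
    (h1 : ∀ c : ℝ, 0 ≤ c → c < α → Tendsto (fun n : ℕ => p k n ⌊c * n⌋₊) atTop (𝓝 1))
    (h0 : ∀ c : ℝ, α < c → Tendsto (fun n : ℕ => p k n ⌊c * n⌋₊) atTop (𝓝 0)) :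
    Tendsto (fun n : ℕ => mean k n (2^k * n) / n) atTop (𝓝 α) := by
  have hα2 := win_alpha_le k hk α h1
  have h2k : (0:ℝ) < 2^k := by positivity
  rw [tendsto_order]
  constructor
  · intro b hb
    obtain ⟨c, hc0, hbc, hcα⟩ : ∃ c : ℝ, 0 < c ∧ b < c ∧ c < α := by
      obtain ⟨c, h, h'⟩ := exists_between (max_lt hb hα)
      exact ⟨c, lt_of_le_of_lt (le_max_right _ _) h, lt_of_le_of_lt (le_max_left _ _) h, h'⟩
    have ht := h1 c hc0.le hcα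
    -- floor (c n) * p (floor (c n)) / n -> c
    have hfl : Tendsto (fun n : ℕ => ((⌊c * n⌋₊ : ℕ) : ℝ) / n) atTop (𝓝 c) :=
      (tendsto_nat_floor_mul_div_atTop hc0.le).comp tendsto_natCast_atTop_atTop
    have hprod : Tendsto (fun n : ℕ => ((⌊c * n⌋₊ : ℕ) : ℝ) / n * p k n ⌊c * n⌋₊) atTop (𝓝 c) := by
      simpa using hfl.mul ht
    filter_upwards [hprod.eventually_const_lt hbc, eventually_ge_atTop 1] with n hn hn1
    refine lt_of_lt_of_le hn ?_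
    have hn0 : (0:ℝ) < n := by exact_mod_cast hn1
    rw [div_mul_eq_mul_div]
    gcongr
    have hfM : ⌊c * n⌋₊ ≤ 2^k * n := by
      apply Nat.floor_le_of_le
      push_cast
      nlinarith
    calc ((⌊c * n⌋₊ : ℕ) : ℝ) * p k n ⌊c * n⌋₊ = ∑ _m ∈ range ⌊c * n⌋₊, p k n ⌊c * n⌋₊ := by
          rw [Finset.sum_const, Finset.card_range, nsmul_eq_mul]
      _ ≤ ∑ m ∈ range ⌊c * n⌋₊, p k n m :=
          Finset.sum_le_sum fun m hm => win_anti k n hn1 (Finset.mem_range.1 hm).le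
      _ ≤ mean k n (2^k * n) :=
          Finset.sum_le_sum_of_subset_of_nonneg (Finset.range_subset_range.2 hfM)
            fun m _ _ => p_nonneg k n m
  · intro b hb
    obtain ⟨c, hαc, hcb⟩ := exists_between hb
    have hc0 : 0 < c := hα.trans hαc
    have ht := h0 c hαc
    have hlim : Tendsto (fun n : ℕ => c + 2^k * p k n ⌊c * n⌋₊) atTop (𝓝 c) := by
      simpa using (ht.const_mul ((2:ℝ)^k)).const_add c
    filter_upwards [hlim.eventually_lt_const hcb, eventually_ge_atTop 1] with n hn hn1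
    refine lt_of_le_of_lt ?_ hn
    have hn0 : (0:ℝ) < n := by exact_mod_cast hn1
    rw [div_le_iff₀ hn0]
    have hA : mean k n (2^k * n) ≤ ∑ m ∈ range (2^k * n),
        ((if m < ⌊c * n⌋₊ then (1:ℝ) else 0) + p k n ⌊c * n⌋₊) := by
      refine Finset.sum_le_sum fun m _ => ?_
      split_ifs with h
      · have a1 := p_le_one k n m hn1
        have a2 := p_nonneg k n ⌊c * n⌋₊
        linarith
      · rw [zero_add]
        exact win_anti k n hn1 (not_lt.1 h)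
    refine hA.trans ?_
    rw [Finset.sum_add_distrib, Finset.sum_const, Finset.card_range, nsmul_eq_mul]
    have hB : ∑ m ∈ range (2^k * n), (if m < ⌊c * n⌋₊ then (1:ℝ) else 0) ≤ c * n := by
      rw [← Finset.sum_filter, Finset.sum_const, nsmul_eq_mul, mul_one]
      have hcard : ((range (2^k * n)).filter fun m => m < ⌊c * n⌋₊).card ≤ ⌊c * n⌋₊ := by
        calc _ ≤ (range ⌊c * n⌋₊).card := by
              apply Finset.card_le_card
              intro m hm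
              exact Finset.mem_range.2 (Finset.mem_filter.1 hm).2
          _ = _ := Finset.card_range _
      calc ((((range (2^k * n)).filter fun m => m < ⌊c * n⌋₊).card : ℕ) : ℝ)
          ≤ ((⌊c * n⌋₊ : ℕ) : ℝ) := by exact_mod_cast hcard
        _ ≤ c * n := Nat.floor_le (by positivity)
    have hC : ((2^k * n : ℕ) : ℝ) * p k n ⌊c * n⌋₊ = 2^k * p k n ⌊c * n⌋₊ * n := by
      push_cast; ring
    rw [hC]
    nlinarith

/-- the lower side of the window, for one `n` -/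
lemma win_low (k n : ℕ) (hk : 3 ≤ k) (Cv C ε : ℝ) (hCv : 0 ≤ Cv) (hC0 : 0 < C) (hε : 0 < ε)
    (hCe : 8 * Cv ≤ C^2 * ε) (hv : vari k n (2^k * n) ≤ Cv * (n:ℝ) ^ (4/3 : ℝ))
    (hn1 : 4 * 2^k * k^2 / (C * ε) ≤ (n:ℝ) ^ (2/3 : ℝ)) (hkn : k ≤ n) (m : ℕ)
    (hm : (m : ℝ) ≤ mean k n (2^k * n) - C * (n : ℝ) ^ (2/3 : ℝ)) : 1 - ε ≤ satProb k n m := by
  have hnn : 1 ≤ n := by omega
  have hn0 : (0 : ℝ) < n := by exact_mod_cast hnn
  have hk0 : (0:ℝ) < k := by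
    have : 0 < k := by omega
    exact_mod_cast this
  have h2k : (0:ℝ) < 2^k := by positivity
  set q : ℝ := (n:ℝ) ^ (2/3 : ℝ) with hq
  have hq0 : 0 < q := by positivity
  have hqq : q ^ 2 = (n:ℝ) ^ (4/3 : ℝ) := by
    rw [hq, ← Real.rpow_natCast, ← Real.rpow_mul hn0.le]; norm_num
  have hqle := qq_ge hkn hnn
  have hqadd : 0 ≤ 1 - qq k n := by
    have := qq_add (k := k) hnn
    have h2 : 0 ≤ ∑ τ, wi k n τ := Finset.sum_nonneg fun τ _ => wi_nonneg τ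
    linarith
  have hmeanle : mean k n (2^k * n) ≤ 2^k * n := by
    have := win_mean_le k n (2^k * n) hnn
    push_cast at this; exact this
  have hCq : 0 ≤ C / 2 * q := by positivity
  obtain ⟨M, hM⟩ : ∃ M : ℕ, M = ⌊(m:ℝ) + C / 2 * q⌋₊ := ⟨_, rfl⟩
  have hMle : (M:ℝ) ≤ (m:ℝ) + C / 2 * q := by rw [hM]; exact Nat.floor_le (by positivity)
  have hMlt : (m:ℝ) + C / 2 * q < (M:ℝ) + 1 := by rw [hM]; exact Nat.lt_floor_add_one _
  have hmM : m ≤ M := by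
    rw [hM]; apply Nat.le_floor
    linarith
  have key := pIid_le k hnn hmM
  have hMt : (M:ℝ) + C / 2 * q ≤ mean k n (2^k * n) := by linarith
  have hc := win_left k n hnn Cv hv M (C / 2 * q) (by positivity) hMt
  have e1 : Cv * (n:ℝ) ^ (4/3 : ℝ) / (C / 2 * q) ^ 2 = 4 * Cv / C^2 := by
    rw [← hqq]; field_simp; norm_num
  have e2 : 4 * Cv / C^2 ≤ ε / 2 := by
    rw [div_le_iff₀ (by positivity)]
    linarith
  have e3 : (M:ℝ) * (1 - qq k n) / ((M:ℝ) - m + 1) ≤ ε / 2 := by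
    have b1 : C / 2 * q ≤ (M:ℝ) - m + 1 := by linarith
    have b2 : (M:ℝ) * (1 - qq k n) ≤ 2^k * k^2 := by
      calc (M:ℝ) * (1 - qq k n) ≤ (2^k * n) * ((k:ℝ)^2 / n) := by
            apply mul_le_mul _ (by linarith) hqadd (by positivity)
            linarith
        _ = 2^k * k^2 := by field_simp
    calc (M:ℝ) * (1 - qq k n) / ((M:ℝ) - m + 1) ≤ 2^k * k^2 / (C / 2 * q) :=
          div_le_div₀ (by positivity) b2 (by positivity) b1
      _ ≤ ε / 2 := by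
          rw [div_le_iff₀ (by positivity)]
          rw [div_le_iff₀ (by positivity)] at hn1
          linarith
  have e4 : p k n M = pIid k n M := p_eq_count k n M hnn
  rw [e1] at hc
  linarith

/-- the upper side of the window, for one `n` -/
lemma win_upp (k n : ℕ) (hk : 3 ≤ k) (Cv C ε : ℝ) (hCv : 0 ≤ Cv) (hC0 : 0 < C) (hε : 0 < ε)
    (hCe : Real.exp (2 * k^2 * 2^k) * Cv ≤ C^2 * ε)
    (hv : vari k n (2^k * n) ≤ Cv * (n:ℝ) ^ (4/3 : ℝ))
    (hn2 : mean k n (2^k * n) / n + (C * (n:ℝ) ^ (2/3 : ℝ) / n + 1 / n) < 2^k)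
    (hn3 : 2 * k^2 ≤ n) (m : ℕ)
    (hm : mean k n (2^k * n) + C * (n : ℝ) ^ (2/3 : ℝ) ≤ m) : satProb k n m ≤ ε := by
  have hk2 : k ≤ k ^ 2 := Nat.le_self_pow (by norm_num) k
  have hkn : k ≤ n := by omega
  have hnn : 1 ≤ n := by omega
  have hn0 : (0 : ℝ) < n := by exact_mod_cast hnn
  have h2k : (0:ℝ) < 2^k := by positivity
  set q : ℝ := (n:ℝ) ^ (2/3 : ℝ) with hq
  have hq0 : 0 < q := by positivity
  have hqq : q ^ 2 = (n:ℝ) ^ (4/3 : ℝ) := by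
    rw [hq, ← Real.rpow_natCast, ← Real.rpow_mul hn0.le]; norm_num
  have hqle := qq_ge hkn hnn
  have hmean0 := win_mean_nonneg k n (2^k * n)
  obtain ⟨X, hX⟩ : ∃ X : ℝ, X = Real.exp (2 * k^2 * 2^k) := ⟨_, rfl⟩
  have hX0 : 0 < X := by rw [hX]; exact Real.exp_pos _
  rw [← hX] at hCe
  obtain ⟨m₀, hm₀⟩ : ∃ m₀ : ℕ, m₀ = ⌈mean k n (2^k * n) + C * q⌉₊ := ⟨_, rfl⟩
  have h2 : mean k n (2^k * n) + C * q ≤ m₀ := by rw [hm₀]; exact Nat.le_ceil _
  have h3 : (m₀:ℝ) < mean k n (2^k * n) + C * q + 1 := by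
    rw [hm₀]; exact Nat.ceil_lt_add_one (by positivity)
  have hmm : m₀ ≤ m := by rw [hm₀]; exact Nat.ceil_le.2 hm
  have h4 : (m₀:ℝ) < 2^k * n := by
    have b1 : (mean k n (2^k * n) / n + (C * q / n + 1 / n)) * n =
        mean k n (2^k * n) + C * q + 1 := by field_simp; ring
    have b2 := mul_lt_mul_of_pos_right hn2 hn0
    rw [b1] at b2
    linarith
  have h5 : m₀ < 2^k * n := by exact_mod_cast h4
  have hmt : mean k n (2^k * n) + C * q ≤ (m₀:ℝ) + 1 := by linarith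
  have hc := win_right k n hnn Cv hv m₀ h5 (C * q) (by positivity) hmt
  have e1 : Cv * (n:ℝ) ^ (4/3 : ℝ) / (C * q) ^ 2 = Cv / C^2 := by
    rw [← hqq]; field_simp
  rw [e1] at hc
  obtain ⟨y, hy⟩ : ∃ y : ℝ, y = (k : ℝ) ^ 2 / n := ⟨_, rfl⟩
  rw [← hy] at hqle
  have hy0 : 0 ≤ y := by rw [hy]; positivity
  have hy1 : y ≤ 1 / 2 := by
    rw [hy, div_le_div_iff₀ hn0 (by norm_num)]
    have : ((2 * k ^ 2 : ℕ) : ℝ) ≤ n := by exact_mod_cast hn3
    push_cast at this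
    linarith
  have hexp : Real.exp (-(2 * y)) ≤ 1 - y := by
    have a1 : 1 + 2 * y ≤ Real.exp (2 * y) := by
      have := Real.add_one_le_exp (2 * y); linarith
    rw [Real.exp_neg]
    rw [inv_le_comm₀ (Real.exp_pos _) (by linarith)]
    refine le_trans ?_ a1
    rw [inv_le_comm₀ (by linarith) (by linarith), inv_eq_one_div, div_le_iff₀ (by linarith)]
    nlinarith
  have hpow : X⁻¹ ≤ qq k n ^ m₀ := by
    calc X⁻¹ = Real.exp (-(2 * k ^ 2 * 2^k)) := by rw [hX, Real.exp_neg]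
      _ ≤ Real.exp (-(2 * y)) ^ m₀ := by
          rw [← Real.exp_nat_mul]
          apply Real.exp_le_exp.2
          have a2 : (m₀ : ℝ) * (2 * y) ≤ (2^k * n) * (2 * y) :=
            mul_le_mul_of_nonneg_right h4.le (by positivity)
          have a3 : (2^k * n) * (2 * y) = 2 * (k:ℝ) ^ 2 * 2^k := by
            rw [hy]; field_simp
          linarith
      _ ≤ qq k n ^ m₀ := pow_le_pow_left₀ (Real.exp_pos _).le (by linarith) _
  have h6 := pIid_ge k n m₀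
  have h7 : X⁻¹ * satProb k n m₀ ≤ pIid k n m₀ :=
    (mul_le_mul_of_nonneg_right hpow (satProb_nonneg k n _)).trans h6
  have e4 : p k n m₀ = pIid k n m₀ := p_eq_count k n m₀ hnn
  rw [← e4] at h7
  have h8 : satProb k n m₀ ≤ X * (Cv / C^2) := by
    have h9 := h7.trans hc
    rw [inv_mul_le_iff₀ hX0] at h9
    exact h9
  have h10 : X * (Cv / C^2) ≤ ε := by
    rw [← mul_div_assoc, div_le_iff₀ (by positivity)]
    linarith
  exact (satProb_antitone k n hmm).trans (h8.trans h10)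

/-- **The window.** -/
theorem window (k : ℕ) (hk : 3 ≤ k) : ∃ α : ℝ, 0 < α ∧
    (∀ c : ℝ, 0 ≤ c → c < α → Tendsto (fun n : ℕ => satProb k n ⌊c * n⌋₊) atTop (𝓝 1)) ∧
    (∀ c : ℝ, α < c → Tendsto (fun n : ℕ => satProb k n ⌊c * n⌋₊) atTop (𝓝 0)) ∧
    ∃ μ : ℕ → ℝ, Tendsto (fun n : ℕ => μ n / n) atTop (𝓝 α) ∧
      ∀ ε : ℝ, 0 < ε → ∃ C : ℝ, ∀ᶠ n : ℕ in atTop, ∀ m : ℕ,
        ((m : ℝ) ≤ μ n - C * (n : ℝ) ^ (2/3 : ℝ) → 1 - ε ≤ satProb k n m) ∧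
        (μ n + C * (n : ℝ) ^ (2/3 : ℝ) ≤ m → satProb k n m ≤ ε) := by
  obtain ⟨α, hα, h1, h0⟩ := iid_threshold k hk
  have e : ∀ n : ℕ, 1 ≤ n → ∀ m, p k n m = pIid k n m := fun n hn m => p_eq_count k n m hn
  have h1' : ∀ c : ℝ, 0 ≤ c → c < α →
      Tendsto (fun n : ℕ => pIid k n ⌊c * n⌋₊) atTop (𝓝 1) := by
    intro c hc hcα
    refine (h1 c hc hcα).congr' ?_
    filter_upwards [eventually_ge_atTop 1] with n hn
    exact e n hn _
  have h0' : ∀ c : ℝ, α < c →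
      Tendsto (fun n : ℕ => pIid k n ⌊c * n⌋₊) atTop (𝓝 0) := by
    intro c hc
    refine (h0 c hc).congr' ?_
    filter_upwards [eventually_ge_atTop 1] with n hn
    exact e n hn _
  obtain ⟨g1, g0⟩ := transfer k (by omega) α hα h1' h0'
  have hmt := win_mean_tendsto k hk α hα h1 h0
  refine ⟨α, hα, g1, g0, fun n => mean k n (2^k * n), hmt, ?_⟩
  have hα2 := win_alpha_le k hk α h1
  obtain ⟨Cv, hCv, hv⟩ := win_var k hk
  intro ε hε
  have h2k : (0:ℝ) < 2^k := by positivity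
  obtain ⟨X, hX⟩ : ∃ X : ℝ, X = Real.exp (2 * k^2 * 2^k) := ⟨_, rfl⟩
  have hX0 : 0 < X := by rw [hX]; exact Real.exp_pos _
  obtain ⟨C, hC⟩ : ∃ C : ℝ, C = 1 + (8 * Cv + X * Cv) / ε := ⟨_, rfl⟩
  have hD0 : 0 ≤ (8 * Cv + X * Cv) / ε := by positivity
  have hC1 : 1 ≤ C := by linarith
  have hC0 : 0 < C := by linarith
  have hCC : C ≤ C^2 := by nlinarith
  have hCe : (8 * Cv + X * Cv) ≤ C^2 * ε := by
    have h3 : (8 * Cv + X * Cv) / ε ≤ C^2 := by linarith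
    rwa [div_le_iff₀ hε] at h3
  have hXCv : 0 ≤ X * Cv := by positivity
  refine ⟨C, ?_⟩
  have hq23 : Tendsto (fun n : ℕ => (n:ℝ) ^ (2/3 : ℝ)) atTop atTop :=
    (tendsto_rpow_atTop (by norm_num)).comp tendsto_natCast_atTop_atTop
  have ev1 : ∀ᶠ n : ℕ in atTop, 4 * 2^k * (k:ℝ)^2 / (C * ε) ≤ (n:ℝ) ^ (2/3 : ℝ) :=
    hq23.eventually_ge_atTop _
  have hsmall : Tendsto (fun n : ℕ => C * (n:ℝ) ^ (2/3 : ℝ) / n + 1 / n) atTop (𝓝 0) := by
    have a1 : Tendsto (fun n : ℕ => C * (n:ℝ) ^ (-(1/3) : ℝ)) atTop (𝓝 0) := by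
      have := ((tendsto_rpow_neg_atTop (show (0:ℝ) < 1/3 by norm_num)).comp
        (tendsto_natCast_atTop_atTop (R := ℝ))).const_mul C
      simpa using this
    have a2 : Tendsto (fun n : ℕ => C * (n:ℝ) ^ (2/3 : ℝ) / n) atTop (𝓝 0) := by
      refine a1.congr' ?_
      filter_upwards [eventually_ge_atTop 1] with n hn
      have hn0 : (0:ℝ) < n := by exact_mod_cast hn
      have : (n:ℝ) ^ (-(1/3) : ℝ) = (n:ℝ) ^ (2/3 : ℝ) / n := by
        nth_rewrite 3 [← Real.rpow_one (n:ℝ)]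
        rw [← Real.rpow_sub hn0]; norm_num
      rw [this]; ring
    simpa using a2.add tendsto_one_div_atTop_nhds_zero_nat
  have ev2 : ∀ᶠ n : ℕ in atTop, mean k n (2^k * n) / n + (C * (n:ℝ) ^ (2/3 : ℝ) / n + 1 / n)
      < 2^k := by
    have := hmt.add hsmall
    rw [add_zero] at this
    exact this.eventually_lt_const (by linarith)
  filter_upwards [ev1, ev2, eventually_ge_atTop (2 * k^2)] with n hn1 hn2 hn3 m
  have hk2 : k ≤ k ^ 2 := Nat.le_self_pow (by norm_num) k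
  exact ⟨win_low k n hk Cv C ε hCv hC0 hε (by linarith) (hv n (by omega)) hn1 (by omega) m,
    win_upp k n hk Cv C ε hCv hC0 hε (by rw [← hX]; linarith) (hv n (by omega)) hn2 hn3 m⟩

end P170
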